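import Mathlib

/-! # Valuations of a tensor product `F₁ ⊗[F] K` attached to a place of `K`

`F ⊆ F₁` fields, `F` dense in `F₁` for a discrete valuation `w₁`, `K / F` finite, `u` a discrete
valuation of `K` with `u = e w` on `F`.  By approximation of the elements of `F₁ ⊗[F] K` by elements
of `K` we get a prime ideal `nul` of `F₁ ⊗[F] K` and a valuation `val` of the quotient. -/

open TensorProduct

namespace P025H731

/-- `f` is a discrete valuation (with `f 0 = 0`), written additively -/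
structure DV {F : Type*} [Field F] (f : F → ℤ) : Prop where
  zero : f 0 = 0
  mul : ∀ x y, x ≠ 0 → y ≠ 0 → f (x * y) = f x + f y
  add : ∀ x y, x ≠ 0 → y ≠ 0 → x + y ≠ 0 → min (f x) (f y) ≤ f (x + y)

/-- `x` has value at least `n` -/
def Ge {F : Type*} [Field F] (f : F → ℤ) (n : ℤ) (x : F) : Prop := x = 0 ∨ n ≤ f x

section dv

variable {F : Type*} [Field F] {f : F → ℤ}

lemma DV.one (h : DV f) : f 1 = 0 := by
  have h1 := h.mul 1 1 one_ne_zero one_ne_zero
  rw [one_mul] at h1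
  omega

lemma DV.neg_one (h : DV f) : f (-1) = 0 := by
  have h0 : (-1 : F) ≠ 0 := neg_ne_zero.2 one_ne_zero
  have h1 := h.mul (-1) (-1) h0 h0
  rw [neg_mul_neg, one_mul, h.one] at h1
  omega

lemma DV.neg (h : DV f) (x : F) : f (-x) = f x := by
  by_cases hx : x = 0
  · rw [hx, neg_zero]
  have h0 : (-1 : F) ≠ 0 := neg_ne_zero.2 one_ne_zero
  have h1 := h.mul (-1) x h0 hx
  rw [h.neg_one, zero_add, neg_one_mul] at h1
  exact h1

lemma DV.inv (h : DV f) (x : F) : f x⁻¹ = - f x := by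
  by_cases hx : x = 0
  · rw [hx, inv_zero, h.zero, neg_zero]
  have h1 := h.mul x x⁻¹ hx (inv_ne_zero hx)
  rw [mul_inv_cancel₀ hx, h.one] at h1
  omega

lemma DV.pow (h : DV f) (x : F) (n : ℕ) : f (x ^ n) = n * f x := by
  by_cases hx : x = 0
  · rcases Nat.eq_zero_or_pos n with rfl | hn
    · rw [pow_zero, h.one, Nat.cast_zero, zero_mul]
    · rw [hx, zero_pow hn.ne', h.zero, mul_zero]
  induction n with
  | zero => rw [pow_zero, h.one, Nat.cast_zero, zero_mul]
  | succ n ih =>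
    rw [pow_succ, h.mul _ _ (pow_ne_zero n hx) hx, ih]
    push_cast
    ring

lemma Ge.zero (n : ℤ) : Ge f n (0 : F) := Or.inl rfl

lemma Ge.mono {m n : ℤ} (hmn : m ≤ n) {x : F} (h : Ge f n x) : Ge f m x :=
  h.imp id (fun h => hmn.trans h)

lemma Ge.neg (hf : DV f) {n : ℤ} {x : F} (h : Ge f n x) : Ge f n (-x) := by
  rcases h with h | h
  · exact Or.inl (by rw [h, neg_zero])
  · exact Or.inr (by rwa [hf.neg])

lemma Ge.add (hf : DV f) {n : ℤ} {x y : F} (hx : Ge f n x) (hy : Ge f n y) : Ge f n (x + y) := by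
  rcases hx with hx | hx
  · rwa [hx, zero_add]
  rcases hy with hy | hy
  · rw [hy, add_zero]; exact Or.inr hx
  by_cases h1 : x = 0
  · rw [h1, zero_add]; exact Or.inr hy
  by_cases h2 : y = 0
  · rw [h2, add_zero]; exact Or.inr hx
  by_cases h3 : x + y = 0
  · exact Or.inl h3
  · exact Or.inr ((le_min hx hy).trans (hf.add x y h1 h2 h3))

lemma Ge.sub (hf : DV f) {n : ℤ} {x y : F} (hx : Ge f n x) (hy : Ge f n y) : Ge f n (x - y) := by
  rw [sub_eq_add_neg]
  exact hx.add hf (hy.neg hf)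

lemma Ge.mul (hf : DV f) {m n : ℤ} {x y : F} (hx : Ge f m x) (hy : Ge f n y) :
    Ge f (m + n) (x * y) := by
  rcases hx with hx | hx
  · exact Or.inl (by rw [hx, zero_mul])
  rcases hy with hy | hy
  · exact Or.inl (by rw [hy, mul_zero])
  by_cases h1 : x = 0
  · exact Or.inl (by rw [h1, zero_mul])
  by_cases h2 : y = 0
  · exact Or.inl (by rw [h2, mul_zero])
  · exact Or.inr (by rw [hf.mul x y h1 h2]; omega)

lemma Ge.sum (hf : DV f) {n : ℤ} {ι : Type*} {s : Finset ι} {g : ι → F}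
    (h : ∀ i ∈ s, Ge f n (g i)) : Ge f n (∑ i ∈ s, g i) := by
  classical
  induction s using Finset.induction_on with
  | empty => exact Ge.zero n
  | insert a s ha ih =>
    rw [Finset.sum_insert ha]
    exact (h a (Finset.mem_insert_self a s)).add hf
      (ih fun i hi => h i (Finset.mem_insert_of_mem hi))

/-- strict triangle equality -/
lemma DV.eq_of_sub (hf : DV f) {x y : F} {n : ℤ} (hx : x ≠ 0) (hlt : f x < n)
    (h : Ge f n (y - x)) : y ≠ 0 ∧ f y = f x := by
  rcases h with h | h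
  · rw [sub_eq_zero] at h
    rw [h]
    exact ⟨hx, rfl⟩
  have hy : y ≠ 0 := by
    rintro rfl
    rw [zero_sub, hf.neg] at h
    omega
  refine ⟨hy, ?_⟩
  by_cases hd : y - x = 0
  · rw [sub_eq_zero.1 hd]
  have h1 := hf.add (y - x) x hd hx (by rwa [sub_add_cancel])
  rw [sub_add_cancel] at h1
  have h2 := hf.add (-(y - x)) y (neg_ne_zero.2 hd) hy
    (by rw [neg_sub, sub_add_cancel]; exact hx)
  rw [neg_sub, sub_add_cancel] at h2
  have h3 : f (x - y) = f (y - x) := by rw [← neg_sub, hf.neg]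
  rw [h3] at h2
  rcases min_le_iff.1 h1 with h4 | h4 <;> rcases min_le_iff.1 h2 with h5 | h5 <;> omega

end dv

/-- local data: compatible discrete valuations `w` of `F`, `w₁` of `F₁` and `u` of `K`, `F` dense
in `F₁` -/
structure Loc {F F₁ K : Type*} [Field F] [Field F₁] [Field K] [Algebra F F₁] [Algebra F K]
    (w : F → ℤ) (w₁ : F₁ → ℤ) (u : K → ℤ) (e : ℤ) : Prop where
  dw : DV w
  dw₁ : DV w₁
  du : DV u
  pos : 0 < e
  comp₁ : ∀ x, w₁ (algebraMap F F₁ x) = w x
  comp : ∀ x, u (algebraMap F K x) = e * w x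
  dense : ∀ (x : F₁) (M : ℤ), ∃ y : F, Ge w₁ M (x - algebraMap F F₁ y)

section lam

variable {F₁ : Type*} [Field F₁] {w₁ : F₁ → ℤ}

/-- the lattice of coordinates of value at least `M` -/
def LamB {ι V : Type*} [AddCommGroup V] [Module F₁ V] (B : Module.Basis ι F₁ V) (w₁ : F₁ → ℤ)
    (M : ℤ) (z : V) : Prop := ∀ i, Ge w₁ M (B.repr z i)

section gen

variable {ι V : Type*} [AddCommGroup V] [Module F₁ V] {B : Module.Basis ι F₁ V}

lemma LamB.zero (M : ℤ) : LamB B w₁ M (0 : V) := by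
  intro i
  rw [map_zero]
  exact Ge.zero M

lemma LamB.mono {M N : ℤ} (h : M ≤ N) {z : V} (hz : LamB B w₁ N z) : LamB B w₁ M z :=
  fun i => (hz i).mono h

lemma LamB.add (hw : DV w₁) {M : ℤ} {y z : V} (hy : LamB B w₁ M y) (hz : LamB B w₁ M z) :
    LamB B w₁ M (y + z) := by
  intro i
  rw [map_add]
  exact (hy i).add hw (hz i)

lemma LamB.neg (hw : DV w₁) {M : ℤ} {z : V} (hz : LamB B w₁ M z) : LamB B w₁ M (-z) := by
  intro i
  rw [map_neg]
  exact (hz i).neg hw

lemma LamB.sub (hw : DV w₁) {M : ℤ} {y z : V} (hy : LamB B w₁ M y) (hz : LamB B w₁ M z) :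
    LamB B w₁ M (y - z) := by
  rw [sub_eq_add_neg]
  exact hy.add hw (hz.neg hw)

/-- a common lower bound for finitely many values -/
lemma exists_bound {ι : Type*} [Finite ι] (a : ι → ℤ) : ∃ c : ℤ, 0 ≤ c ∧ ∀ i, -c ≤ a i := by
  classical
  have := Fintype.ofFinite ι
  refine ⟨∑ i, |a i|, Finset.sum_nonneg fun i _ => abs_nonneg _, fun i => ?_⟩
  have h1 : |a i| ≤ ∑ i, |a i| :=
    Finset.single_le_sum (f := fun i => |a i|) (fun i _ => abs_nonneg _) (Finset.mem_univ i)
  have h2 := neg_abs_le (a i)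
  omega

/-- every element is in a lattice -/
lemma exists_lamB [Finite ι] (z : V) : ∃ M : ℤ, LamB B w₁ M z := by
  obtain ⟨c, -, hc⟩ := exists_bound fun i => w₁ (B.repr z i)
  exact ⟨-c, fun i => Or.inr (hc i)⟩

/-- linear maps are bounded -/
lemma lin_bound (hw : DV w₁) [Finite ι] {ι' V' : Type*} [Finite ι'] [AddCommGroup V']
    [Module F₁ V'] (B : Module.Basis ι F₁ V) (B' : Module.Basis ι' F₁ V') (T : V →ₗ[F₁] V') :
    ∃ c : ℤ, ∀ (M : ℤ) (z : V), LamB B w₁ M z → LamB B' w₁ (M - c) (T z) := by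
  classical
  have := Fintype.ofFinite ι
  obtain ⟨c, -, hc⟩ := exists_bound fun ij : ι × ι' => w₁ (B'.repr (T (B ij.1)) ij.2)
  refine ⟨c, fun M z hz j => ?_⟩
  have h1 : B'.repr (T z) j = ∑ i, B.repr z i * B'.repr (T (B i)) j := by
    conv_lhs => rw [← B.sum_repr z, map_sum, map_sum, Finsupp.finsetSum_apply]
    refine Finset.sum_congr rfl fun i _ => ?_
    rw [map_smul, map_smul, Finsupp.smul_apply, smul_eq_mul]
  rw [h1]
  refine Ge.sum hw fun i _ => ?_
  have h2 : Ge w₁ (-c) (B'.repr (T (B i)) j) := Or.inr (hc (i, j))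
  have h3 := (hz i).mul hw h2
  rwa [← sub_eq_add_neg] at h3

end gen

variable {F K : Type*} [Field F] [Field K] [Algebra F F₁] [Algebra F K]
  [FiniteDimensional F K]

/-- a basis of `K / F` -/
noncomputable def bas (F K : Type*) [Field F] [Field K] [Algebra F K] [FiniteDimensional F K] :
    Module.Basis (Fin (Module.finrank F K)) F K := Module.finBasis F K

/-- the corresponding basis of `F₁ ⊗[F] K` -/
noncomputable def bas₁ (F F₁ K : Type*) [Field F] [Field F₁] [Field K] [Algebra F F₁] [Algebra F K]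
    [FiniteDimensional F K] : Module.Basis (Fin (Module.finrank F K)) F₁ (F₁ ⊗[F] K) :=
  Algebra.TensorProduct.basis F₁ (bas F K)

/-- the lattices of `F₁ ⊗[F] K` -/
def Lam (w₁ : F₁ → ℤ) (M : ℤ) (z : F₁ ⊗[F] K) : Prop := LamB (bas₁ F F₁ K) w₁ M z

/-- the inclusion of `K` in `F₁ ⊗[F] K` -/
noncomputable def inc (F F₁ K : Type*) [Field F] [Field F₁] [Field K] [Algebra F F₁] [Algebra F K] :
    K →ₐ[F] F₁ ⊗[F] K := Algebra.TensorProduct.includeRight

lemma bas₁_repr_inc (y : K) (i) :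
    (bas₁ F F₁ K).repr (inc F F₁ K y) i = algebraMap F F₁ ((bas F K).repr y i) := by
  rw [bas₁, inc, Algebra.TensorProduct.includeRight_apply,
    Algebra.TensorProduct.basis_repr_tmul]
  simp [Algebra.algebraMap_eq_smul_one]

/-- `y` approximates `x` -/
def App (w₁ : F₁ → ℤ) (M : ℤ) (x : F₁ ⊗[F] K) (y : K) : Prop := Lam w₁ M (x - inc F F₁ K y)

lemma App.mono {M N : ℤ} (h : M ≤ N) {x : F₁ ⊗[F] K} {y : K} (hz : App w₁ N x y) :
    App w₁ M x y := LamB.mono h hz

lemma app_inc (M : ℤ) (y : K) : App w₁ M (inc F F₁ K y) y := by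
  rw [App, sub_self]
  exact LamB.zero M

lemma App.add (hw : DV w₁) {M : ℤ} {x x' : F₁ ⊗[F] K} {y y' : K} (h : App w₁ M x y)
    (h' : App w₁ M x' y') : App w₁ M (x + x') (y + y') := by
  have h1 := LamB.add hw h h'
  rw [App, Lam, map_add]
  rwa [show x + x' - (inc F F₁ K y + inc F F₁ K y') =
    x - inc F F₁ K y + (x' - inc F F₁ K y') by ring]

/-- the difference of two approximations is small -/
lemma App.diff (hw : DV w₁) {M : ℤ} {x : F₁ ⊗[F] K} {y y' : K} (h : App w₁ M x y)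
    (h' : App w₁ M x y') : Lam w₁ M (inc F F₁ K (y' - y)) := by
  have h1 := LamB.sub hw h h'
  rw [map_sub]
  rwa [sub_sub_sub_cancel_left] at h1

variable {w : F → ℤ} {u : K → ℤ} {e : ℤ}

lemma Loc.exists_app (h : Loc w w₁ u e) (x : F₁ ⊗[F] K) (M : ℤ) : ∃ y : K, App w₁ M x y := by
  choose a ha using fun i => h.dense ((bas₁ F F₁ K).repr x i) M
  refine ⟨∑ i, a i • bas F K i, fun i => ?_⟩
  rw [map_sub, Finsupp.sub_apply, bas₁_repr_inc]
  have h1 : (bas F K).repr (∑ i, a i • bas F K i) i = a i := by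
    classical
    rw [map_sum, Finsupp.finsetSum_apply]
    simp [Finsupp.single_apply]
  rw [h1]
  exact ha i

/-- small lattices meet `K` in elements of large value -/
lemma Loc.exists_small (h : Loc w w₁ u e) : ∃ c : ℤ, ∀ (M : ℤ) (y : K),
    Lam w₁ M (inc F F₁ K y) → Ge u (e * M - c) y := by
  classical
  obtain ⟨c, -, hc⟩ := exists_bound fun i => u (bas F K i)
  refine ⟨c, fun M y hy => ?_⟩
  rw [← (bas F K).sum_repr y]
  refine Ge.sum h.du fun i _ => ?_
  have h1 := hy i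
  rw [bas₁_repr_inc] at h1
  have h2 : Ge u (e * M) (algebraMap F K ((bas F K).repr y i)) := by
    rcases h1 with h1 | h1
    · rw [map_eq_zero] at h1
      exact Or.inl (by rw [h1, map_zero])
    · rw [h.comp₁] at h1
      exact Or.inr (by rw [h.comp]; exact mul_le_mul_of_nonneg_left h1 h.pos.le)
  have h3 : Ge u (-c) (bas F K i) := Or.inr (hc i)
  rw [Algebra.smul_def, sub_eq_add_neg]
  exact h2.mul h.du h3

/-- multiplication by a fixed element is bounded -/
lemma exists_mul_bound (hw : DV w₁) (x : F₁ ⊗[F] K) : ∃ c : ℤ, ∀ (M : ℤ) (z : F₁ ⊗[F] K),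
    Lam w₁ M z → Lam w₁ (M - c) (x * z) :=
  lin_bound hw (bas₁ F F₁ K) (bas₁ F F₁ K) (LinearMap.mulLeft F₁ x)

/-- the product is bounded -/
lemma exists_mul_bound' (hw : DV w₁) : ∃ c : ℤ, ∀ (M N : ℤ) (x z : F₁ ⊗[F] K),
    Lam w₁ M x → Lam w₁ N z → Lam w₁ (M + N - c) (x * z) := by
  classical
  choose c hc using fun i => exists_mul_bound hw (bas₁ F F₁ K i)
  obtain ⟨C, -, hC⟩ := exists_bound fun i => - c i
  refine ⟨C, fun M N x z hx hz j => ?_⟩
  have h1 : x * z = ∑ i, (bas₁ F F₁ K).repr x i • (bas₁ F F₁ K i * z) := by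
    conv_lhs => rw [← (bas₁ F F₁ K).sum_repr x, Finset.sum_mul]
    simp only [smul_mul_assoc]
  rw [h1, map_sum, Finsupp.finsetSum_apply]
  refine Ge.sum hw fun i _ => ?_
  rw [map_smul, Finsupp.smul_apply, smul_eq_mul]
  have h2 := (hx i).mul hw (hc i N z hz j)
  refine h2.mono ?_
  have := hC i
  omega

end lam

end P025H731
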