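import Vale.Agent.P025.R2.H816.J03
import Vale.Agent.P025.R2.H731.Val

/-! # The places of `C(t)` -/

open Polynomial Vale.Agent.P019P

namespace P025H731

section rat

variable {C : Type*} [Field C]

instance cffRat [IsAlgClosed C] : CFF C (RatFunc C) where
  ac := inferInstance
  ex := ⟨RatFunc.X, by
    rw [transcendental_iff]
    intro p hp
    rw [← RatFunc.algebraMap_X, Polynomial.aeval_algebraMap_apply,
      Polynomial.aeval_X_left_apply] at hp
    by_contra hne
    exact RatFunc.algebraMap_ne_zero hne hp, by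
    rw [RatFunc.adjoin_X]
    exact Module.Finite.of_surjective (Algebra.linearMap (⊤ : IntermediateField C (RatFunc C))
      (RatFunc C)) fun x => ⟨⟨x, IntermediateField.mem_top⟩, rfl⟩⟩

/-- the order at a place as a discrete valuation -/
lemma ord_dv {K : Type*} [Field K] [Algebra C K] [CFF C K] (P : Plk C K) : DV (ord P) :=
  ⟨ord_zero P, fun _ _ hx hy => ord_mul P hx hy, fun _ _ hx hy h => ord_le_add P hx hy h⟩

variable [IsAlgClosed C] {p : Plk C (RatFunc C)}

lemma ratFunc_C_eq (a : C) : RatFunc.C a = algebraMap C (RatFunc C) a := rfl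

lemma ord_C (a : C) : ord p (RatFunc.C a) = 0 := ord_const p a

lemma algebraMap_C_eq' (a : C) : algebraMap C[X] (RatFunc C) (Polynomial.C a) = RatFunc.C a :=
  RatFunc.algebraMap_C a

/-- a place is at a finite point or at infinity -/
lemma finite_or_inf (p : Plk C (RatFunc C)) :
    (∃ a : C, 0 < ord p (RatFunc.X - RatFunc.C a)) ∨ ord p RatFunc.X < 0 := by
  by_cases h : ord p RatFunc.X < 0
  · exact Or.inr h
  left
  obtain ⟨c, hc⟩ := exists_cst p (z := RatFunc.X) ((mem_iff_ord p _).2 (Or.inr (not_lt.1 h)))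
  rcases hc with hc | hc
  · exfalso
    rw [← RatFunc.algebraMap_X, ← ratFunc_C_eq, ← RatFunc.algebraMap_C] at hc
    have h1 := RatFunc.algebraMap_injective C hc
    have h2 := congrArg Polynomial.natDegree h1
    rw [natDegree_X, natDegree_C] at h2
    exact one_ne_zero h2
  · exact ⟨c, hc⟩

section fin

variable {a : C}

lemma X_sub_ne (a : C) : (RatFunc.X - RatFunc.C a : RatFunc C) ≠ 0 := by
  rw [← RatFunc.algebraMap_X, ← RatFunc.algebraMap_C, ← map_sub]
  exact RatFunc.algebraMap_ne_zero (X_sub_C_ne_zero a)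

/-- polynomials have nonnegative order at finite points -/
lemma ord_poly_nonneg (h : 0 < ord p (RatFunc.X - RatFunc.C a)) (P : C[X]) :
    0 ≤ ord p (algebraMap C[X] (RatFunc C) P) := by
  have hX : 0 ≤ ord p RatFunc.X ∨ (RatFunc.X : RatFunc C) = 0 := by
    by_cases h0 : (RatFunc.X : RatFunc C) = 0
    · exact Or.inr h0
    left
    have h1 : (RatFunc.X : RatFunc C) = (RatFunc.X - RatFunc.C a) + RatFunc.C a := by ring
    have h2 : Ge (ord p) 0 (RatFunc.X : RatFunc C) := by
      rw [h1]
      exact Ge.add (ord_dv p) (Or.inr h.le) (Or.inr (ord_C a).ge)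
    exact h2.resolve_left h0
  have hX' : 0 ≤ ord p (RatFunc.X : RatFunc C) := by
    rcases hX with h1 | h1
    · exact h1
    · rw [h1, ord_zero]
  have h3 := COrd_aeval_mem hX' P
  rw [← RatFunc.algebraMap_X, Polynomial.aeval_algebraMap_apply,
    Polynomial.aeval_X_left_apply] at h3
  rcases h3 with h4 | h4
  · rw [h4, ord_zero]
  · exact h4

/-- polynomials not vanishing at `a` have order zero -/
lemma ord_poly_eq_zero (h : 0 < ord p (RatFunc.X - RatFunc.C a)) {P : C[X]}
    (hP : P.eval a ≠ 0) : ord p (algebraMap C[X] (RatFunc C) P) = 0 := by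
  have h1 : algebraMap C[X] (RatFunc C) P - RatFunc.C (P.eval a) =
      (RatFunc.X - RatFunc.C a) * algebraMap C[X] (RatFunc C) (P /ₘ (X - Polynomial.C a)) := by
    rw [← RatFunc.algebraMap_C, ← RatFunc.algebraMap_C, ← RatFunc.algebraMap_X, ← map_sub,
      ← map_sub, ← map_mul]
    congr 1
    have h2 := modByMonic_add_div P (X - Polynomial.C a)
    rw [modByMonic_X_sub_C_eq_C_eval] at h2
    linear_combination -h2
  have h2 : Ge (ord p) 1 (algebraMap C[X] (RatFunc C) P - RatFunc.C (P.eval a)) := by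
    rw [h1]
    have h3 : Ge (ord p) (1 + 0) ((RatFunc.X - RatFunc.C a) *
        algebraMap C[X] (RatFunc C) (P /ₘ (X - Polynomial.C a))) :=
      Ge.mul (ord_dv p) (Or.inr h) (Or.inr (ord_poly_nonneg h _))
    rwa [add_zero] at h3
  have h3 : RatFunc.C (P.eval a) ≠ 0 := by
    rw [ratFunc_C_eq, Ne, map_eq_zero]
    exact hP
  have h4 := ((ord_dv p).eq_of_sub h3 (by rw [ord_C]; exact zero_lt_one) h2).2
  rw [h4, ord_C]

/-- the order of a polynomial is a multiple of the order of `t - a` -/
lemma ord_poly_eq (h : 0 < ord p (RatFunc.X - RatFunc.C a)) {P : C[X]} (hP : P ≠ 0) :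
    ord p (algebraMap C[X] (RatFunc C) P) =
      P.rootMultiplicity a * ord p (RatFunc.X - RatFunc.C a) := by
  obtain ⟨Q, hQ, hd⟩ := exists_eq_pow_rootMultiplicity_mul_and_not_dvd P hP a
  have hQ0 : Q ≠ 0 := by
    rintro rfl
    exact hd (dvd_zero _)
  conv_lhs => rw [hQ, map_mul, map_pow, map_sub, RatFunc.algebraMap_X, RatFunc.algebraMap_C]
  rw [ord_mul p (pow_ne_zero _ (X_sub_ne a)) (RatFunc.algebraMap_ne_zero hQ0), ord_pow,
    ord_poly_eq_zero h (P := Q) (by rwa [dvd_iff_isRoot] at hd), add_zero]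

/-- `t - a` is a uniformizer -/
lemma ord_X_sub (h : 0 < ord p (RatFunc.X - RatFunc.C a)) :
    ord p (RatFunc.X - RatFunc.C a) = 1 := by
  obtain ⟨z, hz0, hz⟩ := exists_unif p
  have h1 : ord p z = (z.num.rootMultiplicity a - z.denom.rootMultiplicity a : ℤ) *
      ord p (RatFunc.X - RatFunc.C a) := by
    have hn : algebraMap C[X] (RatFunc C) z.num ≠ 0 :=
      RatFunc.algebraMap_ne_zero (RatFunc.num_ne_zero hz0)
    have hd : algebraMap C[X] (RatFunc C) z.denom ≠ 0 :=
      RatFunc.algebraMap_ne_zero z.denom_ne_zero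
    conv_lhs => rw [← RatFunc.num_div_denom z, div_eq_mul_inv]
    rw [ord_mul p hn (inv_ne_zero hd), ord_inv, ord_poly_eq h (RatFunc.num_ne_zero hz0),
      ord_poly_eq h z.denom_ne_zero]
    ring
  rw [hz] at h1
  have h2 : ord p (RatFunc.X - RatFunc.C a) ∣ 1 := Dvd.intro_left _ h1.symm
  exact Int.eq_one_of_dvd_one h.le h2

/-- the point is determined by the place -/
lemma point_unique {b : C} (h : 0 < ord p (RatFunc.X - RatFunc.C a))
    (h' : 0 < ord p (RatFunc.X - RatFunc.C b)) : a = b := by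
  by_contra hne
  have h1 : (RatFunc.X - RatFunc.C a : RatFunc C) =
      algebraMap C[X] (RatFunc C) (X - Polynomial.C a) := by
    rw [map_sub, RatFunc.algebraMap_X, RatFunc.algebraMap_C]
  have h2 := ord_poly_eq_zero h' (P := X - Polynomial.C a) (by
    rw [eval_sub, eval_X, eval_C, sub_ne_zero]
    exact fun hc => hne hc.symm)
  rw [← h1] at h2
  omega

lemma not_inf_of_fin (h : 0 < ord p (RatFunc.X - RatFunc.C a)) : ¬ ord p RatFunc.X < 0 := by
  have h1 := ord_poly_nonneg h X
  rw [RatFunc.algebraMap_X] at h1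
  omega

end fin

section inf

/-- the order of a polynomial at infinity -/
lemma ord_poly_inf (h : ord p RatFunc.X < 0) (n : ℕ) : ∀ P : C[X], P ≠ 0 → P.natDegree = n →
    ord p (algebraMap C[X] (RatFunc C) P) = n * ord p RatFunc.X := by
  have hX0 : (RatFunc.X : RatFunc C) ≠ 0 := RatFunc.X_ne_zero
  induction n with
  | zero =>
    intro P _ hn
    rw [eq_C_of_natDegree_eq_zero hn, RatFunc.algebraMap_C, ord_C, Nat.cast_zero, zero_mul]
  | succ n ih =>
    intro P hP hn
    have h1 : P.divX.natDegree = n := by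
      rw [natDegree_divX_eq_natDegree_tsub_one, hn, Nat.add_sub_cancel]
    have h2 : P.divX ≠ 0 := by
      intro h3
      rw [divX_eq_zero_iff] at h3
      rw [h3, natDegree_C] at hn
      omega
    have h3 := ih P.divX h2 h1
    have h4 : algebraMap C[X] (RatFunc C) P - RatFunc.X * algebraMap C[X] (RatFunc C) P.divX =
        RatFunc.C (P.coeff 0) := by
      rw [← RatFunc.algebraMap_X, ← RatFunc.algebraMap_C, ← map_mul, ← map_sub]
      congr 1
      have h5 := divX_mul_X_add P
      linear_combination -h5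
    have h5 : algebraMap C[X] (RatFunc C) P.divX ≠ 0 := RatFunc.algebraMap_ne_zero h2
    have h6 : ord p (RatFunc.X * algebraMap C[X] (RatFunc C) P.divX) =
        (n + 1 : ℕ) * ord p RatFunc.X := by
      rw [ord_mul p hX0 h5, h3]
      push_cast
      ring
    have h7 : ((n + 1 : ℕ) : ℤ) * ord p RatFunc.X < 0 := by
      apply mul_neg_of_pos_of_neg _ h
      positivity
    rw [← h6]
    refine ((ord_dv p).eq_of_sub (n := 0) (mul_ne_zero hX0 h5) (by rw [h6]; exact h7) ?_).2
    rw [h4]
    exact Or.inr (ord_C _).ge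

/-- `t` has a simple pole at infinity -/
lemma ord_X_inf (h : ord p RatFunc.X < 0) : ord p RatFunc.X = -1 := by
  obtain ⟨z, hz0, hz⟩ := exists_unif p
  have h1 : ord p z = (z.num.natDegree - z.denom.natDegree : ℤ) * ord p RatFunc.X := by
    have hn : algebraMap C[X] (RatFunc C) z.num ≠ 0 :=
      RatFunc.algebraMap_ne_zero (RatFunc.num_ne_zero hz0)
    have hd : algebraMap C[X] (RatFunc C) z.denom ≠ 0 :=
      RatFunc.algebraMap_ne_zero z.denom_ne_zero
    conv_lhs => rw [← RatFunc.num_div_denom z, div_eq_mul_inv]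
    rw [ord_mul p hn (inv_ne_zero hd), ord_inv, ord_poly_inf h _ _ (RatFunc.num_ne_zero hz0) rfl,
      ord_poly_inf h _ _ z.denom_ne_zero rfl]
    ring
  rw [hz] at h1
  have h2 : -ord p RatFunc.X ∣ 1 := by
    rw [neg_dvd]
    exact Dvd.intro_left _ h1.symm
  have h3 := Int.eq_one_of_dvd_one (by omega) h2
  omega

/-- order of a polynomial at infinity, exact form -/
lemma ord_poly_inf' (h : ord p RatFunc.X < 0) {P : C[X]} (hP : P ≠ 0) :
    ord p (algebraMap C[X] (RatFunc C) P) = -(P.natDegree : ℤ) := by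
  rw [ord_poly_inf h _ P hP rfl, ord_X_inf h]
  ring

end inf

/-- places of `C(t)` are determined by the point -/
lemma place_ext {q : Plk C (RatFunc C)} {a : C} (h : 0 < ord p (RatFunc.X - RatFunc.C a))
    (h' : 0 < ord q (RatFunc.X - RatFunc.C a)) : p = q := by
  refine Plk.eq_of_le fun z hz => ?_
  by_cases hz0 : z = 0
  · rw [hz0]; exact zero_mem _
  have key : ∀ {r : Plk C (RatFunc C)}, 0 < ord r (RatFunc.X - RatFunc.C a) →
      ord r z = (z.num.rootMultiplicity a : ℤ) - z.denom.rootMultiplicity a := by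
    intro r hr
    have hn : algebraMap C[X] (RatFunc C) z.num ≠ 0 :=
      RatFunc.algebraMap_ne_zero (RatFunc.num_ne_zero hz0)
    have hd : algebraMap C[X] (RatFunc C) z.denom ≠ 0 :=
      RatFunc.algebraMap_ne_zero z.denom_ne_zero
    conv_lhs => rw [← RatFunc.num_div_denom z, div_eq_mul_inv]
    rw [ord_mul r hn (inv_ne_zero hd), ord_inv, ord_poly_eq hr (RatFunc.num_ne_zero hz0),
      ord_poly_eq hr z.denom_ne_zero, ord_X_sub hr]
    ring
  rw [mem_iff_ord, key h] at hz
  rw [mem_iff_ord, key h']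
  exact hz

lemma place_ext_inf {q : Plk C (RatFunc C)} (h : ord p RatFunc.X < 0)
    (h' : ord q RatFunc.X < 0) : p = q := by
  refine Plk.eq_of_le fun z hz => ?_
  by_cases hz0 : z = 0
  · rw [hz0]; exact zero_mem _
  have key : ∀ {r : Plk C (RatFunc C)}, ord r RatFunc.X < 0 →
      ord r z = (z.denom.natDegree : ℤ) - z.num.natDegree := by
    intro r hr
    have hn : algebraMap C[X] (RatFunc C) z.num ≠ 0 :=
      RatFunc.algebraMap_ne_zero (RatFunc.num_ne_zero hz0)
    have hd : algebraMap C[X] (RatFunc C) z.denom ≠ 0 :=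
      RatFunc.algebraMap_ne_zero z.denom_ne_zero
    conv_lhs => rw [← RatFunc.num_div_denom z, div_eq_mul_inv]
    rw [ord_mul r hn (inv_ne_zero hd), ord_inv, ord_poly_inf' hr (RatFunc.num_ne_zero hz0),
      ord_poly_inf' hr z.denom_ne_zero]
    ring
  rw [mem_iff_ord, key h] at hz
  rw [mem_iff_ord, key h']
  exact hz

/-- there is a place at every point -/
lemma exists_place (a : C) : ∃ p : Plk C (RatFunc C), 0 < ord p (RatFunc.X - RatFunc.C a) := by
  refine exists_zero fun b hb => ?_
  have h1 : (RatFunc.X : RatFunc C) = RatFunc.C (a + b) := by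
    rw [map_add, ratFunc_C_eq b, ← hb]
    ring
  rw [← RatFunc.algebraMap_X, ← RatFunc.algebraMap_C] at h1
  have h2 := congrArg Polynomial.natDegree (RatFunc.algebraMap_injective C h1)
  rw [natDegree_X, natDegree_C] at h2
  exact one_ne_zero h2

lemma exists_place_inf : ∃ p : Plk C (RatFunc C), ord p RatFunc.X < 0 := by
  refine exists_pole fun b hb => ?_
  rw [← ratFunc_C_eq, ← RatFunc.algebraMap_X, ← RatFunc.algebraMap_C] at hb
  have h2 := congrArg Polynomial.natDegree (RatFunc.algebraMap_injective C hb)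
  rw [natDegree_X, natDegree_C] at h2
  exact one_ne_zero h2

end rat

end P025H731
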