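import Vale.Agent.P025.R2.H731.Val4
import Vale.Agent.P025.R2.H731.Rat
import Vale.Agent.P025.R2.H492.Ext3
import Vale.Agent.P025.R2.H544.Defs

/-! # Valuations of `Fi ⊗[C(t)] K` at the places of `K` over a set `S` of places of `C(t)` -/

open TensorProduct Vale.Agent.P019P P025H492 P025H544

namespace P025H731

/-- a lower bound for the value -/
lemma Loc.val_nonneg {F F₁ K : Type*} [Field F] [Field F₁] [Field K] [Algebra F F₁] [Algebra F K]
    [FiniteDimensional F K] {w : F → ℤ} {w₁ : F₁ → ℤ} {u : K → ℤ} {e : ℤ} (h : Loc w w₁ u e)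
    {x : F₁ ⊗[F] K} (hx : x ∉ nul h) (h1 : Lam w₁ 0 x) (h2 : ∀ i, 0 ≤ u (bas F K i)) :
    0 ≤ val w₁ u x := by
  obtain ⟨M, hM⟩ := h.hasVal_val hx
  obtain ⟨y, hy⟩ := h.exists_app x (max M 0)
  obtain ⟨hy0, hyv⟩ := hM y (hy.mono (le_max_left _ _))
  rw [← hyv]
  have h3 : Ge u 0 y := by
    rw [← (bas F K).sum_repr y]
    refine Ge.sum h.du fun i _ => ?_
    have h4 := LamB.sub h.dw₁ h1 (hy.mono (le_max_right M 0)) i
    rw [sub_sub_cancel, bas₁_repr_inc] at h4
    have h5 : Ge u 0 (algebraMap F K ((bas F K).repr y i)) := by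
      rcases h4 with h6 | h6
      · rw [map_eq_zero] at h6
        exact Or.inl (by rw [h6, map_zero])
      · rw [h.comp₁] at h6
        exact Or.inr (by rw [h.comp]; exact mul_nonneg h.pos.le h6)
    have h6 : Ge u 0 (bas F K i) := Or.inr (h2 i)
    rw [Algebra.smul_def]
    have h7 := h5.mul h.du h6
    rwa [add_zero] at h7
  exact h3.resolve_left hy0

/-- a field `Fi ⊇ C(t)` with valuations extending the orders at the places of `S` -/
structure Side (C Fi : Type*) [Field C] [IsAlgClosed C] [Field Fi] [Algebra (RatFunc C) Fi]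
    (S : Set (Plk C (RatFunc C))) (wi : Plk C (RatFunc C) → Fi → ℤ) : Prop where
  dv : ∀ p ∈ S, DV (wi p)
  comp : ∀ p ∈ S, ∀ f, wi p (algebraMap (RatFunc C) Fi f) = ord p f
  dense : ∀ p ∈ S, ∀ (x : Fi) (M : ℤ), ∃ y, Ge (wi p) M (x - algebraMap (RatFunc C) Fi y)
  fin : ∀ x : Fi, x ≠ 0 → {p | p ∈ S ∧ wi p x ≠ 0}.Finite

section one

variable {C Fi K : Type*} [Field C] [IsAlgClosed C] [Field Fi] [Algebra (RatFunc C) Fi]
  [Field K] [Algebra C K] [Algebra (RatFunc C) K] [IsScalarTower C (RatFunc C) K]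
  [FiniteDimensional (RatFunc C) K] [CFF C K]
  {S : Set (Plk C (RatFunc C))} {wi : Plk C (RatFunc C) → Fi → ℤ}

lemma Side.loc' (hS : Side C Fi S wi) {p : Plk C (RatFunc C)} (hp : p ∈ S) (P : Plk C K)
    (h : down (RatFunc C) P = p) : Loc (ord p) (wi p) (ord P) (ram (RatFunc C) P) where
  dw := ord_dv p
  dw₁ := hS.dv p hp
  du := ord_dv P
  pos := by exact_mod_cast ram_pos P
  comp₁ := hS.comp p hp
  comp := by
    intro x
    rw [ord_algebraMap, h]
  dense := hS.dense p hp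

lemma Side.loc (hS : Side C Fi S wi) (P : Plk C K) (h : down (RatFunc C) P ∈ S) :
    Loc (ord (down (RatFunc C) P)) (wi (down (RatFunc C) P)) (ord P) (ram (RatFunc C) P) :=
  hS.loc' h P rfl

/-- the point of `Fi ⊗ K` on which `P` lies -/
noncomputable def Side.pt (hS : Side C Fi S wi) (P : Plk C K) (h : down (RatFunc C) P ∈ S) :
    Pt (RatFunc C) Fi K := ⟨nul (hS.loc P h), nul_prime _⟩

/-- the order of an element of `Fi ⊗ K` at `P` -/
noncomputable def sval (wi : Plk C (RatFunc C) → Fi → ℤ) (P : Plk C K)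
    (x : Fi ⊗[RatFunc C] K) : ℤ := val (wi (down (RatFunc C) P)) (ord P) x

lemma sval_eq {P : Plk C K} {p : Plk C (RatFunc C)} (h : down (RatFunc C) P = p)
    (x : Fi ⊗[RatFunc C] K) : sval wi P x = val (wi p) (ord P) x := by
  rw [sval, h]

variable (hS : Side C Fi S wi) (P : Plk C K) (h : down (RatFunc C) P ∈ S)

include hS h

theorem Side.not_mem_of_isUnit {x : Fi ⊗[RatFunc C] K} (hx : IsUnit x) :
    x ∉ (hS.pt P h).asIdeal := (hS.loc P h).unit_not_mem hx

theorem Side.sval_mul {x y : Fi ⊗[RatFunc C] K} (hx : x ∉ (hS.pt P h).asIdeal)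
    (hy : y ∉ (hS.pt P h).asIdeal) : sval wi P (x * y) = sval wi P x + sval wi P y :=
  (hS.loc P h).val_mul hx hy

theorem Side.sval_mul_of_isUnit {x y : Fi ⊗[RatFunc C] K} (hx : IsUnit x) (hy : IsUnit y) :
    sval wi P (x * y) = sval wi P x + sval wi P y :=
  hS.sval_mul P h (hS.not_mem_of_isUnit P h hx) (hS.not_mem_of_isUnit P h hy)

theorem Side.sval_one : sval wi P (1 : Fi ⊗[RatFunc C] K) = 0 := (hS.loc P h).val_one

theorem Side.sval_pow {x : Fi ⊗[RatFunc C] K} (hx : x ∉ (hS.pt P h).asIdeal) (n : ℕ) :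
    sval wi P (x ^ n) = n * sval wi P x := (hS.loc P h).val_pow hx n

/-- on `K` it is the order -/
theorem Side.sval_inc {y : K} (hy : y ≠ 0) :
    sval wi P (inc (RatFunc C) Fi K y) = ord P y := (hS.loc P h).val_inc hy

theorem Side.sval_tmul {y : K} (hy : y ≠ 0) :
    sval wi P ((1 : Fi) ⊗ₜ[RatFunc C] y) = ord P y := (hS.loc P h).val_inc hy

theorem Side.inc_not_mem {y : K} (hy : y ≠ 0) :
    (1 : Fi) ⊗ₜ[RatFunc C] y ∉ (hS.pt P h).asIdeal := (hS.loc P h).inc_not_mem hy

/-- on `Fi` it is `ram` times the valuation -/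
theorem Side.sval_algebraMap {α : Fi} (hα : α ≠ 0) :
    sval wi P (algebraMap Fi (Fi ⊗[RatFunc C] K) α) =
      ram (RatFunc C) P * wi (down (RatFunc C) P) α := (hS.loc P h).val_left hα

/-- the value depends only on the class at the point -/
theorem Side.sval_congr {x y : Fi ⊗[RatFunc C] K} (hxy : y - x ∈ (hS.pt P h).asIdeal) :
    sval wi P y = sval wi P x := (hS.loc P h).val_congr hxy

theorem Side.dvd_of_pow {x : K} (hx : x ≠ 0) {z : Fi ⊗[RatFunc C] K} {n : ℕ} (hn : 0 < n)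
    (hz : (1 : Fi) ⊗ₜ[RatFunc C] x - z ^ n ∈ (hS.pt P h).asIdeal) : (n : ℤ) ∣ ord P x :=
  (hS.loc P h).dvd_of_pow hx hn hz

omit h

/-- finitely many nonzero values -/
theorem Side.finite_sval {x : Fi ⊗[RatFunc C] K} (hx : IsUnit x) :
    {P : Plk C K | down (RatFunc C) P ∈ S ∧ sval wi P x ≠ 0}.Finite := by
  classical
  obtain ⟨x', hx'⟩ := hx.exists_right_inv
  have hux' : IsUnit x' := IsUnit.of_mul_eq_one x (by rw [mul_comm]; exact hx')
  -- the bad places of `C(t)`
  let bad : Fi ⊗[RatFunc C] K → Fin (Module.finrank (RatFunc C) K) → Set (Plk C (RatFunc C)) :=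
    fun z i => {p | p ∈ S ∧ wi p ((bas₁ (RatFunc C) Fi K).repr z i) ≠ 0 ∧
      (bas₁ (RatFunc C) Fi K).repr z i ≠ 0}
  have hbad : ∀ z i, (bad z i).Finite := by
    intro z i
    by_cases h0 : (bas₁ (RatFunc C) Fi K).repr z i = 0
    · refine Set.finite_empty.subset fun p hp => ?_
      exact hp.2.2 h0
    · exact (hS.fin _ h0).subset fun p hp => ⟨hp.1, hp.2.1⟩
  let T : Set (Plk C (RatFunc C)) := ⋃ i, (bad x i ∪ bad x' i)
  have hT : T.Finite := Set.finite_iUnion fun i => (hbad x i).union (hbad x' i)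
  let B : Set (Plk C K) := ⋃ i, {P | ord P (bas (RatFunc C) K i) ≠ 0}
  have hB : B.Finite := Set.finite_iUnion fun i => dv_finite ((bas (RatFunc C) K).ne_zero i)
  have hTK : {P : Plk C K | down (RatFunc C) P ∈ T}.Finite := by
    have h1 : {P : Plk C K | down (RatFunc C) P ∈ T} =
        ⋃ p ∈ T, {P : Plk C K | down (RatFunc C) P = p} := by
      ext P
      simp
    rw [h1]
    exact hT.biUnion fun p _ => over_finite p
  refine (hTK.union hB).subset fun P hP => ?_
  obtain ⟨h, hne⟩ := hP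
  by_contra hcon
  simp only [Set.mem_union, Set.mem_setOf_eq, not_or] at hcon
  obtain ⟨hc1, hc2⟩ := hcon
  have hb : ∀ i, 0 ≤ ord P (bas (RatFunc C) K i) := by
    intro i
    by_contra hi
    exact hc2 (Set.mem_iUnion.2 ⟨i, fun h0 => hi h0.ge⟩)
  have hlam : ∀ z : Fi ⊗[RatFunc C] K, (∀ i, down (RatFunc C) P ∉ bad z i) →
      Lam (wi (down (RatFunc C) P)) 0 z := by
    intro z hz i
    by_cases h0 : (bas₁ (RatFunc C) Fi K).repr z i = 0
    · exact Or.inl h0
    · right
      by_contra hlt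
      exact hz i ⟨h, fun h1 => hlt h1.ge, h0⟩
  have hx1 : Lam (wi (down (RatFunc C) P)) 0 x := hlam x fun i hi =>
    hc1 (Set.mem_iUnion.2 ⟨i, Or.inl hi⟩)
  have hx2 : Lam (wi (down (RatFunc C) P)) 0 x' := hlam x' fun i hi =>
    hc1 (Set.mem_iUnion.2 ⟨i, Or.inr hi⟩)
  have h1 := (hS.loc P h).val_nonneg ((hS.loc P h).unit_not_mem hx) hx1 hb
  have h2 := (hS.loc P h).val_nonneg ((hS.loc P h).unit_not_mem hux') hx2 hb
  have h3 := hS.sval_mul_of_isUnit P h hx hux'
  rw [hx', hS.sval_one P h] at h3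
  have h4 : sval wi P x = val (wi (down (RatFunc C) P)) (ord P) x := rfl
  have h5 : sval wi P x' = val (wi (down (RatFunc C) P)) (ord P) x' := rfl
  rw [← h4] at h1
  rw [← h5] at h2
  omega

open Classical in
/-- NORM FORMULA -/
theorem Side.norm {p : Plk C (RatFunc C)} (hp : p ∈ S) {x : Fi ⊗[RatFunc C] K} (hx : IsUnit x) :
    wi p (Algebra.norm Fi x) =
      ∑ P ∈ (over_finite (L := K) p).toFinset, sval wi P x := by
  have hmem : ∀ P : Plk C K, P ∈ (over_finite (L := K) p).toFinset ↔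
      down (RatFunc C) P = p := fun P => by
    rw [Set.Finite.mem_toFinset]
    rfl
  have hne : ((over_finite (L := K) p).toFinset).Nonempty := by
    obtain ⟨P, hP⟩ := exists_over (L := K) p
    exact ⟨P, (hmem P).2 hP⟩
  rw [norm_formula hne (u := fun P => ord P) (e := fun P => (ram (RatFunc C) P : ℤ))
    (fun P hP => hS.loc' hp P ((hmem P).1 hP)) (fun y _ => ord_norm p y) hx]
  exact Finset.sum_congr rfl fun P hP => (sval_eq ((hmem P).1 hP) x).symm

/-- every point carries places over every place of `S` -/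
theorem Side.exists_pt {p : Plk C (RatFunc C)} (hp : p ∈ S) (v : Pt (RatFunc C) Fi K) :
    ∃ (P : Plk C K) (h : down (RatFunc C) P = p), hS.pt P (h ▸ hp) = v := by
  classical
  have hmem : ∀ P : Plk C K, P ∈ (over_finite (L := K) p).toFinset ↔
      down (RatFunc C) P = p := fun P => by
    rw [Set.Finite.mem_toFinset]
    rfl
  have hne : ((over_finite (L := K) p).toFinset).Nonempty := by
    obtain ⟨P, hP⟩ := exists_over (L := K) p
    exact ⟨P, (hmem P).2 hP⟩
  obtain ⟨π, -, hπ⟩ := exists_unif p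
  obtain ⟨P, hP, h1⟩ := exists_nul_eq hne (u := fun P => ord P)
    (e := fun P => (ram (RatFunc C) P : ℤ))
    (fun P hP => hS.loc' hp P ((hmem P).1 hP)) (fun y _ => ord_norm p y) (π := π)
    (by rw [hπ]; exact zero_lt_one) v
  have h2 := (hmem P).1 hP
  refine ⟨P, h2, ?_⟩
  subst h2
  exact PrimeSpectrum.ext h1

open Classical in
/-- the total formula -/
theorem Side.finsum_sval {x : Fi ⊗[RatFunc C] K} (hx : IsUnit x) :
    ∑ᶠ (P : Plk C K) (_ : down (RatFunc C) P ∈ S), sval wi P x =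
      ∑ᶠ (p : Plk C (RatFunc C)) (_ : p ∈ S), wi p (Algebra.norm Fi x) := by
  have hN : Algebra.norm Fi x ≠ 0 := (hx.map (Algebra.norm Fi)).ne_zero
  have hf1 := hS.finite_sval hx
  have hf2 := hS.fin _ hN
  let A : Finset (Plk C (RatFunc C)) := hf2.toFinset ∪ hf1.toFinset.image (down (RatFunc C))
  have hAS : ∀ p ∈ A, p ∈ S := by
    intro p hp
    rcases Finset.mem_union.1 hp with h1 | h1
    · exact ((Set.Finite.mem_toFinset _).1 h1).1
    · obtain ⟨P, hP, rfl⟩ := Finset.mem_image.1 h1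
      exact ((Set.Finite.mem_toFinset _).1 hP).1
  have hmem : ∀ (p : Plk C (RatFunc C)) (P : Plk C K),
      P ∈ (over_finite (L := K) p).toFinset ↔ down (RatFunc C) P = p := fun p P => by
    rw [Set.Finite.mem_toFinset]
    rfl
  let D : Finset (Plk C K) := A.biUnion fun p => (over_finite (L := K) p).toFinset
  have e1 : ∑ᶠ (p : Plk C (RatFunc C)) (_ : p ∈ S), wi p (Algebra.norm Fi x) =
      ∑ p ∈ A, wi p (Algebra.norm Fi x) := by
    rw [finsum_mem_eq_sum_of_inter_support_eq]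
    ext p
    simp only [Set.mem_inter_iff, Function.mem_support, Finset.mem_coe]
    constructor
    · rintro ⟨h1, h2⟩
      exact ⟨Finset.mem_union_left _ ((Set.Finite.mem_toFinset _).2 ⟨h1, h2⟩), h2⟩
    · rintro ⟨h1, h2⟩
      exact ⟨hAS p h1, h2⟩
  have e2 : ∑ᶠ (P : Plk C K) (_ : down (RatFunc C) P ∈ S), sval wi P x =
      ∑ P ∈ D, sval wi P x := by
    have h0 : ∑ᶠ (P : Plk C K) (_ : P ∈ {P : Plk C K | down (RatFunc C) P ∈ S}), sval wi P x =
        ∑ P ∈ D, sval wi P x := by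
      rw [finsum_mem_eq_sum_of_inter_support_eq]
      ext P
      simp only [Set.mem_inter_iff, Function.mem_support, Finset.mem_coe, Set.mem_setOf_eq]
      constructor
      · rintro ⟨h1, h2⟩
        refine ⟨Finset.mem_biUnion.2 ⟨down (RatFunc C) P, Finset.mem_union_right _
          (Finset.mem_image_of_mem _ ((Set.Finite.mem_toFinset _).2 ⟨h1, h2⟩)),
          (hmem _ _).2 rfl⟩, h2⟩
      · rintro ⟨h1, h2⟩
        obtain ⟨p, hp, h3⟩ := Finset.mem_biUnion.1 h1
        rw [(hmem _ _).1 h3]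
        exact ⟨hAS p hp, h2⟩
    exact h0
  rw [e1, e2, Finset.sum_biUnion]
  · exact Finset.sum_congr rfl fun p hp => (hS.norm (hAS p hp) hx).symm
  · intro p _ q _ hpq
    rw [Function.onFun, Finset.disjoint_left]
    intro P h1 h2
    exact hpq (((hmem _ _).1 h1).symm.trans ((hmem _ _).1 h2))

end one

end P025H731
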