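import Vale.Agent.P025.R2.H731.Conc
import Vale.Agent.P025.R2.H731.Side
import Vale.Agent.P025.R2.H492.Ext4
import Vale.Agent.P025.R2.H628.Rad

/-! # The valuations of `F1`, `F2` (all radii) at the places of `C(t)`; winding numbers -/

open Polynomial Vale.Agent.P019P P025H373 P025H492 P025H628

universe u

namespace P025H731

variable (C : Type u) [NontriviallyNormedField C] [IsUltrametricDist C] [CompleteSpace C]
  [IsAlgClosed C]

/-- the places of `C(T)` with `|T| ≤ ‖c‖` -/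
def Inn (c : C) : Set (Plk C (RatFunc C)) :=
  {p | ∃ a : C, ‖a‖ ≤ ‖c‖ ∧ 0 < ord p (RatFunc.X - RatFunc.C a)}

/-- the places of `C(T)` with `|T| > ‖c‖` -/
def Out (c : C) : Set (Plk C (RatFunc C)) := (Inn C c)ᶜ

variable {C}

lemma mem_Out_iff {c : C} {p : Plk C (RatFunc C)} : p ∈ Out C c ↔
    (∃ a : C, ‖c‖ < ‖a‖ ∧ 0 < ord p (RatFunc.X - RatFunc.C a)) ∨ ord p RatFunc.X < 0 := by
  constructor
  · intro hp
    rcases finite_or_inf p with ⟨a, ha⟩ | h
    · refine Or.inl ⟨a, ?_, ha⟩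
      by_contra hc
      exact hp ⟨a, not_lt.1 hc, ha⟩
    · exact Or.inr h
  · rintro (⟨a, ha, h⟩ | h) ⟨b, hb, h'⟩
    · rw [point_unique h h'] at ha
      exact absurd hb (not_le.2 ha)
    · exact not_inf_of_fin h' h

variable (C) in
/-- the valuation of `F1` at a place of `C(t)` (meaningful if `|t| ≤ 1` there) -/
noncomputable def v1 (p : Plk C (RatFunc C)) (x : F1 C) : ℤ := wi (A1 C) (F1 C) (ord p) x

variable (C) in
/-- the valuation of `F2` at a place of `C(t)` (meaningful if `|t| > 1` there) -/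
noncomputable def v2 (p : Plk C (RatFunc C)) (x : F2 C) : ℤ := wi (A2 C) (F2 C) (ord p) x

/-- a uniformizer for every place with `|t| ≤ 1` -/
lemma exists_pnt1 {p : Plk C (RatFunc C)} (hp : p ∈ Inn C 1) :
    ∃ s, Pnt (F0 C) (B1 C) (ord p) s := by
  obtain ⟨a, ha, h⟩ := hp
  rw [norm_one] at ha
  exact ⟨_, pnt1 h ha⟩

lemma exists_pnt2 {p : Plk C (RatFunc C)} (hp : p ∈ Out C 1) :
    ∃ s, Pnt (F0 C) (pre2 C) (ord p) s := by
  rcases mem_Out_iff.1 hp with ⟨a, ha, h⟩ | h
  · rw [norm_one] at ha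
    exact ⟨_, pnt2 h ha⟩
  · exact ⟨_, pnt2_inf h⟩

/-- explicit form of the values: `x = g (1 + h)` -/
lemma v1_eq {p : Plk C (RatFunc C)} (hp : p ∈ Inn C 1) {x : F1 C} {g : RatFunc C} (hg : g ≠ 0)
    {h : F0 C} (hh : h ∈ A1 C) (h1 : ‖h‖ < 1)
    (hx : (x : F0 C) = algebraMap (RatFunc C) (F0 C) g * (1 + h)) : v1 C p x = ord p g := by
  obtain ⟨s, hs⟩ := exists_pnt1 hp
  exact hs.wi_eq (half1 C) hg hh h1 hx

lemma v2_eq {p : Plk C (RatFunc C)} (hp : p ∈ Out C 1) {x : F2 C} {g : RatFunc C} (hg : g ≠ 0)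
    {h : F0 C} (hh : h ∈ A2 C) (h1 : ‖h‖ < 1)
    (hx : (x : F0 C) = algebraMap (RatFunc C) (F0 C) g * (1 + h)) : v2 C p x = ord p g := by
  obtain ⟨s, hs⟩ := exists_pnt2 hp
  exact hs.wi_eq (half2 C) hg hh h1 hx

variable (C) in
/-- the closed unit disc -/
theorem side1 : Side C (F1 C) (Inn C 1) (v1 C) where
  dv := fun p hp => by
    obtain ⟨s, hs⟩ := exists_pnt1 hp
    exact hs.wi_dv (half1 C)
  comp := fun p hp f => by
    obtain ⟨s, hs⟩ := exists_pnt1 hp
    exact hs.wi_algebraMap (half1 C) f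
  dense := fun p hp x M => by
    obtain ⟨s, hs⟩ := exists_pnt1 hp
    exact hs.wi_dense (half1 C) x M
  fin := fun x hx => by
    obtain ⟨g, hg, h, hh, h1, h2⟩ := (half1 C).rep hx
    refine (dv_finite hg).subset fun p hp => ?_
    have h3 := hp.2
    rwa [v1_eq hp.1 hg hh h1 h2] at h3

variable (C) in
/-- the complement of the closed unit disc -/
theorem side2 : Side C (F2 C) (Out C 1) (v2 C) where
  dv := fun p hp => by
    obtain ⟨s, hs⟩ := exists_pnt2 hp
    exact hs.wi_dv (half2 C)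
  comp := fun p hp f => by
    obtain ⟨s, hs⟩ := exists_pnt2 hp
    exact hs.wi_algebraMap (half2 C) f
  dense := fun p hp x M => by
    obtain ⟨s, hs⟩ := exists_pnt2 hp
    exact hs.wi_dense (half2 C) x M
  fin := fun x hx => by
    obtain ⟨g, hg, h, hh, h1, h2⟩ := (half2 C).rep hx
    refine (dv_finite hg).subset fun p hp => ?_
    have h3 := hp.2
    rwa [v2_eq hp.1 hg hh h1 h2] at h3

/-! ## Winding numbers -/

/-- the number of zeros minus poles in the closed unit disc -/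
noncomputable def nz (S : Set (Plk C (RatFunc C))) (g : RatFunc C) : ℤ :=
  ∑ᶠ (p : Plk C (RatFunc C)) (_ : p ∈ S), ord p g

lemma nz_mul (S : Set (Plk C (RatFunc C))) {f g : RatFunc C} (hf : f ≠ 0) (hg : g ≠ 0) :
    nz S (f * g) = nz S f + nz S g := by
  rw [nz, nz, nz, ← finsum_mem_add_distrib' (((dv_finite hf).subset fun p hp => hp.2))
    (((dv_finite hg).subset fun p hp => hp.2))]
  exact finsum_mem_congr rfl fun p _ => ord_mul p hf hg

lemma nz_one (S : Set (Plk C (RatFunc C))) : nz S (1 : RatFunc C) = 0 := by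
  rw [nz]
  exact finsum_mem_eq_zero_of_forall_eq_zero fun p _ => ord_one p

lemma nz_inv (S : Set (Plk C (RatFunc C))) {f : RatFunc C} (hf : f ≠ 0) :
    nz S f⁻¹ = - nz S f := by
  have h1 := nz_mul S hf (inv_ne_zero hf)
  rw [mul_inv_cancel₀ hf, nz_one] at h1
  omega

lemma nz_C (S : Set (Plk C (RatFunc C))) (a : C) : nz S (RatFunc.C a) = 0 := by
  rw [nz]
  exact finsum_mem_eq_zero_of_forall_eq_zero fun p _ => ord_C a

open Classical in
lemma nz_X_sub (a : C) : nz (Inn C 1) (RatFunc.X - RatFunc.C a) = if ‖a‖ ≤ 1 then 1 else 0 := by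
  have key : ∀ p ∈ Inn C 1, ¬ 0 < ord p (RatFunc.X - RatFunc.C a) →
      ord p (RatFunc.X - RatFunc.C a) = 0 := by
    rintro p ⟨b, hb, h⟩ hne
    have h1 := ord_poly_nonneg h (X - Polynomial.C a)
    rw [map_sub, RatFunc.algebraMap_X, RatFunc.algebraMap_C] at h1
    omega
  split_ifs with ha
  · obtain ⟨q, hq⟩ := exists_place a
    have hqS : q ∈ Inn C 1 := ⟨a, by rwa [norm_one], hq⟩
    rw [nz, finsum_mem_eq_sum_of_inter_support_eq (t := {q}), Finset.sum_singleton, ord_X_sub hq]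
    ext p
    simp only [Set.mem_inter_iff, Function.mem_support, Finset.coe_singleton,
      Set.mem_singleton_iff]
    constructor
    · rintro ⟨h1, h2⟩
      refine ⟨?_, h2⟩
      by_contra hne
      refine h2 (key p h1 fun h => hne (place_ext h hq))
    · rintro ⟨rfl, h2⟩
      exact ⟨hqS, h2⟩
  · rw [nz]
    refine finsum_mem_eq_zero_of_forall_eq_zero fun p hp => key p hp fun h => ?_
    obtain ⟨b, hb, h'⟩ := hp
    rw [← point_unique h h', norm_one] at hb
    exact ha hb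

lemma wind_X_sub (a : C) : wind C (algebraMap (RatFunc C) (F0 C) (RatFunc.X - RatFunc.C a)) =
    nz (Inn C 1) (RatFunc.X - RatFunc.C a) := by
  classical
  have h1 : (RatFunc.X - RatFunc.C a : RatFunc C) =
      algebraMap C[X] (RatFunc C) (X - Polynomial.C a) := by
    rw [map_sub, RatFunc.algebraMap_X, RatFunc.algebraMap_C]
  rw [nz_X_sub, h1, algebraMap_poly, wind_poly (X_sub_C_ne_zero a), roots_X_sub_C,
    Multiset.filter_singleton]
  split_ifs <;> simp

lemma wind_poly_eq {P : C[X]} (hP : P ≠ 0) :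
    wind C (algebraMap (RatFunc C) (F0 C) (algebraMap C[X] (RatFunc C) P)) =
      nz (Inn C 1) (algebraMap C[X] (RatFunc C) P) := by
  have key : ∀ s : Multiset C,
      wind C (algebraMap (RatFunc C) (F0 C) (algebraMap C[X] (RatFunc C)
        (s.map fun a => X - Polynomial.C a).prod)) =
      nz (Inn C 1) (algebraMap C[X] (RatFunc C) (s.map fun a => X - Polynomial.C a).prod) := by
    intro s
    induction s using Multiset.induction_on with
    | empty => simp [nz_one]
    | cons a s ih =>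
      have h1 : algebraMap C[X] (RatFunc C) (s.map fun a => X - Polynomial.C a).prod ≠ 0 :=
        RatFunc.algebraMap_ne_zero (monic_multiset_prod_of_monic _ _ fun a _ =>
          monic_X_sub_C a).ne_zero
      rw [Multiset.map_cons, Multiset.prod_cons, map_mul, map_sub, RatFunc.algebraMap_X,
        RatFunc.algebraMap_C, nz_mul _ (X_sub_ne a) h1, map_mul, wind_mul
        (by rw [Ne, map_eq_zero]; exact X_sub_ne a) (by rwa [Ne, map_eq_zero]), ih,
        wind_X_sub]
  have h1 : P = Polynomial.C P.leadingCoeff * (P.roots.map fun a => X - Polynomial.C a).prod :=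
    (IsAlgClosed.splits P).eq_prod_roots
  have h2 : P.leadingCoeff ≠ 0 := leadingCoeff_ne_zero.2 hP
  have h3 : RatFunc.C P.leadingCoeff ≠ 0 := by rwa [ratFunc_C_eq, Ne, map_eq_zero]
  have h4 : algebraMap C[X] (RatFunc C) (P.roots.map fun a => X - Polynomial.C a).prod ≠ 0 :=
    RatFunc.algebraMap_ne_zero (monic_multiset_prod_of_monic _ _ fun a _ =>
      monic_X_sub_C a).ne_zero
  rw [h1, map_mul, RatFunc.algebraMap_C, nz_mul _ h3 h4, map_mul, wind_mul
    (by rwa [Ne, map_eq_zero]) (by rwa [Ne, map_eq_zero]), key, nz_C, ratFunc_C_eq,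
    ← IsScalarTower.algebraMap_apply C (RatFunc C) (F0 C), wind_const]

/-- the winding number of a rational function -/
theorem wind_ratFunc {g : RatFunc C} (hg : g ≠ 0) :
    wind C (algebraMap (RatFunc C) (F0 C) g) = nz (Inn C 1) g := by
  have hn : algebraMap C[X] (RatFunc C) g.num ≠ 0 :=
    RatFunc.algebraMap_ne_zero (RatFunc.num_ne_zero hg)
  have hd : algebraMap C[X] (RatFunc C) g.denom ≠ 0 :=
    RatFunc.algebraMap_ne_zero g.denom_ne_zero
  have hd' : algebraMap (RatFunc C) (F0 C) (algebraMap C[X] (RatFunc C) g.denom) ≠ 0 := by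
    rwa [Ne, map_eq_zero]
  rw [← RatFunc.num_div_denom g, map_div₀, div_eq_mul_inv, div_eq_mul_inv,
    nz_mul _ hn (inv_ne_zero hd), nz_inv _ hd, wind_mul (by rwa [Ne, map_eq_zero])
    (inv_ne_zero hd'), wind_inv, wind_poly_eq (RatFunc.num_ne_zero hg),
    wind_poly_eq g.denom_ne_zero]

lemma nz_compl {g : RatFunc C} (hg : g ≠ 0) : nz (Out C 1) g = - nz (Inn C 1) g := by
  classical
  have h1 : dg (dv C g) = 0 := dg_dv (k := C) (F := RatFunc C) g
  have h2 : dg (dv C g) = ∑ᶠ p : Plk C (RatFunc C), ord p g := by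
    rw [dg, Finsupp.liftAddHom_apply, Finsupp.sum, finsum_eq_sum_of_support_subset
      (s := (dv C g).support)]
    · exact Finset.sum_congr rfl fun p _ => dv_apply (k := C) (F := RatFunc C) g p
    · intro p hp
      rw [Finset.mem_coe, Finsupp.mem_support_iff, dv_apply]
      exact hp
  have h3 := finsum_mem_union' (f := fun p : Plk C (RatFunc C) => ord p g)
    (disjoint_compl_right (a := Inn C 1)) ((dv_finite hg).subset fun p hp => hp.2)
    ((dv_finite hg).subset fun p hp => hp.2)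
  rw [Set.union_compl_self, finsum_mem_univ] at h3
  rw [h2, h3] at h1
  have h4 : nz (Out C 1) g = ∑ᶠ (p : Plk C (RatFunc C)) (_ : p ∈ (Inn C 1)ᶜ), ord p g := rfl
  have h5 : nz (Inn C 1) g = ∑ᶠ (p : Plk C (RatFunc C)) (_ : p ∈ Inn C 1), ord p g := rfl
  rw [h4, h5]
  linarith

/-- zeros and poles of the elements of `F1` -/
theorem finsum_v1 {x : F1 C} (hx : x ≠ 0) :
    ∑ᶠ (p : Plk C (RatFunc C)) (_ : p ∈ Inn C 1), v1 C p x = wind C (x : F0 C) := by
  obtain ⟨g, hg, h, hh, h1, h2⟩ := (half1 C).rep hx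
  have h0 : (1 : F0 C) + h ≠ 0 := one_add_ne_zero' h1
  rw [h2, wind_mul (by rwa [Ne, map_eq_zero]) h0, wind_one_add h1, add_zero, wind_ratFunc hg, nz]
  exact finsum_mem_congr rfl fun p hp => v1_eq hp hg hh h1 h2

theorem finsum_v2 {x : F2 C} (hx : x ≠ 0) :
    ∑ᶠ (p : Plk C (RatFunc C)) (_ : p ∈ Out C 1), v2 C p x = - wind C (x : F0 C) := by
  obtain ⟨g, hg, h, hh, h1, h2⟩ := (half2 C).rep hx
  have h0 : (1 : F0 C) + h ≠ 0 := one_add_ne_zero' h1
  rw [h2, wind_mul (by rwa [Ne, map_eq_zero]) h0, wind_one_add h1, add_zero, wind_ratFunc hg,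
    ← nz_compl hg, nz]
  exact finsum_mem_congr rfl fun p hp => v2_eq hp hg hh h1 h2

/-! ## All radii -/

/-- change of coordinates -/
lemma Side.twist {C Fi Fi' : Type*} [Field C] [IsAlgClosed C] [Field Fi] [Field Fi']
    [Algebra (RatFunc C) Fi] [Algebra (RatFunc C) Fi'] {S : Set (Plk C (RatFunc C))}
    {wi : Plk C (RatFunc C) → Fi → ℤ} (hS : Side C Fi S wi) (e : Fi ≃+* Fi')
    (σ : RatFunc C ≃ₐ[C] RatFunc C)
    (hσ : ∀ f, algebraMap (RatFunc C) Fi' f = e (algebraMap (RatFunc C) Fi (σ f))) :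
    Side C Fi' {p | tr σ p ∈ S} (fun p x => wi (tr σ p) (e.symm x)) where
  dv := fun p hp => by
    have h := hS.dv _ hp
    have hne : ∀ x : Fi', x ≠ 0 → e.symm x ≠ 0 := fun x hx => by rwa [Ne, map_eq_zero]
    exact ⟨by rw [map_zero, h.zero], fun x y hx hy => by
      rw [map_mul, h.mul _ _ (hne x hx) (hne y hy)], fun x y hx hy hxy => by
      have h1 := hne _ hxy
      rw [map_add] at h1 ⊢
      exact h.add _ _ (hne x hx) (hne y hy) h1⟩
  comp := fun p hp f => by
    rw [hσ, e.symm_apply_apply, hS.comp _ hp, ord_tr]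
  dense := fun p hp x M => by
    obtain ⟨y, hy⟩ := hS.dense _ hp (e.symm x) M
    refine ⟨σ.symm y, ?_⟩
    rcases hy with h1 | h1
    · left
      rw [sub_eq_zero] at h1 ⊢
      rw [hσ, σ.apply_symm_apply, ← h1, e.apply_symm_apply]
    · right
      rw [hσ, σ.apply_symm_apply]
      change M ≤ wi (tr σ p) (e.symm (x - e (algebraMap (RatFunc C) Fi y)))
      rw [map_sub, e.symm_apply_apply]
      exact h1
  fin := fun x hx => by
    have h1 := hS.fin (e.symm x) (by rwa [Ne, map_eq_zero])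
    refine Set.Finite.preimage ?_ h1
    intro p _ q _ hpq
    rw [← tr_symm_tr σ p, ← tr_symm_tr σ q]
    exact congrArg _ hpq

lemma scale_X_sub (c : Cˣ) (a : C) : scale (c : C) c.ne_zero (RatFunc.X - RatFunc.C a) =
    RatFunc.C (c : C) * (RatFunc.X - RatFunc.C ((c : C)⁻¹ * a)) := by
  have h1 : scale (c : C) c.ne_zero (RatFunc.C a) = RatFunc.C a :=
    (scale (c : C) c.ne_zero).commutes a
  rw [map_sub, scale_X, h1, mul_sub, ← map_mul, mul_inv_cancel_left₀ c.ne_zero]

lemma ord_tr_scale (c : Cˣ) (p : Plk C (RatFunc C)) (a : C) :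
    ord (tr (scale (c : C) c.ne_zero) p) (RatFunc.X - RatFunc.C ((c : C)⁻¹ * a)) =
      ord p (RatFunc.X - RatFunc.C a) := by
  rw [← ord_tr (scale (c : C) c.ne_zero) p, scale_X_sub, ord_mul _ ?_ (X_sub_ne _), ord_C,
    zero_add]
  rw [ratFunc_C_eq, Ne, map_eq_zero]
  exact c.ne_zero

lemma tr_scale_mem (c : Cˣ) (p : Plk C (RatFunc C)) :
    tr (scale (c : C) c.ne_zero) p ∈ Inn C 1 ↔ p ∈ Inn C (c : C) := by
  have hc : 0 < ‖(c : C)‖ := norm_pos_iff.2 c.ne_zero
  constructor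
  · rintro ⟨a, ha, h⟩
    refine ⟨c * a, ?_, ?_⟩
    · rw [norm_mul]
      rw [norm_one] at ha
      exact mul_le_of_le_one_right hc.le ha
    · have h1 := ord_tr_scale c p (c * a)
      rw [inv_mul_cancel_left₀ c.ne_zero] at h1
      rwa [h1] at h
  · rintro ⟨a, ha, h⟩
    refine ⟨(c : C)⁻¹ * a, ?_, by rwa [ord_tr_scale]⟩
    rw [norm_mul, norm_inv, norm_one, inv_mul_le_iff₀ hc, mul_one]
    exact ha

/-- the valuation of `F1r c` at a place of `C(T)` (meaningful if `|T| ≤ ‖c‖` there) -/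
noncomputable def v1r (c : Cˣ) (p : Plk C (RatFunc C)) (x : F1r C c) : ℤ :=
  v1 C (tr (scale (c : C) c.ne_zero) p) x

/-- the valuation of `F2r c` at a place of `C(T)` (meaningful if `|T| > ‖c‖` there) -/
noncomputable def v2r (c : Cˣ) (p : Plk C (RatFunc C)) (x : F2r C c) : ℤ :=
  v2 C (tr (scale (c : C) c.ne_zero) p) x

/-- the closed disc of radius `‖c‖` -/
theorem side1r (c : Cˣ) : Side C (F1r C c) (Inn C (c : C)) (v1r c) := by
  let e : F1 C ≃+* F1r C c := RingEquiv.refl (F1 C)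
  have h1 := (side1 C).twist e (scale (c : C) c.ne_zero) (fun f => rfl)
  have h2 : {p | tr (scale (c : C) c.ne_zero) p ∈ Inn C 1} = Inn C (c : C) :=
    Set.ext fun p => tr_scale_mem c p
  rw [h2] at h1
  exact h1

/-- the complement of the closed disc of radius `‖c‖` -/
theorem side2r (c : Cˣ) : Side C (F2r C c) (Out C (c : C)) (v2r c) := by
  let e : F2 C ≃+* F2r C c := RingEquiv.refl (F2 C)
  have h1 := (side2 C).twist e (scale (c : C) c.ne_zero) (fun f => rfl)
  have h2 : {p | tr (scale (c : C) c.ne_zero) p ∈ Out C 1} = Out C (c : C) :=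
    Set.ext fun p => not_congr (tr_scale_mem c p)
  rw [h2] at h1
  exact h1

theorem finsum_v1r (c : Cˣ) {x : F1r C c} (hx : x ≠ 0) :
    ∑ᶠ (p : Plk C (RatFunc C)) (_ : p ∈ Inn C (c : C)), v1r c p x =
      wind C (algebraMap (F1r C c) (F0r C c) x) := by
  refine Eq.trans ?_ (finsum_v1 (x := (show F1 C from x)) hx)
  refine finsum_mem_eq_of_bijOn (tr (scale (c : C) c.ne_zero)) ⟨?_, ?_, ?_⟩ fun p _ => rfl
  · intro p hp
    exact (tr_scale_mem c p).2 hp
  · exact (trEquiv (scale (c : C) c.ne_zero)).injective.injOn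
  · intro q hq
    refine ⟨tr (scale (c : C) c.ne_zero).symm q, ?_, tr_tr_symm _ q⟩
    rw [← tr_scale_mem c, tr_tr_symm]
    exact hq

theorem finsum_v2r (c : Cˣ) {x : F2r C c} (hx : x ≠ 0) :
    ∑ᶠ (p : Plk C (RatFunc C)) (_ : p ∈ Out C (c : C)), v2r c p x =
      - wind C (algebraMap (F2r C c) (F0r C c) x) := by
  refine Eq.trans ?_ (finsum_v2 (x := (show F2 C from x)) hx)
  refine finsum_mem_eq_of_bijOn (tr (scale (c : C) c.ne_zero)) ⟨?_, ?_, ?_⟩ fun p _ => rfl
  · intro p hp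
    exact fun hc => hp ((tr_scale_mem c p).1 hc)
  · exact (trEquiv (scale (c : C) c.ne_zero)).injective.injOn
  · intro q hq
    refine ⟨tr (scale (c : C) c.ne_zero).symm q, ?_, tr_tr_symm _ q⟩
    intro hc
    rw [← tr_scale_mem c, tr_tr_symm] at hc
    exact hq hc

end P025H731
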