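import Vale.Agent.P025.R2.H731.Val

/-! # One half of the projective line: the valuations of `F₁` at the points of a disc

`B ⊆ F` a ring of functions with closure `A` in the complete field `F0`, `Fi ⊆ F0` a field all of
whose nonzero elements are `g (1 + h)`, `g ∈ F`, `h ∈ A`, `‖h‖ < 1`.  A point of the disc is a
valuation `w` of `F` with a uniformizer `s ∈ B` of norm one. -/

namespace P025H731

variable {C F F0 : Type*} [NormedField C] [Field F] [NormedField F0] [Algebra C F] [Algebra F F0]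
  [NormedAlgebra C F0] [IsScalarTower C F F0]

/-- one half of the projective line -/
structure Half (B : Subalgebra C F) (A : Subalgebra C F0) (Fi : IntermediateField F F0) :
    Prop where
  closed : IsClosed (A : Set F0)
  sub : ∀ b ∈ B, algebraMap F F0 b ∈ A
  dense : ∀ f ∈ A, f ∈ closure (algebraMap F F0 '' (B : Set F))
  mem_iff : ∀ x : F0, x ≠ 0 → (x ∈ Fi ↔ ∃ g : F, g ≠ 0 ∧ ∃ h ∈ A, ‖h‖ < 1 ∧
    x = algebraMap F F0 g * (1 + h))
  frac : ∀ z : F, ∃ b ∈ B, ∃ b' ∈ B, b' ≠ 0 ∧ z = b / b'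

/-- a point of the disc -/
structure Pnt (F0 : Type*) [NormedField F0] [Algebra F F0] (B : Subalgebra C F) (w : F → ℤ)
    (s : F) : Prop where
  dv : DV w
  const : ∀ c : C, w (algebraMap C F c) = 0
  smem : s ∈ B
  ws : w s = 1
  norm_s : ‖algebraMap F F0 s‖ = 1
  dec : ∀ b ∈ B, ∃ c : C, ∃ b' ∈ B, b = algebraMap C F c + s * b' ∧ ‖c‖ ≤ ‖algebraMap F F0 b‖
  nonneg : ∀ b ∈ B, 0 ≤ w b

variable {B : Subalgebra C F} {A : Subalgebra C F0} {Fi : IntermediateField F F0}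
  {w : F → ℤ} {s : F}

lemma Pnt.s0 (hp : Pnt F0 B w s) : s ≠ 0 := by
  rintro rfl
  have h1 := hp.ws
  rw [hp.dv.zero] at h1
  exact zero_ne_one h1

/-- elements of `B` of positive value are divisible by `s` -/
lemma Pnt.exists_div (hp : Pnt F0 B w s) {b : F} (hb : b ∈ B) (hb0 : b ≠ 0) (hw : 0 < w b) :
    ∃ b' ∈ B, b = s * b' ∧ w b' = w b - 1 := by
  obtain ⟨c, b', hb', h1, -⟩ := hp.dec b hb
  have hc : c = 0 := by
    by_contra hc
    have hc0 : algebraMap C F c ≠ 0 := by rwa [Ne, map_eq_zero]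
    have h2 : Ge w 1 (b - algebraMap C F c) := by
      rw [h1, add_sub_cancel_left]
      by_cases hb'0 : b' = 0
      · exact Or.inl (by rw [hb'0, mul_zero])
      · refine Or.inr ?_
        rw [hp.dv.mul _ _ hp.s0 hb'0, hp.ws]
        have := hp.nonneg b' hb'
        omega
    have h3 := (hp.dv.eq_of_sub hc0 (by rw [hp.const]; exact zero_lt_one) h2).2
    rw [hp.const] at h3
    omega
  rw [hc, map_zero, zero_add] at h1
  have hb'0 : b' ≠ 0 := by
    rintro rfl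
    exact hb0 (by rw [h1, mul_zero])
  refine ⟨b', hb', h1, ?_⟩
  rw [h1, hp.dv.mul _ _ hp.s0 hb'0, hp.ws]
  omega

lemma Pnt.exists_pow_mul (hp : Pnt F0 B w s) (n : ℕ) : ∀ b ∈ B, b ≠ 0 → w b = n →
    ∃ b' ∈ B, b' ≠ 0 ∧ b = s ^ n * b' ∧ w b' = 0 := by
  induction n with
  | zero =>
    intro b hb hb0 hw
    exact ⟨b, hb, hb0, by rw [pow_zero, one_mul], by exact_mod_cast hw⟩
  | succ n ih =>
    intro b hb hb0 hw
    obtain ⟨b', hb', h1, h2⟩ := hp.exists_div hb hb0 (by rw [hw]; positivity)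
    have hb'0 : b' ≠ 0 := by
      rintro rfl
      exact hb0 (by rw [h1, mul_zero])
    obtain ⟨b'', hb'', h0, h3, h4⟩ := ih b' hb' hb'0 (by rw [h2, hw]; push_cast; ring)
    exact ⟨b'', hb'', h0, by rw [h1, h3, pow_succ]; ring, h4⟩

/-- elements of nonnegative value are quotients with a denominator of value zero -/
lemma Pnt.exists_frac (hp : Pnt F0 B w s) (hH : Half B A Fi) {z : F} (hz : z ≠ 0)
    (hw : 0 ≤ w z) : ∃ b ∈ B, ∃ b' ∈ B, b ≠ 0 ∧ b' ≠ 0 ∧ z * b' = b ∧ w b' = 0 ∧ w b = w z := by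
  obtain ⟨b, hb, b', hb', hb'0, h1⟩ := hH.frac z
  have hb0 : b ≠ 0 := by
    rintro rfl
    exact hz (by rw [h1, zero_div])
  obtain ⟨n, hn⟩ := Int.eq_ofNat_of_zero_le (hp.nonneg b hb)
  obtain ⟨m, hm⟩ := Int.eq_ofNat_of_zero_le (hp.nonneg b' hb')
  obtain ⟨b₁, hb₁, hb₁0, h2, h3⟩ := hp.exists_pow_mul n b hb hb0 hn
  obtain ⟨b₂, hb₂, hb₂0, h4, h5⟩ := hp.exists_pow_mul m b' hb' hb'0 hm
  have h6 : z * b' = b := by rw [h1, div_mul_cancel₀ _ hb'0]
  have h7 : w z + w b' = w b := by rw [← hp.dv.mul _ _ hz hb'0, h6]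
  have h8 : m ≤ n := by omega
  have hsm : s ^ m ≠ 0 := pow_ne_zero _ hp.s0
  refine ⟨s ^ (n - m) * b₁, B.mul_mem (B.pow_mem hp.smem _) hb₁, b₂, hb₂,
    mul_ne_zero (pow_ne_zero _ hp.s0) hb₁0, hb₂0, ?_, h5, ?_⟩
  · have h9 : s ^ m * (z * b₂) = s ^ m * (s ^ (n - m) * b₁) := by
      rw [← mul_assoc (s ^ m) (s ^ (n - m)) b₁, ← pow_add, Nat.add_sub_cancel' h8, ← h2, ← h6, h4]
      ring
    exact mul_left_cancel₀ hsm h9
  · rw [hp.dv.mul _ _ (pow_ne_zero _ hp.s0) hb₁0, hp.dv.pow, hp.ws, h3]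
    push_cast [Nat.cast_sub h8]
    omega

variable [IsUltrametricDist C] [IsUltrametricDist F0]

omit [IsUltrametricDist C] in
/-- the decomposition `c + s f` is orthogonal -/
lemma Pnt.norm_const_le (hp : Pnt F0 B w s) (hH : Half B A Fi) (c : C) {f : F0} (hf : f ∈ A) :
    ‖c‖ ≤ ‖algebraMap C F0 c + algebraMap F F0 s * f‖ := by
  -- the case of `B`
  have h1 : ∀ b ∈ B, ‖c‖ ≤ ‖algebraMap C F0 c + algebraMap F F0 s * algebraMap F F0 b‖ := by
    intro b hb
    have hmem : algebraMap C F c + s * b ∈ B :=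
      B.add_mem (B.algebraMap_mem c) (B.mul_mem hp.smem hb)
    obtain ⟨c', b', hb', h2, h3⟩ := hp.dec _ hmem
    have h4 : c = c' := by
      by_contra hne
      have h5 : algebraMap C F (c - c') = s * (b' - b) := by
        rw [map_sub]
        linear_combination h2
      have h6 : algebraMap C F (c - c') ≠ 0 := by rwa [Ne, map_eq_zero, sub_eq_zero]
      have h7 : b' - b ≠ 0 := by
        intro h8
        rw [h8, mul_zero] at h5
        exact h6 h5
      have h8 := hp.const (c - c')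
      rw [h5, hp.dv.mul _ _ hp.s0 h7, hp.ws] at h8
      have := hp.nonneg _ (B.sub_mem hb' hb)
      omega
    rw [← h4, map_add, map_mul, ← IsScalarTower.algebraMap_apply C F F0] at h3
    exact h3
  refine le_of_forall_pos_lt_add fun ε hε => ?_
  obtain ⟨g, ⟨b, hb, rfl⟩, h2⟩ := Metric.mem_closure_iff.1 (hH.dense f hf) ε hε
  have h3 := h1 b hb
  have h4 : algebraMap C F0 c + algebraMap F F0 s * algebraMap F F0 b =
      (algebraMap C F0 c + algebraMap F F0 s * f) - algebraMap F F0 s * (f - algebraMap F F0 b) := by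
    ring
  rw [h4] at h3
  refine h3.trans_lt ((norm_sub_le _ _).trans_lt ?_)
  rw [norm_mul, hp.norm_s, one_mul, ← dist_eq_norm]
  exact add_lt_add_of_le_of_lt le_rfl h2

omit [IsUltrametricDist C] in
lemma Pnt.norm_eq (hp : Pnt F0 B w s) (hH : Half B A Fi) (c : C) {f : F0} (hf : f ∈ A) :
    ‖algebraMap C F0 c + algebraMap F F0 s * f‖ = max ‖c‖ ‖f‖ := by
  have h1 := hp.norm_const_le hH c hf
  have hs : ‖algebraMap F F0 s * f‖ = ‖f‖ := by rw [norm_mul, hp.norm_s, one_mul]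
  have hc : ‖algebraMap C F0 c‖ = ‖c‖ := norm_algebraMap' F0 c
  refine le_antisymm ?_ (max_le h1 ?_)
  · refine (IsUltrametricDist.norm_add_le_max _ _).trans ?_
    rw [hs, hc]
  · rw [← hs]
    have h2 : algebraMap F F0 s * f = (algebraMap C F0 c + algebraMap F F0 s * f) +
        -algebraMap C F0 c := by ring
    have h3 : ‖algebraMap F F0 s * f‖ ≤ max ‖algebraMap C F0 c + algebraMap F F0 s * f‖
        ‖-algebraMap C F0 c‖ := by
      conv_lhs => rw [h2]
      exact IsUltrametricDist.norm_add_le_max _ _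
    rw [norm_neg, hc] at h3
    exact h3.trans (max_le le_rfl h1)

variable [CompleteSpace C] [CompleteSpace F0]

/-- decomposition of the elements of `A` -/
lemma Pnt.exists_dec (hp : Pnt F0 B w s) (hH : Half B A Fi) {f : F0} (hf : f ∈ A) :
    ∃ c : C, ∃ f' ∈ A, f = algebraMap C F0 c + algebraMap F F0 s * f' := by
  let T : C × (A : Set F0) → F0 := fun x => algebraMap C F0 x.1 + algebraMap F F0 s * x.2
  have hcomp : CompleteSpace (A : Set F0) := hH.closed.completeSpace_coe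
  have hT : Isometry T := by
    refine Isometry.of_dist_eq fun x y => ?_
    rw [dist_eq_norm, Prod.dist_eq, dist_eq_norm, Subtype.dist_eq, dist_eq_norm,
      ← hp.norm_eq hH (x.1 - y.1) (A.sub_mem x.2.2 y.2.2)]
    congr 1
    simp only [T, map_sub]
    ring
  have hcl : IsClosed (Set.range T) := hT.isClosedEmbedding.isClosed_range
  have h1 : closure (algebraMap F F0 '' (B : Set F)) ⊆ Set.range T := by
    refine closure_minimal ?_ hcl
    rintro _ ⟨b, hb, rfl⟩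
    obtain ⟨c, b', hb', h2, -⟩ := hp.dec b hb
    refine ⟨⟨c, ⟨algebraMap F F0 b', hH.sub b' hb'⟩⟩, ?_⟩
    rw [h2, map_add, map_mul, ← IsScalarTower.algebraMap_apply C F F0]
  obtain ⟨⟨c, f'⟩, h2⟩ := h1 (hH.dense f hf)
  exact ⟨c, f', f'.2, h2.symm⟩

open Classical in
/-- the value of `f ∈ A` at the point (`0` outside of `A`) -/
noncomputable def evp (A : Subalgebra C F0) (s : F) (f : F0) : C :=
  if h : ∃ c : C, ∃ f' ∈ A, f = algebraMap C F0 c + algebraMap F F0 s * f' then h.choose else 0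

lemma Pnt.evp_spec (hp : Pnt F0 B w s) (hH : Half B A Fi) {f : F0} (hf : f ∈ A) :
    ∃ f' ∈ A, f = algebraMap C F0 (evp A s f) + algebraMap F F0 s * f' := by
  have h := hp.exists_dec hH hf
  rw [evp, dif_pos h]
  exact h.choose_spec

lemma Pnt.evp_eq (hp : Pnt F0 B w s) (hH : Half B A Fi) {f f' : F0} (hf' : f' ∈ A) {c : C}
    (h : f = algebraMap C F0 c + algebraMap F F0 s * f') : evp A s f = c := by
  have hf : f ∈ A := by
    rw [h]
    exact A.add_mem (A.algebraMap_mem c) (A.mul_mem (hH.sub s hp.smem) hf')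
  obtain ⟨f'', hf'', h1⟩ := hp.evp_spec hH hf
  have h2 := hp.norm_const_le hH (evp A s f - c) (A.sub_mem hf'' hf')
  have h3 : algebraMap C F0 (evp A s f - c) + algebraMap F F0 s * (f'' - f') = 0 := by
    rw [map_sub]
    linear_combination h - h1
  rw [h3, norm_zero] at h2
  exact sub_eq_zero.1 (norm_le_zero_iff.1 h2)

lemma Pnt.norm_evp_le (hp : Pnt F0 B w s) (hH : Half B A Fi) {f : F0} (hf : f ∈ A) :
    ‖evp A s f‖ ≤ ‖f‖ := by
  obtain ⟨f', hf', h⟩ := hp.evp_spec hH hf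
  have h1 := hp.norm_const_le hH (evp A s f) hf'
  rwa [← h] at h1

lemma Pnt.evp_mul (hp : Pnt F0 B w s) (hH : Half B A Fi) {f g : F0} (hf : f ∈ A) (hg : g ∈ A) :
    evp A s (f * g) = evp A s f * evp A s g := by
  obtain ⟨f', hf', h1⟩ := hp.evp_spec hH hf
  obtain ⟨g', hg', h2⟩ := hp.evp_spec hH hg
  have hs := hH.sub s hp.smem
  refine hp.evp_eq hH (f' := algebraMap C F0 (evp A s f) * g' + f' * g)
    (A.add_mem (A.mul_mem (A.algebraMap_mem _) hg') (A.mul_mem hf' hg)) ?_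
  rw [map_mul]
  linear_combination g * h1 + algebraMap C F0 (evp A s f) * h2

lemma Pnt.evp_add (hp : Pnt F0 B w s) (hH : Half B A Fi) {f g : F0} (hf : f ∈ A) (hg : g ∈ A) :
    evp A s (f + g) = evp A s f + evp A s g := by
  obtain ⟨f', hf', h1⟩ := hp.evp_spec hH hf
  obtain ⟨g', hg', h2⟩ := hp.evp_spec hH hg
  refine hp.evp_eq hH (f' := f' + g') (A.add_mem hf' hg') ?_
  rw [map_add]
  linear_combination h1 + h2

lemma Pnt.evp_one (hp : Pnt F0 B w s) (hH : Half B A Fi) : evp A s (1 : F0) = (1 : C) :=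
  hp.evp_eq hH A.zero_mem (by rw [map_one, mul_zero, add_zero])

/-- an element of `B` has value zero iff it does not vanish at the point -/
lemma Pnt.evp_ne_zero (hp : Pnt F0 B w s) (hH : Half B A Fi) {b : F} (hb : b ∈ B) (hb0 : b ≠ 0)
    (hw : w b = 0) : evp A s (algebraMap F F0 b) ≠ 0 := by
  obtain ⟨c, b', hb', h1, -⟩ := hp.dec b hb
  have h2 : evp A s (algebraMap F F0 b) = c := by
    refine hp.evp_eq hH (hH.sub b' hb') ?_
    rw [h1, map_add, map_mul, ← IsScalarTower.algebraMap_apply C F F0]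
  rw [h2]
  rintro rfl
  rw [map_zero, zero_add] at h1
  have hb'0 : b' ≠ 0 := by
    rintro rfl
    exact hb0 (by rw [h1, mul_zero])
  rw [h1, hp.dv.mul _ _ hp.s0 hb'0, hp.ws] at hw
  have := hp.nonneg b' hb'
  omega

lemma Pnt.evp_eq_zero (hp : Pnt F0 B w s) (hH : Half B A Fi) {b : F} (hb : b ∈ B) (hb0 : b ≠ 0)
    (hw : 0 < w b) : evp A s (algebraMap F F0 b) = 0 := by
  obtain ⟨b', hb', h1, -⟩ := hp.exists_div hb hb0 hw
  refine hp.evp_eq hH (hH.sub b' hb') ?_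
  rw [h1, map_mul, map_zero, zero_add]

lemma Pnt.evp_one_add (hp : Pnt F0 B w s) (hH : Half B A Fi) {h : F0} (hh : h ∈ A)
    (h1 : ‖h‖ < 1) : evp A s (1 + h) ≠ 0 := by
  rw [hp.evp_add hH A.one_mem hh, hp.evp_one hH]
  intro h2
  have h3 := hp.norm_evp_le hH hh
  have h4 : evp A s h = -1 := by linear_combination h2
  rw [h4, norm_neg, norm_one] at h3
  exact absurd h1 (not_lt.2 h3)

/-- `g f = f'` with `f, f' ∈ A`, `f'` not vanishing at the point: `w g ≤ 0` -/
lemma Pnt.val_nonpos (hp : Pnt F0 B w s) (hH : Half B A Fi) {g : F} (hg : g ≠ 0) {f f' : F0}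
    (hf : f ∈ A) (hf' : f' ∈ A) (hv : evp A s f' ≠ 0) (h : algebraMap F F0 g * f = f') :
    w g ≤ 0 := by
  by_contra hcon
  rw [not_le] at hcon
  obtain ⟨b, hb, b', hb', hb0, hb'0, h1, h2, h3⟩ := hp.exists_frac hH hg hcon.le
  have h4 : algebraMap F F0 b * f = algebraMap F F0 b' * f' := by
    rw [← h1, map_mul, ← h]
    ring
  have h5 := congrArg (evp A s) h4
  rw [hp.evp_mul hH (hH.sub b hb) hf, hp.evp_mul hH (hH.sub b' hb') hf',
    hp.evp_eq_zero hH hb hb0 (by rw [h3]; exact hcon), zero_mul] at h5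
  exact mul_ne_zero (hp.evp_ne_zero hH hb' hb'0 h2) hv h5.symm

/-- the value of `g` is determined by `g (1 + h)` -/
lemma Pnt.val_unique (hp : Pnt F0 B w s) (hH : Half B A Fi) {g g' : F} (hg : g ≠ 0)
    (hg' : g' ≠ 0) {h h' : F0} (hh : h ∈ A) (hh' : h' ∈ A) (h1 : ‖h‖ < 1) (h1' : ‖h'‖ < 1)
    (heq : algebraMap F F0 g * (1 + h) = algebraMap F F0 g' * (1 + h')) : w g = w g' := by
  have key : ∀ (g g' : F), g ≠ 0 → g' ≠ 0 → ∀ h h' : F0, h ∈ A → h' ∈ A → ‖h‖ < 1 → ‖h'‖ < 1 →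
      algebraMap F F0 g * (1 + h) = algebraMap F F0 g' * (1 + h') → w g ≤ w g' := by
    intro g g' hg hg' h h' hh hh' h1 h1' heq
    have h2 : w (g * g'⁻¹) ≤ 0 := by
      refine hp.val_nonpos hH (mul_ne_zero hg (inv_ne_zero hg')) (f := 1 + h) (f' := 1 + h')
        (A.add_mem A.one_mem hh) (A.add_mem A.one_mem hh') (hp.evp_one_add hH hh' h1') ?_
      have h3 : algebraMap F F0 g' ≠ 0 := by rwa [Ne, map_eq_zero]
      rw [map_mul, map_inv₀]
      field_simp
      linear_combination heq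
    rw [hp.dv.mul _ _ hg (inv_ne_zero hg'), hp.dv.inv] at h2
    omega
  exact le_antisymm (key g g' hg hg' h h' hh hh' h1 h1' heq)
    (key g' g hg' hg h' h hh' hh h1' h1 heq.symm)

open Classical in
/-- the valuation of `Fi` at the point -/
noncomputable def wi (A : Subalgebra C F0) (Fi : IntermediateField F F0) (w : F → ℤ)
    (x : Fi) : ℤ :=
  if h : ∃ g : F, g ≠ 0 ∧ ∃ h ∈ A, ‖h‖ < 1 ∧ (x : F0) = algebraMap F F0 g * (1 + h) then
    w h.choose else 0

lemma Pnt.wi_eq (hp : Pnt F0 B w s) (hH : Half B A Fi) {x : Fi} {g : F} (hg : g ≠ 0) {h : F0}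
    (hh : h ∈ A) (h1 : ‖h‖ < 1) (hx : (x : F0) = algebraMap F F0 g * (1 + h)) :
    wi A Fi w x = w g := by
  have h2 : ∃ g : F, g ≠ 0 ∧ ∃ h ∈ A, ‖h‖ < 1 ∧ (x : F0) = algebraMap F F0 g * (1 + h) :=
    ⟨g, hg, h, hh, h1, hx⟩
  rw [wi, dif_pos h2]
  obtain ⟨h3, h', h4, h5, h6⟩ := h2.choose_spec
  exact hp.val_unique hH h3 hg h4 hh h5 h1 (by rw [← h6, hx])

lemma Pnt.wi_zero (_hp : Pnt F0 B w s) (_hH : Half B A Fi) : wi A Fi w 0 = 0 := by
  rw [wi, dif_neg]
  rintro ⟨g, hg, h, hh, h1, h2⟩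
  have h3 : algebraMap F F0 g ≠ 0 := by rwa [Ne, map_eq_zero]
  have h4 : (1 : F0) + h ≠ 0 := by
    intro h5
    have h6 : h = -1 := by linear_combination h5
    rw [h6, norm_neg, norm_one] at h1
    exact lt_irrefl _ h1
  exact mul_ne_zero h3 h4 (by rw [← h2]; rfl)

lemma Half.rep (hH : Half B A Fi) {x : Fi} (hx : x ≠ 0) : ∃ g : F, g ≠ 0 ∧ ∃ h ∈ A, ‖h‖ < 1 ∧
    (x : F0) = algebraMap F F0 g * (1 + h) :=
  (hH.mem_iff x (by rwa [Ne, ZeroMemClass.coe_eq_zero])).1 x.2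

lemma Pnt.wi_dv (hp : Pnt F0 B w s) (hH : Half B A Fi) : DV (wi A Fi w) where
  zero := hp.wi_zero hH
  mul := by
    intro x y hx hy
    obtain ⟨g, hg, h, hh, h1, h2⟩ := hH.rep hx
    obtain ⟨g', hg', h', hh', h1', h2'⟩ := hH.rep hy
    rw [hp.wi_eq hH hg hh h1 h2, hp.wi_eq hH hg' hh' h1' h2']
    have h3 : ‖h + h' + h * h'‖ < 1 := by
      refine (IsUltrametricDist.norm_add_le_max _ _).trans_lt (max_lt
        ((IsUltrametricDist.norm_add_le_max _ _).trans_lt (max_lt h1 h1')) ?_)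
      rw [norm_mul]
      exact mul_lt_one_of_nonneg_of_lt_one_left (norm_nonneg _) h1 h1'.le
    rw [hp.wi_eq hH (mul_ne_zero hg hg')
      (A.add_mem (A.add_mem hh hh') (A.mul_mem hh hh')) h3 ?_, hp.dv.mul _ _ hg hg']
    rw [MulMemClass.coe_mul, h2, h2', map_mul]
    ring
  add := by
    intro x y hx hy hxy
    wlog hle : wi A Fi w x ≤ wi A Fi w y generalizing x y
    · rw [min_comm, add_comm]
      exact this y x hy hx (by rwa [add_comm]) (le_of_not_ge hle)
    rw [min_eq_left hle]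
    obtain ⟨g, hg, h, hh, h1, h2⟩ := hH.rep hx
    obtain ⟨g', hg', h', hh', h1', h2'⟩ := hH.rep hy
    obtain ⟨g'', hg'', h'', hh'', h1'', h2''⟩ := hH.rep hxy
    rw [hp.wi_eq hH hg hh h1 h2, hp.wi_eq hH hg' hh' h1' h2'] at hle
    rw [hp.wi_eq hH hg hh h1 h2, hp.wi_eq hH hg'' hh'' h1'' h2'']
    -- `r = g' / g = b / b'`
    obtain ⟨b, hb, b', hb', hb0, hb'0, h3, h4, h5⟩ := hp.exists_frac hH
      (z := g' * g⁻¹) (mul_ne_zero hg' (inv_ne_zero hg)) (by
        rw [hp.dv.mul _ _ hg' (inv_ne_zero hg), hp.dv.inv]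
        omega)
    have h6 : w (g * g''⁻¹) ≤ 0 := by
      refine hp.val_nonpos hH (mul_ne_zero hg (inv_ne_zero hg''))
        (f := algebraMap F F0 b' * (1 + h) + algebraMap F F0 b * (1 + h'))
        (f' := algebraMap F F0 b' * (1 + h''))
        (A.add_mem (A.mul_mem (hH.sub b' hb') (A.add_mem A.one_mem hh))
          (A.mul_mem (hH.sub b hb) (A.add_mem A.one_mem hh')))
        (A.mul_mem (hH.sub b' hb') (A.add_mem A.one_mem hh'')) ?_ ?_
      · rw [hp.evp_mul hH (hH.sub b' hb') (A.add_mem A.one_mem hh'')]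
        exact mul_ne_zero (hp.evp_ne_zero hH hb' hb'0 h4) (hp.evp_one_add hH hh'' h1'')
      · have h7 : algebraMap F F0 g'' ≠ 0 := by rwa [Ne, map_eq_zero]
        have h8 : (x : F0) + y = ((x + y : Fi) : F0) := rfl
        have h9 : g * b = g' * b' := by
          rw [← h3]
          field_simp
        have h10 : algebraMap F F0 g * algebraMap F F0 b =
            algebraMap F F0 g' * algebraMap F F0 b' := by rw [← map_mul, h9, map_mul]
        rw [h2, h2', h2''] at h8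
        rw [map_mul, map_inv₀]
        field_simp
        linear_combination (1 + h') * h10 + algebraMap F F0 b' * h8
    rw [hp.dv.mul _ _ hg (inv_ne_zero hg''), hp.dv.inv] at h6
    omega

lemma Pnt.wi_algebraMap (hp : Pnt F0 B w s) (hH : Half B A Fi) (g : F) :
    wi A Fi w (algebraMap F Fi g) = w g := by
  by_cases hg : g = 0
  · rw [hg, map_zero, hp.wi_zero hH, hp.dv.zero]
  · refine hp.wi_eq hH hg A.zero_mem (by rw [norm_zero]; exact zero_lt_one) ?_
    rw [add_zero, mul_one]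
    rfl

/-- elements of `A` have nonnegative value -/
lemma Pnt.wi_nonneg (hp : Pnt F0 B w s) (hH : Half B A Fi) {x : Fi} (hx : (x : F0) ∈ A) :
    0 ≤ wi A Fi w x := by
  by_cases hx0 : x = 0
  · rw [hx0, hp.wi_zero hH]
  obtain ⟨g, hg, h, hh, h1, h2⟩ := hH.rep hx0
  rw [hp.wi_eq hH hg hh h1 h2]
  have h3 : w g⁻¹ ≤ 0 := by
    refine hp.val_nonpos hH (inv_ne_zero hg) hx (A.add_mem A.one_mem hh)
      (hp.evp_one_add hH hh h1) ?_
    have h4 : algebraMap F F0 g ≠ 0 := by rwa [Ne, map_eq_zero]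
    rw [h2, map_inv₀]
    field_simp
  rw [hp.dv.inv] at h3
  omega

/-- elements of `A` are units at the points where they do not vanish -/
lemma Pnt.wi_eq_zero (hp : Pnt F0 B w s) (hH : Half B A Fi) {x : Fi} (hx : (x : F0) ∈ A)
    (hv : evp A s (x : F0) ≠ 0) : wi A Fi w x = 0 := by
  refine le_antisymm ?_ (hp.wi_nonneg hH hx)
  have hx0 : x ≠ 0 := by
    rintro rfl
    apply hv
    refine hp.evp_eq hH A.zero_mem ?_
    rw [map_zero, mul_zero, add_zero]
    rfl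
  obtain ⟨g, hg, h, hh, h1, h2⟩ := hH.rep hx0
  rw [hp.wi_eq hH hg hh h1 h2]
  exact hp.val_nonpos hH hg (A.add_mem A.one_mem hh) hx hv h2.symm

/-- expansion of the elements of `A` -/
lemma Pnt.exists_expand (hp : Pnt F0 B w s) (hH : Half B A Fi) (n : ℕ) : ∀ f ∈ A,
    ∃ b ∈ B, ∃ f' ∈ A, f = algebraMap F F0 b + algebraMap F F0 s ^ n * f' := by
  induction n with
  | zero =>
    intro f hf
    exact ⟨0, B.zero_mem, f, hf, by rw [map_zero, pow_zero, one_mul, zero_add]⟩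
  | succ n ih =>
    intro f hf
    obtain ⟨b, hb, f', hf', h1⟩ := ih f hf
    obtain ⟨c, f'', hf'', h2⟩ := hp.exists_dec hH hf'
    refine ⟨b + s ^ n * algebraMap C F c, B.add_mem hb (B.mul_mem (B.pow_mem hp.smem n)
      (B.algebraMap_mem c)), f'', hf'', ?_⟩
    rw [h1, h2, map_add, map_mul, map_pow, ← IsScalarTower.algebraMap_apply C F F0]
    ring

/-- density -/
lemma Pnt.wi_dense (hp : Pnt F0 B w s) (hH : Half B A Fi) (x : Fi) (M : ℤ) :
    ∃ y : F, Ge (wi A Fi w) M (x - algebraMap F Fi y) := by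
  by_cases hx : x = 0
  · exact ⟨0, Or.inl (by rw [hx, map_zero, sub_zero])⟩
  obtain ⟨g, hg, h, hh, h1, h2⟩ := hH.rep hx
  obtain ⟨b, hb, f', hf', h3⟩ := hp.exists_expand hH (M - w g).toNat (1 + h)
    (A.add_mem A.one_mem hh)
  refine ⟨g * b, ?_⟩
  by_cases h4 : x - algebraMap F Fi (g * b) = 0
  · exact Or.inl h4
  right
  -- `f'` as an element of `Fi`
  have h5 : algebraMap F F0 (g * s ^ (M - w g).toNat) ≠ 0 := by
    rw [Ne, map_eq_zero]
    exact mul_ne_zero hg (pow_ne_zero _ hp.s0)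
  have h6 : (x : F0) - algebraMap F F0 (g * b) =
      algebraMap F F0 (g * s ^ (M - w g).toNat) * f' := by
    rw [h2, h3, map_mul, map_mul, map_pow]
    ring
  have h7 : f' ∈ Fi := by
    have h8 : f' = (algebraMap F F0 (g * s ^ (M - w g).toNat))⁻¹ *
        ((x : F0) - algebraMap F F0 (g * b)) := by
      rw [h6, ← mul_assoc, inv_mul_cancel₀ h5, one_mul]
    rw [h8]
    exact Fi.mul_mem (Fi.inv_mem (Fi.algebraMap_mem _)) (Fi.sub_mem x.2 (Fi.algebraMap_mem _))
  have h8 : x - algebraMap F Fi (g * b) = algebraMap F Fi (g * s ^ (M - w g).toNat) * ⟨f', h7⟩ :=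
    Subtype.ext h6
  have h9 : (⟨f', h7⟩ : Fi) ≠ 0 := by
    intro h10
    rw [h10, mul_zero] at h8
    exact h4 h8
  have h10 : algebraMap F Fi (g * s ^ (M - w g).toNat) ≠ 0 := by
    intro h11
    rw [h11, zero_mul] at h8
    exact h4 h8
  have hdv := hp.wi_dv hH
  rw [h8, hdv.mul _ _ h10 h9, hp.wi_algebraMap hH, hp.dv.mul _ _ hg (pow_ne_zero _ hp.s0),
    hp.dv.pow, hp.ws]
  have h11 : 0 ≤ wi A Fi w ⟨f', h7⟩ := hp.wi_nonneg hH hf'
  have h12 : M - w g ≤ ((M - w g).toNat : ℤ) := Int.self_le_toNat _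
  omega

/-- LOCAL DATA for every finite extension of `F` -/
theorem Pnt.loc (hp : Pnt F0 B w s) (hH : Half B A Fi) {K : Type*} [Field K] [Algebra F K]
    {u : K → ℤ} {e : ℤ} (hu : DV u) (he : 0 < e)
    (hc : ∀ x, u (algebraMap F K x) = e * w x) : Loc w (wi A Fi w) u e where
  dw := hp.dv
  dw₁ := hp.wi_dv hH
  du := hu
  pos := he
  comp₁ := hp.wi_algebraMap hH
  comp := hc
  dense := hp.wi_dense hH

end P025H731
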