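import Vale.Agent.P025.R2.H731.Rat
import Vale.Agent.P025.R2.H731.Half
import Vale.Agent.P025.R2.H373.Gauss

/-! # The two halves of the projective line over `C` -/

open Polynomial Vale.Agent.P019P P025H373

universe u

namespace P025H731

variable (C : Type u) [NontriviallyNormedField C] [IsUltrametricDist C] [CompleteSpace C]
  [IsAlgClosed C]

/-- polynomials in `C(t)` -/
noncomputable def B1 : Subalgebra C (RatFunc C) :=
  (IsScalarTower.toAlgHom C C[X] (RatFunc C)).range

variable {C}

lemma mem_B1 {z : RatFunc C} : z ∈ B1 C ↔ ∃ P : C[X], algebraMap C[X] (RatFunc C) P = z := Iff.rfl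

lemma poly_mem_B1 (P : C[X]) : algebraMap C[X] (RatFunc C) P ∈ B1 C := ⟨P, rfl⟩

variable (C) in
/-- the closed unit disc -/
theorem half1 : Half (B1 C) (A1 C) (F1 C) where
  closed := isClosed_A1
  sub := by
    rintro _ ⟨P, rfl⟩
    exact (algebraMap_poly P).symm ▸ aeval_mem_A1 P
  dense := by
    intro f hf
    refine Metric.mem_closure_iff.2 fun ε hε => ?_
    obtain ⟨P, hP⟩ := exists_poly_near hf hε
    exact ⟨_, ⟨_, poly_mem_B1 P, rfl⟩, by rwa [dist_eq_norm, algebraMap_poly]⟩
  mem_iff := fun _ h0 => mem_F1_iff h0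
  frac := fun z => ⟨_, poly_mem_B1 z.num, _, poly_mem_B1 z.denom,
    RatFunc.algebraMap_ne_zero z.denom_ne_zero, (RatFunc.num_div_denom z).symm⟩

variable (C) in
/-- the open complement of the closed unit disc -/
theorem half2 : Half (pre2 C) (A2 C) (F2 C) where
  closed := isClosed_A2
  sub := fun b hb => algebraMap_mem_A2 hb
  dense := by
    intro f hf
    refine Metric.mem_closure_iff.2 fun ε hε => ?_
    obtain ⟨g, hg, h⟩ := exists_pre2_near hf hε
    exact ⟨_, ⟨_, hg, rfl⟩, by rwa [dist_eq_norm]⟩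
  mem_iff := fun _ h0 => mem_F2_iff h0
  frac := by
    intro z
    obtain ⟨g, hg, hg0, h⟩ := exists_pre2_mul z
    exact ⟨_, h, g, hg, hg0, by rw [mul_div_cancel_left₀ _ hg0]⟩

/-- points of the closed unit disc -/
theorem pnt1 {p : Plk C (RatFunc C)} {a : C} (h : 0 < ord p (RatFunc.X - RatFunc.C a))
    (ha : ‖a‖ ≤ 1) : Pnt (F0 C) (B1 C) (ord p) (RatFunc.X - RatFunc.C a) where
  dv := ord_dv p
  const := ord_const p
  smem := ⟨X - Polynomial.C a, by
    change algebraMap C[X] (RatFunc C) (X - Polynomial.C a) = _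
    rw [map_sub, RatFunc.algebraMap_X, RatFunc.algebraMap_C]⟩
  ws := ord_X_sub h
  norm_s := by
    rw [← RatFunc.algebraMap_X, ← RatFunc.algebraMap_C, ← map_sub, algebraMap_poly, norm_aeval,
      gp_X_sub_C, max_eq_left ha]
  dec := by
    rintro _ ⟨P, rfl⟩
    refine ⟨P.eval a, algebraMap C[X] (RatFunc C) (P /ₘ (X - Polynomial.C a)), poly_mem_B1 _,
      ?_, ?_⟩
    · rw [← ratFunc_C_eq, ← RatFunc.algebraMap_C, ← RatFunc.algebraMap_X, ← RatFunc.algebraMap_C,
        ← map_sub, ← map_mul, ← map_add]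
      change algebraMap C[X] (RatFunc C) P = _
      congr 1
      have h2 := modByMonic_add_div P (X - Polynomial.C a)
      rw [modByMonic_X_sub_C_eq_C_eval] at h2
      exact h2.symm
    · change _ ≤ ‖algebraMap (RatFunc C) (F0 C) (algebraMap C[X] (RatFunc C) P)‖
      rw [algebraMap_poly, norm_aeval]
      exact norm_eval_le P ha
  nonneg := by
    rintro _ ⟨P, rfl⟩
    exact ord_poly_nonneg h P

/-- value of a polynomial at a point outside of the unit disc -/
lemma norm_eval_le' {P : C[X]} {a : C} {n : ℕ} (hn : P.natDegree ≤ n) (ha : 1 < ‖a‖) :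
    ‖P.eval a‖ ≤ gp P * ‖a‖ ^ n := by
  rw [eval_eq_sum_range]
  refine IsUltrametricDist.norm_sum_le_of_forall_le_of_nonneg
    (mul_nonneg (gp_nonneg P) (by positivity)) fun i hi => ?_
  rw [norm_mul, norm_pow]
  have hi' : i ≤ n := (Nat.lt_succ_iff.1 (Finset.mem_range.1 hi)).trans hn
  exact mul_le_mul (norm_coeff_le P i) (pow_le_pow_right₀ ha.le hi') (by positivity)
    (gp_nonneg P)

/-- monic polynomials with integral coefficients outside of the unit disc -/
lemma norm_eval_monic {S : C[X]} {a : C} (hS : S.Monic) (h1 : gp S ≤ 1) (ha : 1 < ‖a‖) :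
    ‖S.eval a‖ = ‖a‖ ^ S.natDegree := by
  rcases Nat.eq_zero_or_pos S.natDegree with h0 | h0
  · rw [hS.natDegree_eq_zero.1 h0]
    simp
  have h2 : S.eval a = a ^ S.natDegree + (S.eraseLead).eval a := by
    conv_lhs => rw [← S.eraseLead_add_C_mul_X_pow, hS.leadingCoeff]
    rw [eval_add, eval_mul, eval_C, eval_pow, eval_X, one_mul, add_comm]
  have h3 : ‖(S.eraseLead).eval a‖ < ‖a ^ S.natDegree‖ := by
    have h4 : gp S.eraseLead ≤ 1 := by
      rw [gp_le_iff]
      intro i
      rw [eraseLead_coeff]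
      split_ifs
      · rw [norm_zero]; exact zero_le_one
      · exact (norm_coeff_le S i).trans h1
    have h5 := norm_eval_le' (P := S.eraseLead) (n := S.natDegree - 1) S.eraseLead_natDegree_le ha
    refine h5.trans_lt ?_
    rw [norm_pow]
    calc gp S.eraseLead * ‖a‖ ^ (S.natDegree - 1) ≤ 1 * ‖a‖ ^ (S.natDegree - 1) :=
          mul_le_mul_of_nonneg_right h4 (by positivity)
      _ < ‖a‖ ^ S.natDegree := by
          rw [one_mul]
          exact pow_lt_pow_right₀ ha (by omega)
  rw [h2, IsUltrametricDist.norm_add_eq_max_of_norm_ne_norm h3.ne', max_eq_left h3.le, norm_pow]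

/-- finite points outside of the closed unit disc -/
theorem pnt2 {p : Plk C (RatFunc C)} {a : C} (h : 0 < ord p (RatFunc.X - RatFunc.C a))
    (ha : 1 < ‖a‖) :
    Pnt (F0 C) (pre2 C) (ord p) ((RatFunc.X - RatFunc.C a) / (RatFunc.C a * RatFunc.X)) := by
  have ha0 : a ≠ 0 := by
    rintro rfl
    rw [norm_zero] at ha
    exact absurd ha (not_lt.2 zero_le_one)
  have hCa : RatFunc.C a ≠ 0 := by
    rw [ratFunc_C_eq, Ne, map_eq_zero]
    exact ha0
  have hX0 : (RatFunc.X : RatFunc C) ≠ 0 := RatFunc.X_ne_zero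
  have hordX : ord p RatFunc.X = 0 := by
    have h1 := ord_poly_eq_zero h (P := X) (by rwa [eval_X])
    rwa [RatFunc.algebraMap_X] at h1
  have hs : (RatFunc.X - RatFunc.C a) / (RatFunc.C a * RatFunc.X) =
      algebraMap C[X] (RatFunc C) (Polynomial.C a⁻¹ * X - 1) / algebraMap C[X] (RatFunc C) X := by
    rw [map_sub, map_mul, map_one, RatFunc.algebraMap_X, RatFunc.algebraMap_C, map_inv₀]
    field_simp
  refine ⟨ord_dv p, ord_const p, ?_, ?_, ?_, ?_, ?_⟩
  · refine ⟨Polynomial.C a⁻¹ * X - 1, X, monic_X, ?_, ?_, hs⟩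
    · refine (degree_sub_le _ _).trans (max_le ?_ ?_)
      · exact (degree_C_mul_X_le _).trans degree_X.ge
      · rw [degree_one, degree_X]
        exact zero_le_one
    · rw [← gp_le_iff, gp_X]
  · rw [div_eq_mul_inv, ord_mul p (X_sub_ne a) (inv_ne_zero (mul_ne_zero hCa hX0)), ord_inv,
      ord_mul p hCa hX0, ord_C, hordX, ord_X_sub h]
    norm_num
  · rw [hs, P025H373.norm_algebraMap, gauss_div, gp_X, div_one]
    have h1 : (Polynomial.C a⁻¹ * X - 1 : C[X]) = Polynomial.C a⁻¹ * (X - Polynomial.C a) := by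
      rw [mul_sub, ← Polynomial.C_mul, inv_mul_cancel₀ ha0, Polynomial.C_1]
    rw [h1, gp_mul, gp_C, gp_X_sub_C, max_eq_right ha.le, norm_inv,
      inv_mul_cancel₀ (norm_ne_zero_iff.2 ha0)]
  · rintro _ ⟨P, S, hS, hd, h1, rfl⟩
    rw [← gp_le_iff] at h1
    have hSa : S.eval a ≠ 0 := by
      rw [← norm_ne_zero_iff, norm_eval_monic hS h1 ha]
      positivity
    have hS0 : algebraMap C[X] (RatFunc C) S ≠ 0 := RatFunc.algebraMap_ne_zero hS.ne_zero
    have hPd : P.natDegree ≤ S.natDegree := natDegree_le_natDegree hd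
    set c : C := P.eval a / S.eval a with hc
    set R : C[X] := P - Polynomial.C c * S with hR
    have hRa : R.eval a = 0 := by
      rw [hR, eval_sub, eval_mul, eval_C, hc, div_mul_cancel₀ _ hSa, sub_self]
    obtain ⟨Q, hQ⟩ := dvd_iff_isRoot.2 hRa
    have hRd : R.degree ≤ S.degree := by
      refine (degree_sub_le _ _).trans (max_le hd ?_)
      exact (degree_mul_le _ _).trans (add_le_of_nonpos_left degree_C_le)
    refine ⟨c, algebraMap C[X] (RatFunc C) (Polynomial.C a * X * Q) /
      algebraMap C[X] (RatFunc C) S, ⟨Polynomial.C a * X * Q, S, hS, ?_, by rwa [gp_le_iff] at h1,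
      rfl⟩, ?_, ?_⟩
    · by_cases hQ0 : Q = 0
      · rw [hQ0, mul_zero, degree_zero]
        exact bot_le
      · have h2 : (Polynomial.C a * X * Q).degree = R.degree := by
          rw [hQ, degree_mul, degree_mul, degree_mul, degree_C ha0, degree_X, degree_X_sub_C,
            zero_add]
        rw [h2]
        exact hRd
    · have h2 : algebraMap C[X] (RatFunc C) P = RatFunc.C c * algebraMap C[X] (RatFunc C) S +
          (RatFunc.X - RatFunc.C a) * algebraMap C[X] (RatFunc C) Q := by
        rw [← RatFunc.algebraMap_C, ← RatFunc.algebraMap_C, ← RatFunc.algebraMap_X, ← map_sub,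
          ← map_mul, ← map_mul, ← map_add]
        congr 1
        rw [← hQ, hR]
        ring
      rw [← ratFunc_C_eq, map_mul, map_mul, RatFunc.algebraMap_X, RatFunc.algebraMap_C, h2]
      field_simp
    · rw [P025H373.norm_algebraMap, gauss_div, gp_monic_of_le hS h1, div_one, hc, norm_div,
        norm_eval_monic hS h1 ha, div_le_iff₀ (by positivity)]
      exact norm_eval_le' hPd ha
  · rintro _ ⟨P, S, hS, hd, h1, rfl⟩
    rw [← gp_le_iff] at h1
    have hSa : S.eval a ≠ 0 := by
      rw [← norm_ne_zero_iff, norm_eval_monic hS h1 ha]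
      positivity
    by_cases hP : P = 0
    · rw [hP, map_zero, zero_div, ord_zero]
    rw [div_eq_mul_inv, ord_mul p (RatFunc.algebraMap_ne_zero hP)
      (inv_ne_zero (RatFunc.algebraMap_ne_zero hS.ne_zero)), ord_inv, ord_poly_eq_zero h hSa,
      neg_zero, add_zero]
    exact ord_poly_nonneg h P

/-- the point at infinity -/
theorem pnt2_inf {p : Plk C (RatFunc C)} (h : ord p RatFunc.X < 0) :
    Pnt (F0 C) (pre2 C) (ord p) (RatFunc.X)⁻¹ := by
  have hX0 : (RatFunc.X : RatFunc C) ≠ 0 := RatFunc.X_ne_zero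
  have hs : (RatFunc.X : RatFunc C)⁻¹ =
      algebraMap C[X] (RatFunc C) 1 / algebraMap C[X] (RatFunc C) X := by
    rw [map_one, RatFunc.algebraMap_X, one_div]
  refine ⟨ord_dv p, ord_const p, ?_, ?_, ?_, ?_, ?_⟩
  · refine ⟨1, X, monic_X, ?_, ?_, hs⟩
    · rw [degree_one, degree_X]
      exact zero_le_one
    · rw [← gp_le_iff, gp_X]
  · rw [ord_inv, ord_X_inf h, neg_neg]
  · rw [hs, P025H373.norm_algebraMap, gauss_div, gp_X, gp_one, div_one]
  · rintro _ ⟨P, S, hS, hd, h1, rfl⟩
    rw [← gp_le_iff] at h1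
    have hS0 : algebraMap C[X] (RatFunc C) S ≠ 0 := RatFunc.algebraMap_ne_zero hS.ne_zero
    set c : C := P.coeff S.natDegree with hc
    set R : C[X] := P - Polynomial.C c * S with hR
    have hRd : R.degree < S.degree := by
      rw [degree_eq_natDegree hS.ne_zero, degree_lt_iff_coeff_zero]
      intro m hm
      rw [hR, coeff_sub, coeff_C_mul]
      rcases hm.eq_or_lt with h2 | h2
      · rw [← h2, hc, hS.coeff_natDegree, mul_one, sub_self]
      · rw [coeff_eq_zero_of_natDegree_lt (h2 : S.natDegree < m), mul_zero, sub_zero]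
        exact coeff_eq_zero_of_natDegree_lt ((natDegree_le_natDegree hd).trans_lt h2)
    refine ⟨c, algebraMap C[X] (RatFunc C) (X * R) / algebraMap C[X] (RatFunc C) S,
      ⟨X * R, S, hS, ?_, by rwa [gp_le_iff] at h1, rfl⟩, ?_, ?_⟩
    · by_cases hR0 : R = 0
      · rw [hR0, mul_zero, degree_zero]
        exact bot_le
      · rw [degree_mul, degree_X, degree_eq_natDegree hR0, degree_eq_natDegree hS.ne_zero] at *
        have h2 : R.natDegree < S.natDegree := by exact_mod_cast hRd
        have h3 : 1 + R.natDegree ≤ S.natDegree := by omega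
        exact_mod_cast h3
    · have h2 : algebraMap C[X] (RatFunc C) P = RatFunc.C c * algebraMap C[X] (RatFunc C) S +
          algebraMap C[X] (RatFunc C) R := by
        rw [← RatFunc.algebraMap_C, ← map_mul, ← map_add]
        congr 1
        rw [hR]
        ring
      rw [← ratFunc_C_eq, map_mul, RatFunc.algebraMap_X, h2]
      field_simp
    · rw [P025H373.norm_algebraMap, gauss_div, gp_monic_of_le hS h1, div_one]
      exact norm_coeff_le P _
  · rintro _ ⟨P, S, hS, hd, h1, rfl⟩
    by_cases hP : P = 0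
    · rw [hP, map_zero, zero_div, ord_zero]
    rw [div_eq_mul_inv, ord_mul p (RatFunc.algebraMap_ne_zero hP)
      (inv_ne_zero (RatFunc.algebraMap_ne_zero hS.ne_zero)), ord_inv, ord_poly_inf' h hP,
      ord_poly_inf' h hS.ne_zero]
    have := natDegree_le_natDegree hd
    omega

end P025H731
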