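import Vale.Agent.P025.R2.H731.Laur
import Vale.Agent.P025.R2.H450.RnsDef

/-! # `OnD` is: the point of the place -/

open Polynomial TensorProduct Vale.Agent.P019P P025H373 P025H492 P025H544 P025H628 P025H450

universe u v

namespace P025H731

variable {C : Type u} [NontriviallyNormedField C] [IsUltrametricDist C] [CompleteSpace C]
  [IsAlgClosed C] {K : Type v} [Field K] [Algebra C K] [Algebra (RatFunc C) K]
  [IsScalarTower C (RatFunc C) K] [FiniteDimensional (RatFunc C) K] [CFF C K]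
  {c : Cˣ} {P : Plk C K} {d : Pt (RatFunc C) (F2r C c) K}

theorem OnD.out (hd : OnD C c P d) : down (RatFunc C) P ∈ Out C (c : C) := by
  obtain ⟨φ, -, hφ⟩ := hd
  exact out_of_hom φ hφ

theorem OnD.eq_pt (hd : OnD C c P d) : d = (side2r c).pt P (OnD.out hd) := by
  have hd' := hd
  obtain ⟨φ, hk, hφ⟩ := hd
  exact PrimeSpectrum.ext (hk.symm.trans (ker_laur2r (OnD.out hd') φ hφ).1)

theorem OnD.unique {d' : Pt (RatFunc C) (F2r C c) K} (hd : OnD C c P d) (hd' : OnD C c P d') :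
    d = d' := by
  rw [OnD.eq_pt hd, OnD.eq_pt hd']

theorem onD_pt (h : down (RatFunc C) P ∈ Out C (c : C)) (φ : K →ₐ[C] LaurentSeries C)
    (hφ : ∀ y : K, y ≠ 0 → (φ y).order = ord P y) : OnD C c P ((side2r c).pt P h) := by
  obtain ⟨Ψ, h1, h2, h3⟩ := (side2r c).exists_ext P h φ hφ
  exact ⟨Ψ, h2, fun x hx => by rw [h1, hφ x hx]⟩

end P025H731
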