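import Vale.Agent.P025.R2.H731.Val

/-! # The prime ideal and the valuation of `F₁ ⊗[F] K` attached to a valuation of `K` -/

open TensorProduct

namespace P025H731

variable {F F₁ K : Type*} [Field F] [Field F₁] [Field K] [Algebra F F₁] [Algebra F K]
  [FiniteDimensional F K] {w : F → ℤ} {w₁ : F₁ → ℤ} {u : K → ℤ} {e : ℤ}

/-- all good approximations of `x` have value `n` -/
def HasVal (w₁ : F₁ → ℤ) (u : K → ℤ) (x : F₁ ⊗[F] K) (n : ℤ) : Prop :=
  ∃ M : ℤ, ∀ y : K, App w₁ M x y → y ≠ 0 ∧ u y = n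

/-- good approximations of `x` have large values -/
def Nul (w₁ : F₁ → ℤ) (u : K → ℤ) (x : F₁ ⊗[F] K) : Prop :=
  ∀ n : ℤ, ∃ M : ℤ, ∀ y : K, App w₁ M x y → Ge u n y

/-- close approximations -/
lemma Loc.close (h : Loc w w₁ u e) : ∃ c : ℤ, ∀ (M : ℤ) (x : F₁ ⊗[F] K) (y y' : K),
    App w₁ M x y → App w₁ M x y' → Ge u (e * M - c) (y' - y) := by
  obtain ⟨c, hc⟩ := h.exists_small
  exact ⟨c, fun M x y y' hy hy' => hc M _ (hy.diff h.dw₁ hy')⟩

/-- precision needed to reach `n` -/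
lemma Loc.exists_prec (h : Loc w w₁ u e) (c n : ℤ) : ∃ M : ℤ, n ≤ e * M - c := by
  have he := h.pos
  refine ⟨|n + c|, ?_⟩
  have h1 : n + c ≤ |n + c| := le_abs_self _
  have h2 : |n + c| ≤ e * |n + c| := by
    have := mul_le_mul_of_nonneg_right (show (1 : ℤ) ≤ e by omega) (abs_nonneg (n + c))
    rwa [one_mul] at this
  omega

/-- dichotomy -/
lemma Loc.nul_or_val (h : Loc w w₁ u e) (x : F₁ ⊗[F] K) :
    Nul w₁ u x ∨ ∃ n, HasVal w₁ u x n := by
  by_cases hn : Nul w₁ u x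
  · exact Or.inl hn
  right
  rw [Nul] at hn
  push Not at hn
  obtain ⟨n, hn⟩ := hn
  obtain ⟨c, hc⟩ := h.close
  obtain ⟨M, hM⟩ := h.exists_prec c n
  obtain ⟨y, hy, hyn⟩ := hn M
  rw [Ge] at hyn
  push Not at hyn
  obtain ⟨hy0, hyn⟩ := hyn
  refine ⟨u y, M, fun y' hy' => ?_⟩
  exact h.du.eq_of_sub hy0 hyn ((hc M x y y' hy hy').mono hM)

lemma Loc.not_nul (h : Loc w w₁ u e) {x : F₁ ⊗[F] K} {n : ℤ} (hx : HasVal w₁ u x n) :
    ¬ Nul w₁ u x := by
  intro hn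
  obtain ⟨M, hM⟩ := hx
  obtain ⟨M', hM'⟩ := hn (n + 1)
  obtain ⟨y, hy⟩ := h.exists_app x (max M M')
  obtain ⟨h0, h1⟩ := hM y (hy.mono (le_max_left _ _))
  rcases hM' y (hy.mono (le_max_right _ _)) with h2 | h2
  · exact h0 h2
  · omega

lemma Loc.val_unique (h : Loc w w₁ u e) {x : F₁ ⊗[F] K} {m n : ℤ} (hm : HasVal w₁ u x m)
    (hn : HasVal w₁ u x n) : m = n := by
  obtain ⟨M, hM⟩ := hm
  obtain ⟨M', hM'⟩ := hn
  obtain ⟨y, hy⟩ := h.exists_app x (max M M')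
  rw [← (hM y (hy.mono (le_max_left _ _))).2, ← (hM' y (hy.mono (le_max_right _ _))).2]

/-- the value of a nonzero element of `K` -/
lemma Loc.hasVal_inc (h : Loc w w₁ u e) {y : K} (hy : y ≠ 0) :
    HasVal w₁ u (inc F F₁ K y) (u y) := by
  obtain ⟨c, hc⟩ := h.close
  obtain ⟨M, hM⟩ := h.exists_prec c (u y + 1)
  refine ⟨M, fun y' hy' => ?_⟩
  exact h.du.eq_of_sub hy (by omega) ((hc M _ y y' (app_inc M y) hy').mono hM)

/-- one good approximation suffices -/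
lemma Loc.val_of_app (h : Loc w w₁ u e) : ∃ c : ℤ, ∀ (M : ℤ) (x : F₁ ⊗[F] K) (y : K),
    App w₁ M x y → y ≠ 0 → u y < e * M - c → HasVal w₁ u x (u y) := by
  obtain ⟨c, hc⟩ := h.close
  refine ⟨c, fun M x y hy hy0 hlt => ⟨M, fun y' hy' => ?_⟩⟩
  exact h.du.eq_of_sub hy0 hlt (hc M x y y' hy hy')

/-- the product of approximations -/
lemma App.mul (hw : DV w₁) (x x' : F₁ ⊗[F] K) : ∃ c : ℤ, ∀ (M : ℤ), c ≤ M → ∀ (y y' : K),
    App w₁ M x y → App w₁ M x' y' → App w₁ (M - c) (x * x') (y * y') := by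
  obtain ⟨c₁, h1⟩ := exists_mul_bound hw x
  obtain ⟨c₂, h2⟩ := exists_mul_bound hw x'
  obtain ⟨c₃, h3⟩ := exists_mul_bound' (F := F) (F₁ := F₁) (K := K) hw
  refine ⟨max (max c₁ c₂) (max c₃ 0), fun M hM y y' hy hy' => ?_⟩
  have ha : c₁ ≤ max (max c₁ c₂) (max c₃ 0) := (le_max_left _ _).trans (le_max_left _ _)
  have hb : c₂ ≤ max (max c₁ c₂) (max c₃ 0) := (le_max_right _ _).trans (le_max_left _ _)
  have hc : c₃ ≤ max (max c₁ c₂) (max c₃ 0) := (le_max_left _ _).trans (le_max_right _ _)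
  have hd : 0 ≤ max (max c₁ c₂) (max c₃ 0) := (le_max_right _ _).trans (le_max_right _ _)
  set C := max (max c₁ c₂) (max c₃ 0) with hC
  have e1 : x * x' - inc F F₁ K (y * y') =
      x * (x' - inc F F₁ K y') + x' * (x - inc F F₁ K y) -
        (x - inc F F₁ K y) * (x' - inc F F₁ K y') := by
    rw [map_mul]
    ring
  rw [App, e1]
  refine ((LamB.add hw ?_ ?_).sub hw ?_)
  · exact LamB.mono (by omega) (h1 M _ hy')
  · exact LamB.mono (by omega) (h2 M _ hy)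
  · exact LamB.mono (by omega) (h3 M M _ _ hy hy')

lemma Loc.hasVal_mul (h : Loc w w₁ u e) {x x' : F₁ ⊗[F] K} {m n : ℤ} (hx : HasVal w₁ u x m)
    (hx' : HasVal w₁ u x' n) : HasVal w₁ u (x * x') (m + n) := by
  obtain ⟨M₁, h1⟩ := hx
  obtain ⟨M₂, h2⟩ := hx'
  obtain ⟨c, hc⟩ := App.mul h.dw₁ x x'
  obtain ⟨d, hd⟩ := h.val_of_app
  obtain ⟨M₃, h3⟩ := h.exists_prec d (m + n + 1)
  let M : ℤ := max (max M₁ M₂) (max c (|M₃| + |c|))
  have ha : M₁ ≤ M := (le_max_left _ _).trans (le_max_left _ _)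
  have hb : M₂ ≤ M := (le_max_right _ _).trans (le_max_left _ _)
  have hcM : c ≤ M := (le_max_left _ _).trans (le_max_right _ _)
  have hdM : |M₃| + |c| ≤ M := (le_max_right _ _).trans (le_max_right _ _)
  obtain ⟨y, hy⟩ := h.exists_app x M
  obtain ⟨y', hy'⟩ := h.exists_app x' M
  obtain ⟨hy0, hym⟩ := h1 y (hy.mono ha)
  obtain ⟨hy0', hyn⟩ := h2 y' (hy'.mono hb)
  have h4 := hc M hcM y y' hy hy'
  have h5 : u (y * y') = m + n := by rw [h.du.mul _ _ hy0 hy0', hym, hyn]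
  rw [← h5]
  refine hd (M - c) _ _ h4 (mul_ne_zero hy0 hy0') ?_
  have h6 : M₃ ≤ M - c := by
    have := le_abs_self M₃
    have := le_abs_self c
    omega
  have h7 : e * M₃ ≤ e * (M - c) := mul_le_mul_of_nonneg_left h6 h.pos.le
  omega

lemma Loc.nul_mul (h : Loc w w₁ u e) {x x' : F₁ ⊗[F] K} (hx : Nul w₁ u x) :
    Nul w₁ u (x' * x) := by
  intro n
  -- a bound for the approximations of `x'`
  obtain ⟨c₀, hc₀⟩ := h.close
  obtain ⟨y₀, hy₀⟩ := h.exists_app x' 0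
  obtain ⟨c, hc⟩ := App.mul h.dw₁ x' x
  obtain ⟨d, hd⟩ := h.close
  -- lower bound `-B` for the value of all approximations of `x'` with `M ≥ 0`
  have hB : ∃ B : ℤ, ∀ M : ℤ, 0 ≤ M → ∀ y', App w₁ M x' y' → Ge u (-B) y' := by
    refine ⟨|u y₀| + |c₀|, fun M hM y' hy' => ?_⟩
    have h1 := hc₀ 0 x' y₀ y' hy₀ (hy'.mono hM)
    have h2 : Ge u (-(|u y₀| + |c₀|)) y₀ := Or.inr (by
      have := neg_abs_le (u y₀)
      have := abs_nonneg c₀
      omega)
    have h3 : Ge u (-(|u y₀| + |c₀|)) (y' - y₀) := h1.mono (by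
      have := le_abs_self c₀
      have := abs_nonneg (u y₀)
      omega)
    have h4 := h3.add h.du h2
    rwa [sub_add_cancel] at h4
  obtain ⟨B, hB⟩ := hB
  obtain ⟨M₁, hM₁⟩ := hx (n + B)
  obtain ⟨M₂, hM₂⟩ := h.exists_prec d n
  -- precision
  let M : ℤ := max (max M₁ |M₂| + |c|) (max c 0)
  refine ⟨M - c, fun z hz => ?_⟩
  have hM0 : 0 ≤ M := (le_max_right _ _).trans (le_max_right _ _)
  have hMc : c ≤ M := (le_max_left _ _).trans (le_max_right _ _)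
  have hMm : max M₁ |M₂| + |c| ≤ M := le_max_left _ _
  obtain ⟨y', hy'⟩ := h.exists_app x' M
  obtain ⟨y, hy⟩ := h.exists_app x M
  have h1 := hc M hMc y' y hy' hy
  have h2 := hd (M - c) _ _ _ h1 hz
  have h3 : n ≤ e * (M - c) - d := by
    have h4 : M₂ ≤ M - c := by
      have := le_abs_self M₂
      have := le_abs_self c
      have := le_max_right M₁ |M₂|
      omega
    have h5 : e * M₂ ≤ e * (M - c) := mul_le_mul_of_nonneg_left h4 h.pos.le
    omega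
  have h4 := hB M hM0 y' hy'
  have h5 : Ge u (n + B) y := hM₁ y (hy.mono (by
    have := le_max_left M₁ |M₂|
    have := abs_nonneg c
    omega))
  have h6 : Ge u n (y' * y) := (h4.mul h.du h5).mono (by omega)
  have h7 := (h2.mono h3).add h.du h6
  rwa [sub_add_cancel] at h7

lemma Loc.nul_add (h : Loc w w₁ u e) {x x' : F₁ ⊗[F] K} (hx : Nul w₁ u x) (hx' : Nul w₁ u x') :
    Nul w₁ u (x + x') := by
  intro n
  obtain ⟨M₁, h1⟩ := hx n
  obtain ⟨M₂, h2⟩ := hx' n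
  obtain ⟨d, hd⟩ := h.close
  obtain ⟨M₃, h3⟩ := h.exists_prec d n
  let M : ℤ := max (max M₁ M₂) M₃
  have ha : M₁ ≤ M := (le_max_left _ _).trans (le_max_left _ _)
  have hb : M₂ ≤ M := (le_max_right _ _).trans (le_max_left _ _)
  have hc : M₃ ≤ M := le_max_right _ _
  refine ⟨M, fun z hz => ?_⟩
  obtain ⟨y, hy⟩ := h.exists_app x M
  obtain ⟨y', hy'⟩ := h.exists_app x' M
  have h4 := hd M _ _ _ (hy.add h.dw₁ hy') hz
  have h5 : e * M₃ ≤ e * M := mul_le_mul_of_nonneg_left hc h.pos.le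
  have h6 := (h1 y (hy.mono ha)).add h.du (h2 y' (hy'.mono hb))
  have h7 := (h4.mono (show n ≤ e * M - d by omega)).add h.du h6
  rwa [sub_add_cancel] at h7

/-- the prime ideal of the elements of infinite value -/
def nul (h : Loc w w₁ u e) : Ideal (F₁ ⊗[F] K) where
  carrier := {x | Nul w₁ u x}
  zero_mem' := by
    intro n
    obtain ⟨c, hc⟩ := h.exists_small
    obtain ⟨M, hM⟩ := h.exists_prec c n
    refine ⟨M, fun y hy => ?_⟩
    have h1 : Lam w₁ M (inc F F₁ K y) := by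
      have h2 := LamB.neg h.dw₁ hy
      rwa [zero_sub, neg_neg] at h2
    exact (hc M y h1).mono hM
  add_mem' := fun ha hb => h.nul_add ha hb
  smul_mem' := fun c x hx => h.nul_mul hx

lemma mem_nul (h : Loc w w₁ u e) {x : F₁ ⊗[F] K} : x ∈ nul h ↔ Nul w₁ u x := Iff.rfl

lemma Loc.not_mem_nul (h : Loc w w₁ u e) {x : F₁ ⊗[F] K} :
    x ∉ nul h ↔ ∃ n, HasVal w₁ u x n := by
  constructor
  · intro hx
    exact (h.nul_or_val x).resolve_left hx
  · rintro ⟨n, hn⟩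
    exact h.not_nul hn

instance nul_prime (h : Loc w w₁ u e) : (nul h).IsPrime where
  ne_top' := by
    rw [Ideal.ne_top_iff_one, h.not_mem_nul]
    have h1 := h.hasVal_inc (one_ne_zero (α := K))
    rw [map_one] at h1
    exact ⟨_, h1⟩
  mem_or_mem' := by
    intro x y hxy
    by_contra hcon
    push Not at hcon
    obtain ⟨h1, h2⟩ := hcon
    rw [h.not_mem_nul] at h1 h2
    obtain ⟨m, hm⟩ := h1
    obtain ⟨n, hn⟩ := h2
    exact h.not_nul (h.hasVal_mul hm hn) hxy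

open Classical in
/-- the value of an element of `F₁ ⊗[F] K` (`0` on `nul`) -/
noncomputable def val (w₁ : F₁ → ℤ) (u : K → ℤ) (x : F₁ ⊗[F] K) : ℤ :=
  if h : ∃ n, HasVal w₁ u x n then h.choose else 0

lemma Loc.hasVal_val (h : Loc w w₁ u e) {x : F₁ ⊗[F] K} (hx : x ∉ nul h) :
    HasVal w₁ u x (val w₁ u x) := by
  have h1 := h.not_mem_nul.1 hx
  rw [val, dif_pos h1]
  exact h1.choose_spec

lemma Loc.val_eq (h : Loc w w₁ u e) {x : F₁ ⊗[F] K} {n : ℤ} (hx : HasVal w₁ u x n) :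
    val w₁ u x = n :=
  h.val_unique (h.hasVal_val (h.not_mem_nul.2 ⟨n, hx⟩)) hx

lemma Loc.val_inc (h : Loc w w₁ u e) {y : K} (hy : y ≠ 0) : val w₁ u (inc F F₁ K y) = u y :=
  h.val_eq (h.hasVal_inc hy)

lemma Loc.inc_not_mem (h : Loc w w₁ u e) {y : K} (hy : y ≠ 0) : inc F F₁ K y ∉ nul h :=
  h.not_mem_nul.2 ⟨_, h.hasVal_inc hy⟩

lemma Loc.val_mul (h : Loc w w₁ u e) {x y : F₁ ⊗[F] K} (hx : x ∉ nul h) (hy : y ∉ nul h) :
    val w₁ u (x * y) = val w₁ u x + val w₁ u y :=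
  h.val_eq (h.hasVal_mul (h.hasVal_val hx) (h.hasVal_val hy))

lemma Loc.val_one (h : Loc w w₁ u e) : val w₁ u (1 : F₁ ⊗[F] K) = 0 := by
  have h1 := h.val_inc (one_ne_zero (α := K))
  rwa [map_one, h.du.one] at h1

lemma Loc.val_pow (h : Loc w w₁ u e) {x : F₁ ⊗[F] K} (hx : x ∉ nul h) (n : ℕ) :
    val w₁ u (x ^ n) = n * val w₁ u x := by
  induction n with
  | zero => rw [pow_zero, h.val_one, Nat.cast_zero, zero_mul]
  | succ n ih =>
    rw [pow_succ, h.val_mul (fun hc => hx ((nul_prime h).mem_of_pow_mem _ hc)) hx, ih]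
    push_cast
    ring

/-- the value only depends on the class modulo `nul` -/
lemma Loc.hasVal_congr (h : Loc w w₁ u e) {x y : F₁ ⊗[F] K} {n : ℤ} (hx : HasVal w₁ u x n)
    (hxy : y - x ∈ nul h) : HasVal w₁ u y n := by
  obtain ⟨M₁, h1⟩ := hx
  obtain ⟨M₂, h2⟩ := hxy (n + 1)
  obtain ⟨d, hd⟩ := h.val_of_app
  obtain ⟨M₃, h3⟩ := h.exists_prec d (n + 1)
  let M : ℤ := max (max M₁ M₂) M₃
  have ha : M₁ ≤ M := (le_max_left _ _).trans (le_max_left _ _)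
  have hb : M₂ ≤ M := (le_max_right _ _).trans (le_max_left _ _)
  have hc : M₃ ≤ M := le_max_right _ _
  obtain ⟨a, haa⟩ := h.exists_app x M
  obtain ⟨b, hbb⟩ := h.exists_app (y - x) M
  obtain ⟨ha0, han⟩ := h1 a (haa.mono ha)
  have hbn := h2 b (hbb.mono hb)
  have h4 := haa.add h.dw₁ hbb
  rw [add_sub_cancel] at h4
  obtain ⟨h5, h6⟩ := h.du.eq_of_sub (x := a) (y := a + b) (n := n + 1) ha0 (by omega)
    (by rwa [add_sub_cancel_left])
  have h7 : e * M₃ ≤ e * M := mul_le_mul_of_nonneg_left hc h.pos.le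
  rw [han] at h6
  rw [← h6]
  exact hd M y (a + b) h4 h5 (by omega)

lemma Loc.val_congr (h : Loc w w₁ u e) {x y : F₁ ⊗[F] K} (hxy : y - x ∈ nul h) :
    val w₁ u y = val w₁ u x := by
  by_cases hx : x ∈ nul h
  · have hy : y ∈ nul h := by
      have := (nul h).add_mem hxy hx
      rwa [sub_add_cancel] at this
    have h1 : ¬ ∃ n, HasVal w₁ u x n := fun hc => h.not_mem_nul.2 hc hx
    have h2 : ¬ ∃ n, HasVal w₁ u y n := fun hc => h.not_mem_nul.2 hc hy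
    rw [val, val, dif_neg h1, dif_neg h2]
  · exact h.val_eq (h.hasVal_congr (h.hasVal_val hx) hxy)

/-- a perfect power in the quotient: `n` divides the value -/
lemma Loc.dvd_of_pow (h : Loc w w₁ u e) {x : K} (hx : x ≠ 0) {z : F₁ ⊗[F] K} {n : ℕ}
    (hn : 0 < n) (hz : inc F F₁ K x - z ^ n ∈ nul h) : (n : ℤ) ∣ u x := by
  rw [← h.val_inc hx, h.val_congr hz]
  by_cases h0 : z ∈ nul h
  · exact absurd (by
      have h1 := (nul h).add_mem hz (Ideal.pow_mem_of_mem _ h0 n hn)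
      rwa [sub_add_cancel] at h1) (h.inc_not_mem hx)
  · rw [h.val_pow h0]
    exact Dvd.intro _ rfl

/-- the value of an element of `F₁` -/
lemma Loc.hasVal_left (h : Loc w w₁ u e) {α : F₁} (hα : α ≠ 0) :
    HasVal w₁ u (algebraMap F₁ (F₁ ⊗[F] K) α) (e * w₁ α) := by
  obtain ⟨c, -, hc⟩ := exists_bound fun i => w₁ ((bas₁ F F₁ K).repr 1 i)
  obtain ⟨d, hd⟩ := h.val_of_app
  obtain ⟨M₃, h3⟩ := h.exists_prec d (e * w₁ α + 1)
  let M : ℤ := max (w₁ α + 1) (M₃ + c)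
  have ha : w₁ α + 1 ≤ M := le_max_left _ _
  have hb : M₃ + c ≤ M := le_max_right _ _
  obtain ⟨y, hy⟩ := h.dense α M
  obtain ⟨hy0, hy1⟩ := h.dw₁.eq_of_sub (x := α) (y := algebraMap F F₁ y) (n := M) hα (by omega)
    (by rw [← neg_sub]; exact hy.neg h.dw₁)
  have hy2 : y ≠ 0 := by
    rintro rfl
    exact hy0 (map_zero _)
  have h4 : u (algebraMap F K y) = e * w₁ α := by rw [h.comp, ← h.comp₁, hy1]
  rw [← h4]
  refine hd (M - c) _ _ ?_ (by rwa [Ne, map_eq_zero]) ?_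
  · intro i
    have h5 : algebraMap F₁ (F₁ ⊗[F] K) α - inc F F₁ K (algebraMap F K y) =
        (α - algebraMap F F₁ y) • (1 : F₁ ⊗[F] K) := by
      rw [(inc F F₁ K).commutes y, IsScalarTower.algebraMap_apply F F₁ (F₁ ⊗[F] K) y, ← map_sub,
        Algebra.algebraMap_eq_smul_one]
    rw [h5, map_smul, Finsupp.smul_apply, smul_eq_mul, sub_eq_add_neg]
    exact hy.mul h.dw₁ (Or.inr (hc i))
  · have h6 : e * M₃ ≤ e * (M - c) := mul_le_mul_of_nonneg_left (by omega) h.pos.le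
    omega

lemma Loc.val_left (h : Loc w w₁ u e) {α : F₁} (hα : α ≠ 0) :
    val w₁ u (algebraMap F₁ (F₁ ⊗[F] K) α) = e * w₁ α := h.val_eq (h.hasVal_left hα)

end P025H731
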