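import Vale.Agent.P025.R2.H731.Compl
import Vale.Agent.P025.R2.H731.Sides

/-! # Automatic continuity of homomorphisms of `Fi ⊗ K` to discretely valued fields -/

open Polynomial TensorProduct Vale.Agent.P019P P025H373 P025H492 P025H544 P025H628

universe u

namespace P025H731

section

variable {C : Type u} [NontriviallyNormedField C] [IsUltrametricDist C] [CompleteSpace C]
  [IsAlgClosed C]

variable (C) in
/-- `2` or `3` has norm one -/
lemma exists_nat_norm_one : ∃ n : ℕ, 2 ≤ n ∧ ‖(n : C)‖ = 1 := by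
  by_contra hcon
  push Not at hcon
  have h2 : ‖((2 : ℕ) : C)‖ < 1 :=
    lt_of_le_of_ne (IsUltrametricDist.norm_natCast_le_one C 2) (hcon 2 le_rfl)
  have h3 : ‖((3 : ℕ) : C)‖ < 1 :=
    lt_of_le_of_ne (IsUltrametricDist.norm_natCast_le_one C 3) (hcon 3 (by norm_num))
  have h4 : (1 : C) = ((3 : ℕ) : C) + -((2 : ℕ) : C) := by push_cast; ring
  have h5 : ‖(1 : C)‖ < 1 := by
    rw [h4]
    refine (IsUltrametricDist.norm_add_le_max _ _).trans_lt (max_lt h3 ?_)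
    rwa [norm_neg]
  rw [norm_one] at h5
  exact lt_irrefl _ h5

lemma eq_zero_of_pow_dvd {n : ℕ} (hn : 2 ≤ n) {m : ℤ} (h : ∀ k : ℕ, (n ^ k : ℕ) ∣ m.natAbs) :
    m = 0 := by
  by_contra hm
  have h1 := Nat.le_of_dvd (Int.natAbs_pos.2 hm) (h m.natAbs)
  have h2 : m.natAbs < 2 ^ m.natAbs := Nat.lt_two_pow_self
  have h3 : 2 ^ m.natAbs ≤ n ^ m.natAbs := Nat.pow_le_pow_left hn _
  omega

/-- roots of one-units -/
lemma exists_root {A : Subalgebra C (F0 C)} (hA : IsClosed (A : Set (F0 C))) {h : F0 C}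
    (hh : h ∈ A) (h1 : ‖h‖ < 1) {n : ℕ} (hn : ‖(n : C)‖ = 1) :
    ∃ h' ∈ A, ‖h'‖ < 1 ∧ (1 + h') ^ n = 1 + h := by
  have hn0 : (n : C) ≠ 0 := norm_ne_zero_iff.1 (by rw [hn]; exact one_ne_zero)
  obtain ⟨y, hy, hyn, hy1⟩ := exists_pow_eq (C := C) A.toSubring hA
    (fun c => A.algebraMap_mem c) hn0 (x := 1 + h) (A.add_mem A.one_mem hh)
    (by rw [add_sub_cancel_left, hn, one_pow]; exact h1)
  rw [add_sub_cancel_left, hn, div_one] at hy1
  exact ⟨y - 1, A.sub_mem hy A.one_mem, hy1.trans_lt h1, by rw [add_sub_cancel]; exact hyn⟩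

variable {Kh : Type*} [Field Kh] {v : Kh → ℤ}

/-- one-units have value zero under any homomorphism -/
lemma val_one_add {A : Subalgebra C (F0 C)} (hA : IsClosed (A : Set (F0 C)))
    {Fi : IntermediateField (RatFunc C) (F0 C)} (hAF : ∀ x ∈ A, x ∈ Fi) (hv : DV v)
    (ψ : Fi →+* Kh) {x : Fi} {h : F0 C} (hh : h ∈ A) (h1 : ‖h‖ < 1) (hx : (x : F0 C) = 1 + h) :
    v (ψ x) = 0 := by
  obtain ⟨n, hn2, hn1⟩ := exists_nat_norm_one C
  refine eq_zero_of_pow_dvd hn2 fun k => ?_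
  have hk : ‖((n ^ k : ℕ) : C)‖ = 1 := by
    rw [Nat.cast_pow, norm_pow, hn1, one_pow]
  obtain ⟨h', hh', h1', he⟩ := exists_root hA hh h1 hk
  let y : Fi := ⟨1 + h', hAF _ (A.add_mem A.one_mem hh')⟩
  have hy : y ^ (n ^ k) = x := Subtype.ext (by
    change (1 + h') ^ (n ^ k) = (x : F0 C)
    rw [hx, he])
  rw [← hy, map_pow, hv.pow, Int.natAbs_mul, Int.natAbs_natCast]
  exact Dvd.intro _ rfl

end

section

variable {C : Type u} [NontriviallyNormedField C] [IsUltrametricDist C] [CompleteSpace C]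
  [IsAlgClosed C] {K : Type*} [Field K] [Algebra C K] [Algebra (RatFunc C) K]
  [IsScalarTower C (RatFunc C) K] [FiniteDimensional (RatFunc C) K] [CFF C K]
  {Kh : Type*} [Field Kh] {v : Kh → ℤ} {s : ℤ}

/-- a homomorphism of `Fi ⊗ K` inducing (a multiple of) `ord P` on `K` is continuous: criterion -/
lemma auto_aux {Fi : Type*} [Field Fi] [Algebra (RatFunc C) Fi] {S : Set (Plk C (RatFunc C))}
    {wi : Plk C (RatFunc C) → Fi → ℤ} (hS : Side C Fi S wi) (hv : DV v) (hs : 0 < s)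
    (P : Plk C K) (h : down (RatFunc C) P ∈ S) (Ψ : Fi ⊗[RatFunc C] K →+* Kh)
    (hK : ∀ y : K, v (Ψ ((1 : Fi) ⊗ₜ y)) = s * ord P y)
    (hrep : ∀ α : Fi, α ≠ 0 → ∃ g : RatFunc C, g ≠ 0 ∧ ∃ β : Fi, β ≠ 0 ∧
      α = algebraMap (RatFunc C) Fi g * β ∧ wi (down (RatFunc C) P) β = 0 ∧
      v (Ψ (algebraMap Fi _ β)) = 0) :
    CompHom (wi (down (RatFunc C) P)) (ord P) v Ψ (s * ram (RatFunc C) P) s where
  posr := mul_pos hs (by exact_mod_cast ram_pos P)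
  poss := hs
  val₁ := by
    intro α
    by_cases hα : α = 0
    · rw [hα, map_zero, map_zero, hv.zero, (hS.dv _ h).zero, mul_zero]
    obtain ⟨g, hg, β, hβ0, hαe, hβ, hvβ⟩ := hrep α hα
    have h0 : algebraMap (RatFunc C) Fi g ≠ 0 := by rwa [Ne, map_eq_zero]
    have hne : ∀ γ : Fi, γ ≠ 0 → Ψ (algebraMap Fi (Fi ⊗[RatFunc C] K) γ) ≠ 0 := by
      intro γ hγ hc
      have h1 : Ψ (algebraMap Fi (Fi ⊗[RatFunc C] K) (γ * γ⁻¹)) = 0 := by
        rw [map_mul, map_mul, hc, zero_mul]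
      rw [mul_inv_cancel₀ hγ, map_one, map_one] at h1
      exact one_ne_zero h1
    have h2 : algebraMap Fi (Fi ⊗[RatFunc C] K) (algebraMap (RatFunc C) Fi g) =
        (1 : Fi) ⊗ₜ[RatFunc C] (algebraMap (RatFunc C) K g) := by
      rw [Algebra.TensorProduct.algebraMap_apply, Algebra.algebraMap_self_apply,
        ← mul_one (algebraMap (RatFunc C) Fi g), ← Algebra.smul_def, TensorProduct.smul_tmul,
        Algebra.smul_def, mul_one]
    rw [hαe, map_mul, map_mul, hv.mul _ _ (hne _ h0) (hne _ hβ0), hvβ, add_zero, h2, hK,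
      ord_algebraMap, (hS.dv _ h).mul _ _ h0 hβ0, hβ, add_zero, hS.comp _ h]
    ring
  valK := hK

/-- automatic continuity on the closed disc -/
theorem auto1 (hv : DV v) (hs : 0 < s) (P : Plk C K) (h : down (RatFunc C) P ∈ Inn C 1)
    (Ψ : F1 C ⊗[RatFunc C] K →+* Kh) (hK : ∀ y : K, v (Ψ ((1 : F1 C) ⊗ₜ y)) = s * ord P y) :
    CompHom (v1 C (down (RatFunc C) P)) (ord P) v Ψ (s * ram (RatFunc C) P) s := by
  refine auto_aux (side1 C) hv hs P h Ψ hK fun α hα => ?_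
  obtain ⟨g, hg, h', hh, h1, h2⟩ := (half1 C).rep hα
  have h0 : (1 : F0 C) + h' ≠ 0 := one_add_ne_zero' h1
  have hmem : (1 : F0 C) + h' ∈ F1 C := A1_le_F1 ((A1 C).add_mem (A1 C).one_mem hh)
  refine ⟨g, hg, ⟨1 + h', hmem⟩, fun hc => h0 (congrArg Subtype.val hc), Subtype.ext h2, ?_, ?_⟩
  · rw [v1_eq h one_ne_zero hh h1 (by rw [map_one, one_mul]), ord_one]
  · exact val_one_add (x := ⟨1 + h', hmem⟩) isClosed_A1 (fun x hx => A1_le_F1 hx) hv
      (Ψ.comp Algebra.TensorProduct.includeLeftRingHom) hh h1 rfl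

/-- automatic continuity on the complement of the closed disc -/
theorem auto2 (hv : DV v) (hs : 0 < s) (P : Plk C K) (h : down (RatFunc C) P ∈ Out C 1)
    (Ψ : F2 C ⊗[RatFunc C] K →+* Kh) (hK : ∀ y : K, v (Ψ ((1 : F2 C) ⊗ₜ y)) = s * ord P y) :
    CompHom (v2 C (down (RatFunc C) P)) (ord P) v Ψ (s * ram (RatFunc C) P) s := by
  refine auto_aux (side2 C) hv hs P h Ψ hK fun α hα => ?_
  obtain ⟨g, hg, h', hh, h1, h2⟩ := (half2 C).rep hα
  have h0 : (1 : F0 C) + h' ≠ 0 := one_add_ne_zero' h1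
  have hmem : (1 : F0 C) + h' ∈ F2 C := A2_le_F2 ((A2 C).add_mem (A2 C).one_mem hh)
  refine ⟨g, hg, ⟨1 + h', hmem⟩, fun hc => h0 (congrArg Subtype.val hc), Subtype.ext h2, ?_, ?_⟩
  · rw [v2_eq h one_ne_zero hh h1 (by rw [map_one, one_mul]), ord_one]
  · exact val_one_add (x := ⟨1 + h', hmem⟩) isClosed_A2 (fun x hx => A2_le_F2 hx) hv
      (Ψ.comp Algebra.TensorProduct.includeLeftRingHom) hh h1 rfl

/-- representation `α = g (1 + h)` in `F1r` -/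
lemma rep1r (c : Cˣ) {α : F1r C c} (hα : α ≠ 0) : ∃ g : RatFunc C, g ≠ 0 ∧ ∃ h' ∈ A1 C,
    ‖h'‖ < 1 ∧ ∃ β : F1 C, (β : F0 C) = 1 + h' ∧
      α = algebraMap (RatFunc C) (F1r C c) g * (show F1r C c from β) := by
  obtain ⟨g, hg, h', hh, h1, h2⟩ := (half1 C).rep (x := (show F1 C from α)) hα
  have hmem : (1 : F0 C) + h' ∈ F1 C := A1_le_F1 ((A1 C).add_mem (A1 C).one_mem hh)
  refine ⟨(scale (c : C) c.ne_zero).symm g, by rwa [Ne, map_eq_zero], h', hh, h1,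
    ⟨1 + h', hmem⟩, rfl, ?_⟩
  rw [algebraMap_F1r, AlgEquiv.apply_symm_apply]
  exact Subtype.ext h2

lemma rep2r (c : Cˣ) {α : F2r C c} (hα : α ≠ 0) : ∃ g : RatFunc C, g ≠ 0 ∧ ∃ h' ∈ A2 C,
    ‖h'‖ < 1 ∧ ∃ β : F2 C, (β : F0 C) = 1 + h' ∧
      α = algebraMap (RatFunc C) (F2r C c) g * (show F2r C c from β) := by
  obtain ⟨g, hg, h', hh, h1, h2⟩ := (half2 C).rep (x := (show F2 C from α)) hα
  have hmem : (1 : F0 C) + h' ∈ F2 C := A2_le_F2 ((A2 C).add_mem (A2 C).one_mem hh)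
  refine ⟨(scale (c : C) c.ne_zero).symm g, by rwa [Ne, map_eq_zero], h', hh, h1,
    ⟨1 + h', hmem⟩, rfl, ?_⟩
  rw [algebraMap_F2r, AlgEquiv.apply_symm_apply]
  exact Subtype.ext h2

/-- automatic continuity, all radii -/
theorem auto1r (c : Cˣ) (hv : DV v) (hs : 0 < s) (P : Plk C K)
    (h : down (RatFunc C) P ∈ Inn C (c : C)) (Ψ : F1r C c ⊗[RatFunc C] K →+* Kh)
    (hK : ∀ y : K, v (Ψ ((1 : F1r C c) ⊗ₜ y)) = s * ord P y) :
    CompHom (v1r c (down (RatFunc C) P)) (ord P) v Ψ (s * ram (RatFunc C) P) s := by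
  refine auto_aux (side1r c) hv hs P h Ψ hK fun α hα => ?_
  obtain ⟨g, hg, h', hh, h1, β, hβ, h2⟩ := rep1r c hα
  have h0 : (1 : F0 C) + h' ≠ 0 := one_add_ne_zero' h1
  have hβ0 : β ≠ 0 := by
    rintro rfl
    exact h0 hβ.symm
  refine ⟨g, hg, β, hβ0, h2, ?_, ?_⟩
  · exact (v1_eq ((tr_scale_mem c _).2 h) one_ne_zero hh h1
      (by rw [map_one, one_mul]; exact hβ)).trans (ord_one _)
  · exact val_one_add isClosed_A1 (fun x hx => A1_le_F1 hx) hv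
      (Ψ.comp (algebraMap (F1r C c) (F1r C c ⊗[RatFunc C] K)) : F1 C →+* Kh) hh h1 hβ

theorem auto2r (c : Cˣ) (hv : DV v) (hs : 0 < s) (P : Plk C K)
    (h : down (RatFunc C) P ∈ Out C (c : C)) (Ψ : F2r C c ⊗[RatFunc C] K →+* Kh)
    (hK : ∀ y : K, v (Ψ ((1 : F2r C c) ⊗ₜ y)) = s * ord P y) :
    CompHom (v2r c (down (RatFunc C) P)) (ord P) v Ψ (s * ram (RatFunc C) P) s := by
  refine auto_aux (side2r c) hv hs P h Ψ hK fun α hα => ?_
  obtain ⟨g, hg, h', hh, h1, β, hβ, h2⟩ := rep2r c hα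
  have h0 : (1 : F0 C) + h' ≠ 0 := one_add_ne_zero' h1
  have hβ0 : β ≠ 0 := by
    rintro rfl
    exact h0 hβ.symm
  refine ⟨g, hg, β, hβ0, h2, ?_, ?_⟩
  · exact (v2_eq (fun hc => h ((tr_scale_mem c _).1 hc)) one_ne_zero hh h1
      (by rw [map_one, one_mul]; exact hβ)).trans (ord_one _)
  · exact val_one_add isClosed_A2 (fun x hx => A2_le_F2 hx) hv
      (Ψ.comp (algebraMap (F2r C c) (F2r C c ⊗[RatFunc C] K)) : F2 C →+* Kh) hh h1 hβ

end

end P025H731
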