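import Vale.Agent.P025.R2.H731.Val4

/-! # Homomorphisms of `F₁ ⊗[F] K` to complete discretely valued fields -/

open TensorProduct

namespace P025H731

section

variable {F F₁ K : Type*} [Field F] [Field F₁] [Field K] [Algebra F F₁] [Algebra F K]
  [FiniteDimensional F K] {w : F → ℤ} {w₁ : F₁ → ℤ} {u : K → ℤ} {e : ℤ}
  {Kh : Type*} [Field Kh] {v : Kh → ℤ}

/-- a ring homomorphism to a valued field compatible with the valuations -/
structure CompHom (w₁ : F₁ → ℤ) (u : K → ℤ) (v : Kh → ℤ) (Ψ : F₁ ⊗[F] K →+* Kh) (r s : ℤ) :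
    Prop where
  posr : 0 < r
  poss : 0 < s
  val₁ : ∀ α, v (Ψ (algebraMap F₁ _ α)) = r * w₁ α
  valK : ∀ y, v (Ψ (inc F F₁ K y)) = s * u y

variable {Ψ : F₁ ⊗[F] K →+* Kh} {r s : ℤ}

lemma CompHom.exists_app (H : CompHom w₁ u v Ψ r s) (hv : DV v) :
    ∃ c : ℤ, ∀ (M : ℤ) (x : F₁ ⊗[F] K) (y : K), App w₁ M x y →
      Ge v (r * M - c) (Ψ x - Ψ (inc F F₁ K y)) := by
  classical
  obtain ⟨C, -, hC⟩ := exists_bound fun i => v (Ψ (bas₁ F F₁ K i))
  refine ⟨C, fun M x y hy => ?_⟩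
  have h1 : Ψ x - Ψ (inc F F₁ K y) =
      ∑ i, Ψ (algebraMap F₁ _ ((bas₁ F F₁ K).repr (x - inc F F₁ K y) i)) *
        Ψ (bas₁ F F₁ K i) := by
    rw [← map_sub]
    conv_lhs => rw [← (bas₁ F F₁ K).sum_repr (x - inc F F₁ K y), map_sum]
    refine Finset.sum_congr rfl fun i _ => ?_
    rw [Algebra.smul_def, map_mul]
  rw [h1]
  refine Ge.sum hv fun i _ => ?_
  have h2 : Ge v (r * M) (Ψ (algebraMap F₁ _ ((bas₁ F F₁ K).repr (x - inc F F₁ K y) i))) := by
    rcases hy i with h3 | h3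
    · exact Or.inl (by rw [h3, map_zero, map_zero])
    · exact Or.inr (by rw [H.val₁]; exact mul_le_mul_of_nonneg_left h3 H.posr.le)
  have h3 := h2.mul hv (Or.inr (hC i))
  rwa [← sub_eq_add_neg] at h3

lemma exists_large {r : ℤ} (hr : 0 < r) (c n : ℤ) : ∃ M : ℤ, 0 ≤ M ∧ n ≤ r * M - c := by
  refine ⟨|n + c|, abs_nonneg _, ?_⟩
  have h1 := le_abs_self (n + c)
  have h2 : 1 * |n + c| ≤ r * |n + c| :=
    mul_le_mul_of_nonneg_right (by omega) (abs_nonneg _)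
  omega

theorem CompHom.val_eq (H : CompHom w₁ u v Ψ r s) (hv : DV v) (h : Loc w w₁ u e)
    {x : F₁ ⊗[F] K} {n : ℤ} (hx : HasVal w₁ u x n) : Ψ x ≠ 0 ∧ v (Ψ x) = s * n := by
  obtain ⟨M₀, hM₀⟩ := hx
  obtain ⟨c, hc⟩ := H.exists_app hv
  obtain ⟨M₁, -, hM₁⟩ := exists_large H.posr c (s * n + 1)
  obtain ⟨y, hy⟩ := h.exists_app x (max M₀ M₁)
  obtain ⟨hy0, hyn⟩ := hM₀ y (hy.mono (le_max_left _ _))
  have h1 := hc M₁ x y (hy.mono (le_max_right _ _))
  have h2 : v (Ψ (inc F F₁ K y)) = s * n := by rw [H.valK, hyn]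
  have h3 : Ψ (inc F F₁ K y) ≠ 0 := by
    intro h4
    have h5 : Ψ (inc F F₁ K y * inc F F₁ K y⁻¹) = 0 := by rw [map_mul, h4, zero_mul]
    rw [← map_mul, mul_inv_cancel₀ hy0, map_one, map_one] at h5
    exact one_ne_zero h5
  have h4 := hv.eq_of_sub (n := r * M₁ - c) h3 (by rw [h2]; omega) h1
  exact ⟨h4.1, by rw [h4.2, h2]⟩

theorem CompHom.eq_zero (H : CompHom w₁ u v Ψ r s) (hv : DV v) (h : Loc w w₁ u e)
    {x : F₁ ⊗[F] K} (hx : Nul w₁ u x) : Ψ x = 0 := by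
  by_contra hne
  obtain ⟨M₀, hM₀⟩ := hx (|v (Ψ x)| + 1)
  obtain ⟨c, hc⟩ := H.exists_app hv
  obtain ⟨M₁, -, hM₁⟩ := exists_large H.posr c (|v (Ψ x)| + 1)
  obtain ⟨y, hy⟩ := h.exists_app x (max M₀ M₁)
  have h0 := hM₀ y (hy.mono (le_max_left _ _))
  have h1 := (hc M₁ x y (hy.mono (le_max_right _ _))).mono hM₁
  have h2 : Ge v (|v (Ψ x)| + 1) (Ψ (inc F F₁ K y)) := by
    rcases h0 with h3 | h3
    · exact Or.inl (by rw [h3, map_zero, map_zero])
    · right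
      rw [H.valK]
      have h4 : 1 * (|v (Ψ x)| + 1) ≤ s * u y := by
        refine (mul_le_mul_of_nonneg_left h3 zero_le_one).trans ?_
        exact mul_le_mul_of_nonneg_right (by have := H.poss; omega)
          ((by have := abs_nonneg (v (Ψ x)); omega : (0 : ℤ) ≤ |v (Ψ x)| + 1).trans h3)
      omega
  have h3 := h1.add hv h2
  rw [sub_add_cancel] at h3
  have h4 := h3.resolve_left hne
  have := le_abs_self (v (Ψ x))
  omega

/-- the kernel is the point -/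
theorem CompHom.ker_eq (H : CompHom w₁ u v Ψ r s) (hv : DV v) (h : Loc w w₁ u e) :
    RingHom.ker Ψ = nul h := by
  ext x
  rw [RingHom.mem_ker]
  constructor
  · intro hx
    by_contra hc
    obtain ⟨n, hn⟩ := h.not_mem_nul.1 hc
    exact (H.val_eq hv h hn).1 hx
  · intro hx
    exact H.eq_zero hv h hx

theorem CompHom.val_eq' (H : CompHom w₁ u v Ψ r s) (hv : DV v) (h : Loc w w₁ u e)
    (x : F₁ ⊗[F] K) : v (Ψ x) = s * val w₁ u x := by
  by_cases hx : x ∈ nul h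
  · have h1 : ¬ ∃ n, HasVal w₁ u x n := fun hc => h.not_mem_nul.2 hc hx
    rw [val, dif_neg h1, H.eq_zero hv h hx, hv.zero, mul_zero]
  · exact (H.val_eq hv h (h.hasVal_val hx)).2

/-! ## Extension to the completion -/

/-- completeness of a discretely valued field -/
def Cmpl (v : Kh → ℤ) : Prop :=
  ∀ a : ℕ → Kh, (∀ n : ℕ, Ge v n (a (n + 1) - a n)) → ∃ l, ∀ n : ℕ, Ge v n (l - a n)

/-- `l` is the limit of the images of the approximations of `x` -/
def Lim (w₁ : F₁ → ℤ) (v : Kh → ℤ) (φ : K →+* Kh) (x : F₁ ⊗[F] K) (l : Kh) : Prop :=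
  ∀ n : ℤ, ∃ M : ℤ, ∀ y : K, App w₁ M x y → Ge v n (l - φ y)

variable {φ : K →+* Kh}

lemma lim_ge (hφ : ∀ y, v (φ y) = s * u y) (hs : 0 < s) {n : ℤ} {y : K} (hn : 0 ≤ n)
    (h : Ge u n y) : Ge v n (φ y) := by
  rcases h with h | h
  · exact Or.inl (by rw [h, map_zero])
  · right
    rw [hφ]
    have h4 : 1 * n ≤ s * u y := by
      refine (mul_le_mul_of_nonneg_left h zero_le_one).trans ?_
      exact mul_le_mul_of_nonneg_right (by omega) (hn.trans h)
    omega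

lemma Loc.exists_lim (h : Loc w w₁ u e) (hv : DV v) (hc : Cmpl v) (hs : 0 < s)
    (hφ : ∀ y, v (φ y) = s * u y) (x : F₁ ⊗[F] K) : ∃ l, Lim w₁ v φ x l := by
  obtain ⟨c, hcl⟩ := h.close
  -- precision
  choose M hM using fun n : ℕ => h.exists_prec c n
  -- make it increasing
  let N : ℕ → ℤ := fun n => ∑ i ∈ Finset.range (n + 1), |M i|
  have hMN : ∀ n, M n ≤ N n := fun n => (le_abs_self _).trans
    (Finset.single_le_sum (f := fun i => |M i|) (fun i _ => abs_nonneg _)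
      (Finset.self_mem_range_succ n))
  have hN : ∀ n, N n ≤ N (n + 1) := by
    intro n
    change ∑ i ∈ Finset.range (n + 1), |M i| ≤ ∑ i ∈ Finset.range (n + 1 + 1), |M i|
    rw [Finset.sum_range_succ _ (n + 1)]
    exact le_add_of_nonneg_right (abs_nonneg _)
  choose y hy using fun n : ℕ => h.exists_app x (N n)
  have hprec : ∀ n : ℕ, (n : ℤ) ≤ e * N n - c := fun n =>
    (hM n).trans (sub_le_sub_right (mul_le_mul_of_nonneg_left (hMN n) h.pos.le) _)
  obtain ⟨l, hl⟩ := hc (fun n => φ (y n)) (fun n => by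
    rw [← map_sub]
    exact lim_ge hφ hs (Int.natCast_nonneg n)
      ((hcl (N n) x _ _ (hy n) ((hy (n + 1)).mono (hN n))).mono (hprec n)))
  refine ⟨l, fun n => ⟨N n.toNat, fun z hz => ?_⟩⟩
  have h1 : Ge u (n.toNat : ℤ) (z - y n.toNat) :=
    (hcl (N n.toNat) x _ _ (hy _) hz).mono (hprec _)
  have h2 := lim_ge hφ hs (Int.natCast_nonneg _) h1
  rw [map_sub] at h2
  have h3 := (hl n.toNat).sub hv h2
  rw [sub_sub_sub_cancel_right] at h3
  exact h3.mono (Int.self_le_toNat n)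

lemma Loc.lim_unique (h : Loc w w₁ u e) (hv : DV v) {x : F₁ ⊗[F] K} {l l' : Kh}
    (h1 : Lim w₁ v φ x l) (h2 : Lim w₁ v φ x l') : l = l' := by
  by_contra hne
  have hne' : l - l' ≠ 0 := sub_ne_zero.2 hne
  obtain ⟨M₁, h3⟩ := h1 (v (l - l') + 1)
  obtain ⟨M₂, h4⟩ := h2 (v (l - l') + 1)
  obtain ⟨y, hy⟩ := h.exists_app x (max M₁ M₂)
  have h5 := (h3 y (hy.mono (le_max_left _ _))).sub hv (h4 y (hy.mono (le_max_right _ _)))
  rw [sub_sub_sub_cancel_right] at h5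
  have := h5.resolve_left hne'
  omega

lemma Loc.lim_add (h : Loc w w₁ u e) (hv : DV v) (hs : 0 < s) (hφ : ∀ y, v (φ y) = s * u y)
    {x x' : F₁ ⊗[F] K} {l l' : Kh} (h1 : Lim w₁ v φ x l) (h2 : Lim w₁ v φ x' l') :
    Lim w₁ v φ (x + x') (l + l') := by
  intro n
  obtain ⟨M₁, h3⟩ := h1 n
  obtain ⟨M₂, h4⟩ := h2 n
  obtain ⟨c, hc⟩ := h.close
  obtain ⟨M₃, h5⟩ := h.exists_prec c |n|
  refine ⟨max (max M₁ M₂) M₃, fun z hz => ?_⟩
  obtain ⟨y, hy⟩ := h.exists_app x (max (max M₁ M₂) M₃)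
  obtain ⟨y', hy'⟩ := h.exists_app x' (max (max M₁ M₂) M₃)
  have h6 := h3 y (hy.mono ((le_max_left _ _).trans (le_max_left _ _)))
  have h7 := h4 y' (hy'.mono ((le_max_right _ _).trans (le_max_left _ _)))
  have h8 := hc M₃ _ _ _ ((hy.add h.dw₁ hy').mono (le_max_right _ _))
    (hz.mono (le_max_right _ _))
  have h9 : Ge v n (φ (z - (y + y'))) :=
    (lim_ge hφ hs (abs_nonneg n) (h8.mono h5)).mono (le_abs_self n)
  have h10 := (h6.add hv h7).sub hv h9
  have h11 : l - φ y + (l' - φ y') - φ (z - (y + y')) = l + l' - φ z := by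
    rw [map_sub, map_add]
    ring
  rwa [h11] at h10

lemma Loc.lim_mul (h : Loc w w₁ u e) (hv : DV v) (hs : 0 < s) (hφ : ∀ y, v (φ y) = s * u y)
    {x x' : F₁ ⊗[F] K} {l l' : Kh} (h1 : Lim w₁ v φ x l) (h2 : Lim w₁ v φ x' l') :
    Lim w₁ v φ (x * x') (l * l') := by
  intro n
  -- `l l' - φ(y y') = l (l' - φ y') + φ y' (l - φ y)`
  set B : ℤ := |v l| + |v l'| + |n| + 1 with hB
  have hB1 : 0 ≤ B := by
    have := abs_nonneg (v l)
    have := abs_nonneg (v l')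
    have := abs_nonneg n
    omega
  obtain ⟨M₁, h3⟩ := h1 (n + B)
  obtain ⟨M₂, h4⟩ := h2 (n + B)
  obtain ⟨c, hc⟩ := h.close
  obtain ⟨c', hc'⟩ := App.mul h.dw₁ x x'
  obtain ⟨M₃, h5⟩ := h.exists_prec c |n|
  let M : ℤ := max (max M₁ M₂) (max (|M₃| + |c'|) c')
  have hM1 : M₁ ≤ M := (le_max_left _ _).trans (le_max_left _ _)
  have hM2 : M₂ ≤ M := (le_max_right _ _).trans (le_max_left _ _)
  have hM3 : |M₃| + |c'| ≤ M := (le_max_left _ _).trans (le_max_right _ _)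
  have hM4 : c' ≤ M := (le_max_right _ _).trans (le_max_right _ _)
  refine ⟨M - c', fun z hz => ?_⟩
  obtain ⟨y, hy⟩ := h.exists_app x M
  obtain ⟨y', hy'⟩ := h.exists_app x' M
  have h6 := h3 y (hy.mono hM1)
  have h7 := h4 y' (hy'.mono hM2)
  have h8 := hc (M - c') _ _ _ (hc' M hM4 y y' hy hy') hz
  have h9 : |n| ≤ e * (M - c') - c := by
    have h10 : M₃ ≤ M - c' := by
      have := le_abs_self M₃
      have := le_abs_self c'
      omega
    have h11 : e * M₃ ≤ e * (M - c') := mul_le_mul_of_nonneg_left h10 h.pos.le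
    omega
  have h10 : Ge v n (φ (z - y * y')) :=
    (lim_ge hφ hs (abs_nonneg n) (h8.mono h9)).mono (le_abs_self n)
  have h11 : Ge v (-B) l := Or.inr (by
    have := neg_abs_le (v l)
    have := abs_nonneg (v l')
    have := abs_nonneg n
    omega)
  have h12 : Ge v (-B) (φ y') := by
    have h13 : Ge v (-B) l' := Or.inr (by
      have := neg_abs_le (v l')
      have := abs_nonneg (v l)
      have := abs_nonneg n
      omega)
    have h14 : Ge v (-B) (l' - φ y') := h7.mono (by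
      have := neg_abs_le n
      have := abs_nonneg (v l)
      have := abs_nonneg (v l')
      omega)
    have h15 := h13.sub hv h14
    rwa [sub_sub_cancel] at h15
  have h13 := ((h11.mul hv h7).mono (show n ≤ -B + (n + B) by omega)).add hv
    ((h12.mul hv h6).mono (show n ≤ -B + (n + B) by omega))
  have h14 := h13.sub hv h10
  have h15 : l * (l' - φ y') + φ y' * (l - φ y) - φ (z - y * y') = l * l' - φ z := by
    rw [map_sub, map_mul]
    ring
  rwa [h15] at h14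

lemma Loc.lim_inc (h : Loc w w₁ u e) (hs : 0 < s) (hφ : ∀ y, v (φ y) = s * u y) (hv : DV v)
    (y : K) : Lim w₁ v φ (inc F F₁ K y) (φ y) := by
  intro n
  obtain ⟨c, hc⟩ := h.close
  obtain ⟨M₃, h5⟩ := h.exists_prec c |n|
  refine ⟨M₃, fun z hz => ?_⟩
  have h8 := hc M₃ _ _ _ (app_inc M₃ y) hz
  have h9 : Ge v n (φ (z - y)) :=
    (lim_ge hφ hs (abs_nonneg n) (h8.mono h5)).mono (le_abs_self n)
  have h10 := h9.neg hv
  rwa [map_sub, neg_sub] at h10

/-- the extension of `φ : K → Kh` to `F₁ ⊗[F] K` -/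
noncomputable def extHom (h : Loc w w₁ u e) (hv : DV v) (hc : Cmpl v) (hs : 0 < s)
    (hφ : ∀ y, v (φ y) = s * u y) : F₁ ⊗[F] K →+* Kh where
  toFun x := (h.exists_lim hv hc hs hφ x).choose
  map_one' := h.lim_unique hv (h.exists_lim hv hc hs hφ 1).choose_spec (by
    have h1 := h.lim_inc hs hφ hv 1
    rwa [map_one, map_one] at h1)
  map_zero' := h.lim_unique hv (h.exists_lim hv hc hs hφ 0).choose_spec (by
    have h1 := h.lim_inc hs hφ hv 0
    rwa [map_zero, map_zero] at h1)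
  map_add' x y := h.lim_unique hv (h.exists_lim hv hc hs hφ (x + y)).choose_spec
    (h.lim_add hv hs hφ (h.exists_lim hv hc hs hφ x).choose_spec
      (h.exists_lim hv hc hs hφ y).choose_spec)
  map_mul' x y := h.lim_unique hv (h.exists_lim hv hc hs hφ (x * y)).choose_spec
    (h.lim_mul hv hs hφ (h.exists_lim hv hc hs hφ x).choose_spec
      (h.exists_lim hv hc hs hφ y).choose_spec)

lemma extHom_lim (h : Loc w w₁ u e) (hv : DV v) (hc : Cmpl v) (hs : 0 < s)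
    (hφ : ∀ y, v (φ y) = s * u y) (x : F₁ ⊗[F] K) :
    Lim w₁ v φ x (extHom h hv hc hs hφ x) := (h.exists_lim hv hc hs hφ x).choose_spec

lemma extHom_inc (h : Loc w w₁ u e) (hv : DV v) (hc : Cmpl v) (hs : 0 < s)
    (hφ : ∀ y, v (φ y) = s * u y) (y : K) :
    extHom h hv hc hs hφ (inc F F₁ K y) = φ y :=
  h.lim_unique hv (extHom_lim h hv hc hs hφ _) (h.lim_inc hs hφ hv y)

lemma extHom_val (h : Loc w w₁ u e) (hv : DV v) (hc : Cmpl v) (hs : 0 < s)
    (hφ : ∀ y, v (φ y) = s * u y) {x : F₁ ⊗[F] K} {n : ℤ} (hx : HasVal w₁ u x n) :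
    extHom h hv hc hs hφ x ≠ 0 ∧ v (extHom h hv hc hs hφ x) = s * n := by
  obtain ⟨M₀, hM₀⟩ := hx
  obtain ⟨M₁, hM₁⟩ := extHom_lim h hv hc hs hφ x (s * n + 1)
  obtain ⟨y, hy⟩ := h.exists_app x (max M₀ M₁)
  obtain ⟨hy0, hyn⟩ := hM₀ y (hy.mono (le_max_left _ _))
  have h1 := hM₁ y (hy.mono (le_max_right _ _))
  have h2 : φ y ≠ 0 := by rwa [Ne, map_eq_zero]
  have h3 := hv.eq_of_sub h2 (by rw [hφ, hyn]; omega) h1
  exact ⟨h3.1, by rw [h3.2, hφ, hyn]⟩

theorem extHom_compHom (h : Loc w w₁ u e) (hv : DV v) (hc : Cmpl v) (hs : 0 < s)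
    (hφ : ∀ y, v (φ y) = s * u y) :
    CompHom w₁ u v (extHom h hv hc hs hφ) (s * e) s where
  posr := mul_pos hs h.pos
  poss := hs
  val₁ := by
    intro α
    by_cases hα : α = 0
    · rw [hα, map_zero, map_zero, hv.zero, h.dw₁.zero, mul_zero]
    · rw [(extHom_val h hv hc hs hφ (h.hasVal_left hα)).2, mul_assoc]
  valK := by
    intro y
    rw [extHom_inc, hφ]

end

end P025H731
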