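import Vale.Agent.P025.R2.H731.Sides

/-! # Functoriality of the points and the values: towers, automorphisms, radii -/

open Polynomial TensorProduct Vale.Agent.P019P P025H373 P025H492 P025H544 P025H628

universe u

namespace P025H731

section tower

variable {C Fi K K' : Type*} [Field C] [IsAlgClosed C] [Field Fi] [Algebra (RatFunc C) Fi]
  [Field K] [Algebra C K] [Algebra (RatFunc C) K] [IsScalarTower C (RatFunc C) K]
  [FiniteDimensional (RatFunc C) K] [CFF C K]
  [Field K'] [Algebra C K'] [Algebra (RatFunc C) K'] [IsScalarTower C (RatFunc C) K']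
  [FiniteDimensional (RatFunc C) K'] [CFF C K'] [Algebra K K'] [IsScalarTower C K K']
  [IsScalarTower (RatFunc C) K K'] [Algebra.IsAlgebraic K K']
  {S : Set (Plk C (RatFunc C))} {wi : Plk C (RatFunc C) → Fi → ℤ}

omit [IsAlgClosed C] [Algebra C K] [IsScalarTower C (RatFunc C) K] [CFF C K]
  [Algebra C K'] [IsScalarTower C (RatFunc C) K'] [CFF C K'] [IsScalarTower C K K']
  [Algebra.IsAlgebraic K K'] [FiniteDimensional (RatFunc C) K]
  [FiniteDimensional (RatFunc C) K'] in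
lemma tL_inc (y : K) : tL (RatFunc C) Fi (IsScalarTower.toAlgHom (RatFunc C) K K')
    (inc (RatFunc C) Fi K y) = inc (RatFunc C) Fi K' (algebraMap K K' y) := by
  rw [inc, inc, Algebra.TensorProduct.includeRight_apply,
    Algebra.TensorProduct.includeRight_apply, tL_tmul]
  rfl

lemma Side.locHom_tower (_hS : Side C Fi S wi) (P : Plk C K') :
    LocHom (wi (down (RatFunc C) P)) (ord (down K P)) (wi (down (RatFunc C) P)) (ord P)
      (tL (RatFunc C) Fi (IsScalarTower.toAlgHom (RatFunc C) K K')).toRingHom (RingHom.id Fi)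
      (algebraMap K K') 1 (ram K P) where
  left α := (tL (RatFunc C) Fi (IsScalarTower.toAlgHom (RatFunc C) K K')).commutes α
  right y := tL_inc y
  posr := one_pos
  poss := by exact_mod_cast ram_pos P
  val₁ α := (one_mul _).symm
  valK y := ord_algebraMap P y

/-- restriction of points in towers -/
theorem Side.ptMap_pt (hS : Side C Fi S wi) (P : Plk C K') (h : down (RatFunc C) P ∈ S)
    (h' : down (RatFunc C) (down K P) ∈ S) :
    ptMap (RatFunc C) Fi (IsScalarTower.toAlgHom (RatFunc C) K K') (hS.pt P h) =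
      hS.pt (down K P) h' := by
  refine PrimeSpectrum.ext (Ideal.ext fun x => ?_)
  have h1 := (hS.locHom_tower P).comap_nul (hS.loc' h (down K P) (down_down P)) (hS.loc P h)
  have h2 : x ∈ nul (hS.loc' h (down K P) (down_down P)) ↔
      Nul (wi (down (RatFunc C) (down K P))) (ord (down K P)) x := by
    rw [mem_nul, down_down]
  refine Iff.trans ?_ h2
  rw [← h1]
  rfl

theorem Side.sval_tL (hS : Side C Fi S wi) (P : Plk C K') (h : down (RatFunc C) P ∈ S)
    (x : Fi ⊗[RatFunc C] K) :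
    sval wi P (tL (RatFunc C) Fi (IsScalarTower.toAlgHom (RatFunc C) K K') x) =
      ram K P * sval wi (down K P) x := by
  rw [sval_eq (down_down (K := RatFunc C) (L := K) P)]
  exact (hS.locHom_tower P).val_eq (hS.loc' h (down K P) (down_down P)) (hS.loc P h) x

end tower

section autom

variable {C Fi K K' : Type*} [Field C] [IsAlgClosed C] [Field Fi] [Algebra (RatFunc C) Fi]
  [Field K] [Algebra C K] [Algebra (RatFunc C) K] [IsScalarTower C (RatFunc C) K]
  [FiniteDimensional (RatFunc C) K] [CFF C K]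
  [Field K'] [Algebra C K'] [Algebra (RatFunc C) K'] [IsScalarTower C (RatFunc C) K']
  [FiniteDimensional (RatFunc C) K'] [CFF C K']
  {S : Set (Plk C (RatFunc C))} {wi : Plk C (RatFunc C) → Fi → ℤ}

/-- isomorphisms over `C(t)` -/
lemma down_tr (σ : K ≃ₐ[RatFunc C] K') (P : Plk C K) :
    down (RatFunc C) (tr (σ.restrictScalars C) P) = down (RatFunc C) P := by
  refine Subtype.ext (ValuationSubring.ext _ _ fun z => ?_)
  rw [mem_down, mem_tr, mem_down]
  have h1 : (σ.restrictScalars C).symm (algebraMap (RatFunc C) K' z) =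
      algebraMap (RatFunc C) K z := σ.symm.commutes z
  rw [h1]

lemma Side.locHom_iso (_hS : Side C Fi S wi) (σ : K ≃ₐ[RatFunc C] K') (P : Plk C K) :
    LocHom (wi (down (RatFunc C) P)) (ord P) (wi (down (RatFunc C) P))
      (ord (tr (σ.restrictScalars C) P)) (tL (RatFunc C) Fi (σ : K →ₐ[RatFunc C] K')).toRingHom
      (RingHom.id Fi) (σ : K →+* K') 1 1 where
  left α := (tL (RatFunc C) Fi (σ : K →ₐ[RatFunc C] K')).commutes α
  right y := by
    change tL (RatFunc C) Fi (σ : K →ₐ[RatFunc C] K') ((1 : Fi) ⊗ₜ[RatFunc C] y) = _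
    rw [tL_tmul]
    rfl
  posr := one_pos
  poss := one_pos
  val₁ α := (one_mul _).symm
  valK y := by
    rw [one_mul]
    exact ord_tr (σ.restrictScalars C) P y

theorem Side.sval_iso (hS : Side C Fi S wi) (σ : K ≃ₐ[RatFunc C] K') (P : Plk C K)
    (h : down (RatFunc C) P ∈ S) (x : Fi ⊗[RatFunc C] K) :
    sval wi (tr (σ.restrictScalars C) P) (tL (RatFunc C) Fi (σ : K →ₐ[RatFunc C] K') x) =
      sval wi P x := by
  have h1 := (hS.locHom_iso σ P).val_eq (hS.loc P h)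
    (hS.loc' h (tr (σ.restrictScalars C) P) (down_tr σ P)) x
  rw [one_mul] at h1
  rw [sval_eq (down_tr σ P)]
  exact h1

theorem Side.ptMap_iso (hS : Side C Fi S wi) (σ : K ≃ₐ[RatFunc C] K') (P : Plk C K)
    (h : down (RatFunc C) P ∈ S)
    (h' : down (RatFunc C) (tr (σ.restrictScalars C) P) ∈ S) :
    ptMap (RatFunc C) Fi (σ : K →ₐ[RatFunc C] K') (hS.pt (tr (σ.restrictScalars C) P) h') =
      hS.pt P h := by
  refine PrimeSpectrum.ext (Ideal.ext fun x => ?_)
  have h1 := (hS.locHom_iso σ P).comap_nul (hS.loc P h)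
    (hS.loc' h (tr (σ.restrictScalars C) P) (down_tr σ P))
  have h2 : Nul (wi (down (RatFunc C) P)) (ord (tr (σ.restrictScalars C) P))
      (tL (RatFunc C) Fi (σ : K →ₐ[RatFunc C] K') x) ↔
      Nul (wi (down (RatFunc C) P)) (ord P) x := by
    rw [← mem_nul (hS.loc P h), ← h1]
    rfl
  rw [← down_tr σ P] at h2
  rw [down_tr] at h2
  change Nul (wi (down (RatFunc C) (tr (σ.restrictScalars C) P)))
    (ord (tr (σ.restrictScalars C) P)) (tL (RatFunc C) Fi (σ : K →ₐ[RatFunc C] K') x) ↔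
    Nul (wi (down (RatFunc C) P)) (ord P) x
  rw [down_tr]
  exact h2

end autom

section radius

variable {C : Type u} [NontriviallyNormedField C] [IsUltrametricDist C] [CompleteSpace C]
  [IsAlgClosed C] {K : Type*} [Field K] [Algebra C K] [Algebra (RatFunc C) K]
  [IsScalarTower C (RatFunc C) K] [FiniteDimensional (RatFunc C) K] [CFF C K]

/-- the inclusion of the rational functions, `1 + h` has value zero -/
lemma v1_one_add {p : Plk C (RatFunc C)} (hp : p ∈ Inn C 1) {x : F1 C} {h : F0 C}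
    (hh : h ∈ A1 C) (h1 : ‖h‖ < 1) (hx : (x : F0 C) = 1 + h) : v1 C p x = 0 := by
  rw [v1_eq hp one_ne_zero hh h1 (by rw [map_one, one_mul]; exact hx), ord_one]

lemma v2_one_add {p : Plk C (RatFunc C)} (hp : p ∈ Out C 1) {x : F2 C} {h : F0 C}
    (hh : h ∈ A2 C) (h1 : ‖h‖ < 1) (hx : (x : F0 C) = 1 + h) : v2 C p x = 0 := by
  rw [v2_eq hp one_ne_zero hh h1 (by rw [map_one, one_mul]; exact hx), ord_one]

lemma Inn_mono {c c' : C} (h : ‖c‖ ≤ ‖c'‖) {p : Plk C (RatFunc C)} (hp : p ∈ Inn C c) :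
    p ∈ Inn C c' := by
  obtain ⟨a, ha, h1⟩ := hp
  exact ⟨a, ha.trans h, h1⟩

lemma Out_anti {c c' : C} (h : ‖c‖ ≤ ‖c'‖) {p : Plk C (RatFunc C)} (hp : p ∈ Out C c') :
    p ∈ Out C c := fun hc => hp (Inn_mono h hc)

/-- representation `α = g (1 + h)` in `F1r` -/
lemma rep1r' (c : Cˣ) {α : F1r C c} (hα : α ≠ 0) : ∃ g : RatFunc C, g ≠ 0 ∧ ∃ h' ∈ A1 C,
    ‖h'‖ < 1 ∧ ∃ β : F1 C, (β : F0 C) = 1 + h' ∧ ∃ γ : F1 C, (γ : F0 C) = h' ∧ β = 1 + γ ∧
      α = algebraMap (RatFunc C) (F1r C c) g * (show F1r C c from β) := by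
  obtain ⟨g, hg, h', hh, h1, h2⟩ := (half1 C).rep (x := (show F1 C from α)) hα
  refine ⟨(scale (c : C) c.ne_zero).symm g, by rwa [Ne, map_eq_zero], h', hh, h1,
    1 + ⟨h', A1_le_F1 hh⟩, rfl, ⟨h', A1_le_F1 hh⟩, rfl, rfl, ?_⟩
  rw [algebraMap_F1r, AlgEquiv.apply_symm_apply]
  exact Subtype.ext h2

lemma rep2r' (c : Cˣ) {α : F2r C c} (hα : α ≠ 0) : ∃ g : RatFunc C, g ≠ 0 ∧ ∃ h' ∈ A2 C,
    ‖h'‖ < 1 ∧ ∃ β : F2 C, (β : F0 C) = 1 + h' ∧ ∃ γ : F2 C, (γ : F0 C) = h' ∧ β = 1 + γ ∧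
      α = algebraMap (RatFunc C) (F2r C c) g * (show F2r C c from β) := by
  obtain ⟨g, hg, h', hh, h1, h2⟩ := (half2 C).rep (x := (show F2 C from α)) hα
  refine ⟨(scale (c : C) c.ne_zero).symm g, by rwa [Ne, map_eq_zero], h', hh, h1,
    1 + ⟨h', A2_le_F2 hh⟩, rfl, ⟨h', A2_le_F2 hh⟩, rfl, rfl, ?_⟩
  rw [algebraMap_F2r, AlgEquiv.apply_symm_apply]
  exact Subtype.ext h2

/-- values under restriction to a smaller disc -/
theorem v1r_res1 (c c' : Cˣ) (h : ‖(c : C)‖ ≤ ‖(c' : C)‖) {p : Plk C (RatFunc C)}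
    (hp : p ∈ Inn C (c : C)) (α : F1r C c') : v1r c p (res1 c c' h α) = v1r c' p α := by
  have hp' := Inn_mono h hp
  by_cases hα : α = 0
  · rw [hα, map_zero, ((side1r c).dv p hp).zero, ((side1r c').dv p hp').zero]
  obtain ⟨g, hg, h', hh, h1, β, hβ, γ, hγ, hβγ, hαe⟩ := rep1r' c' hα
  have hβ0 : β ≠ 0 := by
    rintro rfl
    exact one_add_ne_zero' h1 hβ.symm
  have hg1 : algebraMap (RatFunc C) (F1r C c) g ≠ 0 := by rwa [Ne, map_eq_zero]
  have hg2 : algebraMap (RatFunc C) (F1r C c') g ≠ 0 := by rwa [Ne, map_eq_zero]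
  have hβ' : res1 c c' h (show F1r C c' from β) ≠ 0 := by
    rw [Ne, map_eq_zero]
    exact hβ0
  have e1 : v1r c p (res1 c c' h (show F1r C c' from β)) = 0 := by
    have h2 := sub1_mem_A1 ((c'⁻¹ * c : Cˣ) : C) (c'⁻¹ * c).ne_zero (by
      rw [Units.val_mul, norm_mul, Units.val_inv_eq_inv_val, norm_inv]
      exact inv_mul_le_one_of_le₀ h (norm_nonneg _)) γ (by rw [hγ]; exact hh)
    refine v1_one_add ((tr_scale_mem c p).2 hp) h2.1 (h2.2.trans_lt (by rw [hγ]; exact h1)) ?_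
    change (show F1 C from res1 c c' h (show F1r C c' from β)).1 = _
    have h3 : (show F1r C c' from β) = 1 + (show F1r C c' from γ) := hβγ
    rw [h3, map_add, map_one]
    rfl
  have e2 : v1r c' p (show F1r C c' from β) = 0 :=
    v1_one_add ((tr_scale_mem c' p).2 hp') hh h1 hβ
  rw [hαe, map_mul, AlgHom.commutes, ((side1r c).dv p hp).mul _ _ hg1 hβ',
    ((side1r c').dv p hp').mul _ _ hg2 hβ0, (side1r c).comp p hp, (side1r c').comp p hp', e1, e2]

theorem v2r_res2 (c c' : Cˣ) (h : ‖(c : C)‖ ≤ ‖(c' : C)‖) {p : Plk C (RatFunc C)}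
    (hp' : p ∈ Out C (c' : C)) (α : F2r C c) : v2r c' p (res2 c c' h α) = v2r c p α := by
  have hp := Out_anti h hp'
  by_cases hα : α = 0
  · rw [hα, map_zero, ((side2r c).dv p hp).zero, ((side2r c').dv p hp').zero]
  obtain ⟨g, hg, h', hh, h1, β, hβ, γ, hγ, hβγ, hαe⟩ := rep2r' c hα
  have hβ0 : β ≠ 0 := by
    rintro rfl
    exact one_add_ne_zero' h1 hβ.symm
  have hg1 : algebraMap (RatFunc C) (F2r C c) g ≠ 0 := by rwa [Ne, map_eq_zero]
  have hg2 : algebraMap (RatFunc C) (F2r C c') g ≠ 0 := by rwa [Ne, map_eq_zero]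
  have hβ' : res2 c c' h (show F2r C c from β) ≠ 0 := by
    rw [Ne, map_eq_zero]
    exact hβ0
  have e1 : v2r c' p (res2 c c' h (show F2r C c from β)) = 0 := by
    have h2 := sub2_mem_A2 ((c⁻¹ * c' : Cˣ) : C) (c⁻¹ * c').ne_zero (by
      rw [Units.val_mul, norm_mul, Units.val_inv_eq_inv_val, norm_inv]
      rw [← div_eq_inv_mul, one_le_div (norm_pos_iff.2 c.ne_zero)]
      exact h) γ (by rw [hγ]; exact hh)
    refine v2_one_add (fun hc => hp' ((tr_scale_mem c' p).1 hc)) h2.1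
      (h2.2.trans_lt (by rw [hγ]; exact h1)) ?_
    change (show F2 C from res2 c c' h (show F2r C c from β)).1 = _
    have h3 : (show F2r C c from β) = 1 + (show F2r C c from γ) := hβγ
    rw [h3, map_add, map_one]
    rfl
  have e2 : v2r c p (show F2r C c from β) = 0 :=
    v2_one_add (fun hc => hp ((tr_scale_mem c p).1 hc)) hh h1 hβ
  rw [hαe, map_mul, AlgHom.commutes, ((side2r c').dv p hp').mul _ _ hg2 hβ',
    ((side2r c).dv p hp).mul _ _ hg1 hβ0, (side2r c').comp p hp', (side2r c).comp p hp, e1, e2]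

/-- restriction to a smaller disc on `F1r ⊗ K` -/
noncomputable def resK1 (c c' : Cˣ) (h : ‖(c : C)‖ ≤ ‖(c' : C)‖) :
    F1r C c' ⊗[RatFunc C] K →ₐ[RatFunc C] F1r C c ⊗[RatFunc C] K :=
  Algebra.TensorProduct.map (res1 c c' h) (AlgHom.id (RatFunc C) K)

noncomputable def resK2 (c c' : Cˣ) (h : ‖(c : C)‖ ≤ ‖(c' : C)‖) :
    F2r C c ⊗[RatFunc C] K →ₐ[RatFunc C] F2r C c' ⊗[RatFunc C] K :=
  Algebra.TensorProduct.map (res2 c c' h) (AlgHom.id (RatFunc C) K)

lemma locHom_resK1 (c c' : Cˣ) (h : ‖(c : C)‖ ≤ ‖(c' : C)‖) (P : Plk C K)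
    (hP : down (RatFunc C) P ∈ Inn C (c : C)) :
    LocHom (v1r c' (down (RatFunc C) P)) (ord P) (v1r c (down (RatFunc C) P)) (ord P)
      (resK1 (K := K) c c' h).toRingHom (res1 c c' h : F1r C c' →+* F1r C c)
      (RingHom.id K) 1 1 where
  left α := by
    change resK1 (K := K) c c' h (α ⊗ₜ 1) = (res1 c c' h α) ⊗ₜ 1
    rw [resK1, Algebra.TensorProduct.map_tmul, map_one]
  right y := by
    change resK1 (K := K) c c' h (1 ⊗ₜ y) = 1 ⊗ₜ y
    rw [resK1, Algebra.TensorProduct.map_tmul, map_one]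
    rfl
  posr := one_pos
  poss := one_pos
  val₁ α := by
    rw [one_mul]
    exact v1r_res1 c c' h hP α
  valK y := (one_mul _).symm

lemma locHom_resK2 (c c' : Cˣ) (h : ‖(c : C)‖ ≤ ‖(c' : C)‖) (P : Plk C K)
    (hP : down (RatFunc C) P ∈ Out C (c' : C)) :
    LocHom (v2r c (down (RatFunc C) P)) (ord P) (v2r c' (down (RatFunc C) P)) (ord P)
      (resK2 (K := K) c c' h).toRingHom (res2 c c' h : F2r C c →+* F2r C c')
      (RingHom.id K) 1 1 where
  left α := by
    change resK2 (K := K) c c' h (α ⊗ₜ 1) = (res2 c c' h α) ⊗ₜ 1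
    rw [resK2, Algebra.TensorProduct.map_tmul, map_one]
  right y := by
    change resK2 (K := K) c c' h (1 ⊗ₜ y) = 1 ⊗ₜ y
    rw [resK2, Algebra.TensorProduct.map_tmul, map_one]
    rfl
  posr := one_pos
  poss := one_pos
  val₁ α := by
    rw [one_mul]
    exact v2r_res2 c c' h hP α
  valK y := (one_mul _).symm

theorem comap_resK1 (c c' : Cˣ) (h : ‖(c : C)‖ ≤ ‖(c' : C)‖) (P : Plk C K)
    (hP : down (RatFunc C) P ∈ Inn C (c : C)) :
    PrimeSpectrum.comap (resK1 (K := K) c c' h).toRingHom ((side1r c).pt P hP) =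
      (side1r c').pt P (Inn_mono h hP) :=
  PrimeSpectrum.ext ((locHom_resK1 c c' h P hP).comap_nul ((side1r c').loc P (Inn_mono h hP))
    ((side1r c).loc P hP))

theorem sval_resK1 (c c' : Cˣ) (h : ‖(c : C)‖ ≤ ‖(c' : C)‖) (P : Plk C K)
    (hP : down (RatFunc C) P ∈ Inn C (c : C)) (x : F1r C c' ⊗[RatFunc C] K) :
    sval (v1r c) P (resK1 (K := K) c c' h x) = sval (v1r c') P x := by
  have h1 := (locHom_resK1 c c' h P hP).val_eq ((side1r c').loc P (Inn_mono h hP))
    ((side1r c).loc P hP) x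
  rw [one_mul] at h1
  exact h1

theorem comap_resK2 (c c' : Cˣ) (h : ‖(c : C)‖ ≤ ‖(c' : C)‖) (P : Plk C K)
    (hP : down (RatFunc C) P ∈ Out C (c' : C)) :
    PrimeSpectrum.comap (resK2 (K := K) c c' h).toRingHom ((side2r c').pt P hP) =
      (side2r c).pt P (Out_anti h hP) :=
  PrimeSpectrum.ext ((locHom_resK2 c c' h P hP).comap_nul ((side2r c).loc P (Out_anti h hP))
    ((side2r c').loc P hP))

theorem sval_resK2 (c c' : Cˣ) (h : ‖(c : C)‖ ≤ ‖(c' : C)‖) (P : Plk C K)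
    (hP : down (RatFunc C) P ∈ Out C (c' : C)) (x : F2r C c ⊗[RatFunc C] K) :
    sval (v2r c') P (resK2 (K := K) c c' h x) = sval (v2r c) P x := by
  have h1 := (locHom_resK2 c c' h P hP).val_eq ((side2r c).loc P (Out_anti h hP))
    ((side2r c').loc P hP) x
  rw [one_mul] at h1
  exact h1

end radius

end P025H731
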