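import Vale.Agent.P025.R2.H731.Auto

/-! # Homomorphisms `Fi ⊗ K → LaurentSeries C` -/

open Polynomial TensorProduct Vale.Agent.P019P P025H373 P025H492 P025H544 P025H628

universe u

namespace P025H731

section laur

variable (k : Type*) [Field k]

/-- the order of a Laurent series as a discrete valuation -/
lemma laur_dv : DV (fun f : LaurentSeries k => f.order) where
  zero := HahnSeries.order_zero
  mul := fun _ _ hx hy => HahnSeries.order_mul hx hy
  add := fun _ _ _ _ h => HahnSeries.min_order_le_order_add h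

variable {k}

lemma coeff_of_ge {f : LaurentSeries k} {n : ℤ} (h : Ge (fun f : LaurentSeries k => f.order) n f)
    {i : ℤ} (hi : i < n) : f.coeff i = 0 := by
  rcases h with h | h
  · rw [h, HahnSeries.coeff_zero]
  · exact HahnSeries.coeff_eq_zero_of_lt_order (hi.trans_le h)

lemma ge_of_coeff {f : LaurentSeries k} {n : ℤ} (h : ∀ i < n, f.coeff i = 0) :
    Ge (fun f : LaurentSeries k => f.order) n f := by
  by_cases hf : f = 0
  · exact Or.inl hf
  right
  by_contra hlt
  rw [not_le] at hlt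
  exact hf (HahnSeries.coeff_order_eq_zero.1 (h _ hlt))

variable (k) in
/-- Laurent series are complete -/
lemma laur_cmpl : Cmpl (fun f : LaurentSeries k => f.order) := by
  intro a ha
  have hst : ∀ (m n : ℕ) (i : ℤ), i < m → m ≤ n → (a n).coeff i = (a m).coeff i := by
    intro m n i hi hmn
    induction n, hmn using Nat.le_induction with
    | base => rfl
    | succ n hmn ih =>
      have h1 := coeff_of_ge (ha n) (i := i) (by omega)
      rw [HahnSeries.coeff_sub, sub_eq_zero] at h1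
      rw [h1, ih]
  let f : ℤ → k := fun i => (a (i + 1).toNat).coeff i
  have hf : BddBelow (Function.support f) := by
    refine ⟨min (a 0).order 0, fun i hi => ?_⟩
    by_contra hc
    rw [not_le, lt_min_iff] at hc
    apply hi
    change (a (i + 1).toNat).coeff i = 0
    rw [show (i + 1).toNat = 0 by omega]
    exact HahnSeries.coeff_eq_zero_of_lt_order hc.1
  refine ⟨HahnSeries.ofSuppBddBelow f hf, fun n => ge_of_coeff fun i hi => ?_⟩
  rw [HahnSeries.coeff_sub, HahnSeries.coeff_ofSuppBddBelow, sub_eq_zero]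
  change (a (i + 1).toNat).coeff i = (a n).coeff i
  rw [hst (i + 1).toNat n i (by omega) (by omega)]

end laur

section

variable {C : Type u} [NontriviallyNormedField C] [IsUltrametricDist C] [CompleteSpace C]
  [IsAlgClosed C] {K : Type*} [Field K] [Algebra C K] [Algebra (RatFunc C) K]
  [IsScalarTower C (RatFunc C) K] [FiniteDimensional (RatFunc C) K] [CFF C K]

/-- the extension of an expansion `K → C((s))` at `P` to `Fi ⊗ K` -/
theorem Side.exists_ext {Fi : Type*} [Field Fi] [Algebra C Fi] [Algebra (RatFunc C) Fi]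
    [IsScalarTower C (RatFunc C) Fi] {S : Set (Plk C (RatFunc C))}
    {wi : Plk C (RatFunc C) → Fi → ℤ} (hS : Side C Fi S wi) (P : Plk C K)
    (h : down (RatFunc C) P ∈ S) (φ : K →ₐ[C] LaurentSeries C)
    (hφ : ∀ y : K, y ≠ 0 → (φ y).order = ord P y) :
    ∃ Ψ : Fi ⊗[RatFunc C] K →ₐ[C] LaurentSeries C, (∀ y : K, Ψ (1 ⊗ₜ y) = φ y) ∧
      RingHom.ker Ψ = (hS.pt P h).asIdeal ∧ ∀ x, (Ψ x).order = sval wi P x := by
  have hφ' : ∀ y : K, (φ.toRingHom y).order = 1 * ord P y := by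
    intro y
    rw [one_mul]
    by_cases hy : y = 0
    · rw [hy, map_zero, HahnSeries.order_zero, ord_zero]
    · exact hφ y hy
  let Ψ := extHom (hS.loc P h) (laur_dv C) (laur_cmpl C) one_pos (φ := φ.toRingHom) hφ'
  have hH := extHom_compHom (hS.loc P h) (laur_dv C) (laur_cmpl C) one_pos
    (φ := φ.toRingHom) hφ'
  have hinc : ∀ y : K, Ψ ((1 : Fi) ⊗ₜ[RatFunc C] y) = φ y := fun y =>
    extHom_inc (hS.loc P h) (laur_dv C) (laur_cmpl C) one_pos (φ := φ.toRingHom) hφ' y
  refine ⟨{ Ψ with commutes' := fun a => ?_ }, hinc, ?_, fun x => ?_⟩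
  · change Ψ (algebraMap C (Fi ⊗[RatFunc C] K) a) = _
    rw [Algebra.TensorProduct.algebraMap_apply, IsScalarTower.algebraMap_apply C (RatFunc C) Fi,
      Algebra.algebraMap_eq_smul_one (R := RatFunc C), TensorProduct.smul_tmul,
      ← Algebra.algebraMap_eq_smul_one, ← IsScalarTower.algebraMap_apply C (RatFunc C) K, hinc,
      φ.commutes]
  · exact hH.ker_eq (laur_dv C) (hS.loc P h)
  · have h1 := hH.val_eq' (laur_dv C) (hS.loc P h) x
    rw [one_mul] at h1
    exact h1

section D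

variable {c : Cˣ} {P : Plk C K}

/-- a homomorphism to Laurent series inducing `ord P` on `K` -/
theorem ker_laur1r (h : down (RatFunc C) P ∈ Inn C (c : C))
    (Ψ : F1r C c ⊗[RatFunc C] K →ₐ[C] LaurentSeries C)
    (hK : ∀ y : K, y ≠ 0 → (Ψ (1 ⊗ₜ y)).order = ord P y) :
    RingHom.ker Ψ = ((side1r c).pt P h).asIdeal ∧ ∀ x, (Ψ x).order = sval (v1r c) P x := by
  have hK' : ∀ y : K, (Ψ.toRingHom ((1 : F1r C c) ⊗ₜ y)).order = 1 * ord P y := by
    intro y
    rw [one_mul]
    by_cases hy : y = 0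
    · rw [hy, tmul_zero, map_zero, HahnSeries.order_zero, ord_zero]
    · exact hK y hy
  have hH := auto1r c (laur_dv C) one_pos P h Ψ.toRingHom hK'
  refine ⟨hH.ker_eq (laur_dv C) ((side1r c).loc P h), fun x => ?_⟩
  have h1 := hH.val_eq' (laur_dv C) ((side1r c).loc P h) x
  rw [one_mul] at h1
  exact h1

theorem ker_laur2r (h : down (RatFunc C) P ∈ Out C (c : C))
    (Ψ : F2r C c ⊗[RatFunc C] K →ₐ[C] LaurentSeries C)
    (hK : ∀ y : K, y ≠ 0 → (Ψ (1 ⊗ₜ y)).order = ord P y) :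
    RingHom.ker Ψ = ((side2r c).pt P h).asIdeal ∧ ∀ x, (Ψ x).order = sval (v2r c) P x := by
  have hK' : ∀ y : K, (Ψ.toRingHom ((1 : F2r C c) ⊗ₜ y)).order = 1 * ord P y := by
    intro y
    rw [one_mul]
    by_cases hy : y = 0
    · rw [hy, tmul_zero, map_zero, HahnSeries.order_zero, ord_zero]
    · exact hK y hy
  have hH := auto2r c (laur_dv C) one_pos P h Ψ.toRingHom hK'
  refine ⟨hH.ker_eq (laur_dv C) ((side2r c).loc P h), fun x => ?_⟩
  have h1 := hH.val_eq' (laur_dv C) ((side2r c).loc P h) x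
  rw [one_mul] at h1
  exact h1

/-- bounded elements have nonnegative order under any homomorphism -/
lemma order_nonneg {A : Subalgebra C (F0 C)} (hA : IsClosed (A : Set (F0 C)))
    {Fi : IntermediateField (RatFunc C) (F0 C)} (hAF : ∀ x ∈ A, x ∈ Fi)
    {Kh : Type*} [Field Kh] {v : Kh → ℤ} (hv : DV v) (ψ : Fi →+* Kh)
    (hconst : ∀ a : C, a ≠ 0 → v (ψ (algebraMap (RatFunc C) Fi (RatFunc.C a))) = 0)
    {x : Fi} (hx : (x : F0 C) ∈ A) : 0 ≤ v (ψ x) := by
  by_contra hneg
  rw [not_le] at hneg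
  -- `ε x` small
  obtain ⟨ε, hε0, hε⟩ : ∃ ε : C, ε ≠ 0 ∧ ‖ε‖ * ‖(x : F0 C)‖ < 1 := by
    obtain ⟨ε, h1, h2⟩ := NormedField.exists_norm_lt C
      (show (0 : ℝ) < 1 / (‖(x : F0 C)‖ + 1) by positivity)
    refine ⟨ε, norm_pos_iff.1 h1, ?_⟩
    have h3 : 0 < ‖(x : F0 C)‖ + 1 := by positivity
    rw [lt_div_iff₀ h3] at h2
    nlinarith [norm_nonneg (x : F0 C), norm_nonneg ε]
  let y : Fi := algebraMap (RatFunc C) Fi (RatFunc.C ε) * x
  have hyA : (y : F0 C) = algebraMap C (F0 C) ε * x := rfl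
  have h1 : v (ψ (1 + y)) = 0 :=
    val_one_add hA hAF hv ψ (h := (y : F0 C)) (by
      rw [hyA]
      exact A.mul_mem (A.algebraMap_mem ε) hx) (by
      rw [hyA, norm_mul, norm_algebraMap_C]
      exact hε) rfl
  have hψε : ψ (algebraMap (RatFunc C) Fi (RatFunc.C ε)) ≠ 0 := by
    rw [Ne, map_eq_zero, map_eq_zero, ratFunc_C_eq, map_eq_zero]
    exact hε0
  have hx0 : ψ x ≠ 0 := by
    intro h2
    rw [h2, hv.zero] at hneg
    exact lt_irrefl _ hneg
  have h2 : v (ψ y) = v (ψ x) := by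
    change v (ψ (algebraMap (RatFunc C) Fi (RatFunc.C ε) * x)) = _
    rw [map_mul, hv.mul _ _ hψε hx0, hconst ε hε0, zero_add]
  have h3 : ψ y ≠ 0 := by
    change ψ (algebraMap (RatFunc C) Fi (RatFunc.C ε) * x) ≠ 0
    rw [map_mul]
    exact mul_ne_zero hψε hx0
  have h4 := (hv.eq_of_sub (x := ψ y) (y := ψ (1 + y)) (n := 0) h3 (by rw [h2]; exact hneg) (by
    rw [map_add, map_one, add_sub_cancel_right]
    exact Or.inr hv.one.ge)).2
  rw [h1, h2] at h4
  omega

/-- a place carried by `F2r C c ⊗ K` has `|T| > ‖c‖` -/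
theorem out_of_hom (Ψ : F2r C c ⊗[RatFunc C] K →ₐ[C] LaurentSeries C)
    (hK : ∀ y : K, y ≠ 0 → (Ψ (1 ⊗ₜ y)).order = ord P y) :
    down (RatFunc C) P ∈ Out C (c : C) := by
  rintro ⟨a, ha, h⟩
  -- `T - a` has positive order; `1 / (t - a / c)` is bounded
  have hc : 0 < ‖(c : C)‖ := norm_pos_iff.2 c.ne_zero
  let ψ' : F2r C c →+* LaurentSeries C :=
    (Ψ.toRingHom : F2r C c ⊗[RatFunc C] K →+* LaurentSeries C).comp
      (algebraMap (F2r C c) (F2r C c ⊗[RatFunc C] K))
  let ψ : F2 C →+* LaurentSeries C := ψ'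
  have hψ : ∀ g : RatFunc C, ψ (algebraMap (RatFunc C) (F2 C) (scale (c : C) c.ne_zero g)) =
      Ψ ((1 : F2r C c) ⊗ₜ[RatFunc C] (algebraMap (RatFunc C) K g)) := by
    intro g
    have h1 : (algebraMap (RatFunc C) (F2r C c) g) ⊗ₜ[RatFunc C] (1 : K) =
        (1 : F2r C c) ⊗ₜ[RatFunc C] (algebraMap (RatFunc C) K g) := by
      rw [Algebra.algebraMap_eq_smul_one, TensorProduct.smul_tmul,
        ← Algebra.algebraMap_eq_smul_one]
    rw [← h1]
    rfl
  let g : RatFunc C := (RatFunc.X - RatFunc.C a)⁻¹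
  have hg0 : g ≠ 0 := inv_ne_zero (X_sub_ne a)
  have hgK : algebraMap (RatFunc C) K g ≠ 0 := by rwa [Ne, map_eq_zero]
  have hord : (ψ (algebraMap (RatFunc C) (F2 C) (scale (c : C) c.ne_zero g))).order < 0 := by
    rw [hψ, hK _ hgK, ord_algebraMap, ord_inv]
    have h1 : 0 < (ram (RatFunc C) P : ℤ) := by exact_mod_cast ram_pos P
    have h2 := mul_pos h1 h
    linarith
  have hconst : ∀ b : C, b ≠ 0 →
      (ψ (algebraMap (RatFunc C) (F2 C) (RatFunc.C b))).order = 0 := by
    intro b hb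
    have h1 : scale (c : C) c.ne_zero (RatFunc.C b) = RatFunc.C b :=
      (scale (c : C) c.ne_zero).commutes b
    rw [← h1, hψ, ratFunc_C_eq, ← IsScalarTower.algebraMap_apply C (RatFunc C) K, hK _ (by
      rwa [Ne, map_eq_zero]), ord_const]
  have hmem : ((algebraMap (RatFunc C) (F2 C) (scale (c : C) c.ne_zero g) : F2 C) : F0 C) ∈
      A2 C := by
    refine algebraMap_mem_A2 (f := scale (c : C) c.ne_zero g)
      ⟨Polynomial.C ((c : C)⁻¹), X - Polynomial.C ((c : C)⁻¹ * a), monic_X_sub_C _, ?_, ?_, ?_⟩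
    · rw [degree_X_sub_C]
      exact degree_C_le.trans zero_le_one
    · rw [← gp_le_iff, gp_X_sub_C]
      refine max_le le_rfl ?_
      rw [norm_mul, norm_inv, inv_mul_le_iff₀ hc, mul_one]
      exact ha
    · change scale (c : C) c.ne_zero (RatFunc.X - RatFunc.C a)⁻¹ = _
      rw [map_inv₀, scale_X_sub, map_sub, RatFunc.algebraMap_X, RatFunc.algebraMap_C,
        RatFunc.algebraMap_C, mul_inv, map_inv₀, div_eq_mul_inv]
  have h3 := order_nonneg isClosed_A2 (fun x hx => A2_le_F2 hx) (laur_dv C) ψ hconst hmem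
  exact absurd hord (not_lt.2 h3)

end D

end

end P025H731
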