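import Vale.Agent.P025.R2.H731.OnD
import Vale.Agent.P025.R2.H731.Func
import Vale.Agent.P025.R2.H609.Lau

/-! # `OnD`: existence, uniqueness, functoriality

For every place `P` of `K` with `|T(P)| > ‖c‖` (infinity included) there is exactly one component
`d` of `|T| > ‖c‖` with `OnD C c P d`, namely `(side2r c).pt P h`. -/

open Polynomial TensorProduct Vale.Agent.P019P P025H373 P025H492 P025H544 P025H628 P025H450
  P025H837

universe u v

namespace P025H731

variable {C : Type u} [NontriviallyNormedField C] [IsUltrametricDist C] [CompleteSpace C]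
  [IsAlgClosed C] {K : Type v} [Field K] [Algebra C K] [Algebra (RatFunc C) K]
  [IsScalarTower C (RatFunc C) K] [FiniteDimensional (RatFunc C) K] [CFF C K]
  {c : Cˣ} {P Q : Plk C K} {d : Pt (RatFunc C) (F2r C c) K}

/-- the condition `|T(P)| > ‖c‖` in terms of `T ∈ K` -/
theorem down_mem_Out_iff {r : C} : down (RatFunc C) P ∈ Out C r ↔
    ord P (algebraMap (RatFunc C) K RatFunc.X) < 0 ∨ ∃ a : C, ‖r‖ < ‖a‖ ∧
      0 < ord P (algebraMap (RatFunc C) K RatFunc.X - algebraMap C K a) := by
  have hr : (0 : ℤ) < ram (RatFunc C) P := by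
    exact_mod_cast ram_pos (K := RatFunc C) P
  have h1 : ∀ f : RatFunc C, ord P (algebraMap (RatFunc C) K f) =
      ram (RatFunc C) P * ord (down (RatFunc C) P) f := fun f => ord_algebraMap P f
  have h2 : ∀ a : C, algebraMap (RatFunc C) K RatFunc.X - algebraMap C K a =
      algebraMap (RatFunc C) K (RatFunc.X - RatFunc.C a) := by
    intro a
    rw [map_sub, IsScalarTower.algebraMap_apply C (RatFunc C) K]
    rfl
  rw [mem_Out_iff, or_comm]
  refine or_congr ?_ (exists_congr fun a => and_congr Iff.rfl ?_)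
  · rw [h1]
    constructor
    · intro h
      nlinarith
    · intro h
      by_contra h3
      push Not at h3
      nlinarith
  · rw [h2, h1]
    constructor
    · intro h
      positivity
    · intro h
      by_contra h3
      push Not at h3
      nlinarith

/-- existence -/
theorem onD_pt' (h : down (RatFunc C) P ∈ Out C (c : C)) : OnD C c P ((side2r c).pt P h) := by
  obtain ⟨φ, hφ⟩ := P025H609.exists_lau P
  exact onD_pt h φ hφ

theorem onD_exists (h : down (RatFunc C) P ∈ Out C (c : C)) :
    ∃ d : Pt (RatFunc C) (F2r C c) K, OnD C c P d := ⟨_, onD_pt' h⟩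

theorem onD_iff_eq_pt (h : down (RatFunc C) P ∈ Out C (c : C)) :
    OnD C c P d ↔ d = (side2r c).pt P h :=
  ⟨fun hd => OnD.eq_pt hd, fun hd => hd ▸ onD_pt' h⟩

theorem onD_existsUnique (h : down (RatFunc C) P ∈ Out C (c : C)) :
    ∃! d : Pt (RatFunc C) (F2r C c) K, OnD C c P d :=
  ⟨_, onD_pt' h, fun _ hd => OnD.eq_pt hd⟩

/-- two places on the same component -/
theorem OnD.iff_same (hd : OnD C c P d) (hQ : down (RatFunc C) Q ∈ Out C (c : C)) :
    OnD C c Q d ↔ (side2r c).pt P (OnD.out hd) = (side2r c).pt Q hQ := by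
  rw [onD_iff_eq_pt hQ, ← OnD.eq_pt hd]

/-- every component of `|T| > ‖c‖` carries a place over every place of the line with
`|T| > ‖c‖` -/
theorem exists_onD {p : Plk C (RatFunc C)} (hp : p ∈ Out C (c : C))
    (d : Pt (RatFunc C) (F2r C c) K) :
    ∃ P : Plk C K, down (RatFunc C) P = p ∧ OnD C c P d := by
  obtain ⟨P, h, h'⟩ := (side2r c).exists_pt hp d
  subst h
  exact ⟨P, rfl, (onD_iff_eq_pt hp).2 h'.symm⟩

end P025H731
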