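import Vale.Agent.P025.R2.H731.Val2

/-! # The norm formula and the functoriality of the valuations of `F₁ ⊗[F] K` -/

open TensorProduct

namespace P025H731

variable {F F₁ K : Type*} [Field F] [Field F₁] [Field K] [Algebra F F₁] [Algebra F K]
  [FiniteDimensional F K] {w : F → ℤ} {w₁ : F₁ → ℤ} {u : K → ℤ} {e : ℤ}

/-! ## The norm -/

omit [FiniteDimensional F K] in
lemma norm_inc (y : K) [FiniteDimensional F K] :
    Algebra.norm F₁ (inc F F₁ K y) = algebraMap F F₁ (Algebra.norm F y) := by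
  rw [Algebra.norm_apply, Algebra.norm_apply, ← LinearMap.det_baseChange]
  congr 1
  apply TensorProduct.AlgebraTensorModule.curry_injective
  ext
  simp [inc]

/-- the valuation ring of `w₁` -/
def valR (hw : DV w₁) : Subring F₁ where
  carrier := {x | Ge w₁ 0 x}
  mul_mem' := fun ha hb => by
    have h1 := Ge.mul hw ha hb
    rwa [zero_add] at h1
  one_mem' := Or.inr (by rw [hw.one])
  add_mem' := fun ha hb => Ge.add hw ha hb
  zero_mem' := Ge.zero 0
  neg_mem' := fun ha => Ge.neg hw ha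

/-- the ideal of elements of value at least `M` -/
def valI (hw : DV w₁) (M : ℤ) : Ideal (valR hw) where
  carrier := {x | Ge w₁ M (x : F₁)}
  add_mem' := fun ha hb => Ge.add hw ha hb
  zero_mem' := Ge.zero M
  smul_mem' := fun c x hx => by
    have h1 := Ge.mul hw c.2 hx
    rwa [zero_add] at h1

/-- the determinant of a matrix close to the identity -/
lemma det_near_one (hw : DV w₁) {n : Type*} [Fintype n] [DecidableEq n] (A : Matrix n n F₁)
    {M : ℤ} (hM : 0 ≤ M) (hA : ∀ i j, Ge w₁ M (A i j)) : Ge w₁ M ((1 + A).det - 1) := by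
  let A' : Matrix n n (valR hw) := fun i j => ⟨A i j, (hA i j).mono hM⟩
  have h1 : (1 + A).det = ((1 + A').det : valR hw) := by
    have h2 := RingHom.map_det (valR hw).subtype (1 + A')
    rw [Subring.coe_subtype] at h2
    rw [h2]
    congr 1
    rw [map_add, map_one]
    rfl
  have h3 : (1 + A').det - 1 ∈ valI hw M := by
    rw [← Ideal.Quotient.eq_zero_iff_mem, map_sub, map_one, RingHom.map_det, map_add, map_one]
    have h4 : (Ideal.Quotient.mk (valI hw M)).mapMatrix A' = 0 := by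
      ext i j
      rw [RingHom.mapMatrix_apply, Matrix.map_apply, Matrix.zero_apply,
        Ideal.Quotient.eq_zero_iff_mem]
      exact hA i j
    rw [h4, add_zero, Matrix.det_one, sub_self]
  rw [h1]
  exact h3

/-- the norm of an element close to one -/
lemma norm_near_one (hw : DV w₁) : ∃ c : ℤ, ∀ (M : ℤ), c ≤ M → ∀ z : F₁ ⊗[F] K,
    Lam w₁ M z → Ge w₁ (M - c) (Algebra.norm F₁ (1 + z) - 1) := by
  classical
  obtain ⟨c, hc⟩ := exists_mul_bound' (F := F) (F₁ := F₁) (K := K) hw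
  choose N hN using fun j => exists_lamB (B := bas₁ F F₁ K) (w₁ := w₁) (bas₁ F F₁ K j)
  obtain ⟨C, -, hC⟩ := exists_bound N
  refine ⟨C + c, fun M hM z hz => ?_⟩
  rw [Algebra.norm_eq_matrix_det (bas₁ F F₁ K), map_add, map_one]
  refine det_near_one hw _ (by omega) fun i j => ?_
  rw [Algebra.leftMulMatrix_eq_repr_mul]
  refine (hc M (N j) z _ hz (hN j) i).mono ?_
  have := hC j
  omega

lemma Loc.unit_not_mem (h : Loc w w₁ u e) {x : F₁ ⊗[F] K} (hx : IsUnit x) : x ∉ nul h :=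
  fun hc => (nul_prime h).ne_top (Ideal.eq_top_of_isUnit_mem _ hc hx)

/-- NORM FORMULA: `w₁ (N x) = ∑ val x`, the sum over all the places of `K` over `w` -/
theorem norm_formula {ι : Type*} {s : Finset ι} (hs : s.Nonempty) {u : ι → K → ℤ} {e : ι → ℤ}
    (h : ∀ i ∈ s, Loc w w₁ (u i) (e i))
    (hn : ∀ y : K, y ≠ 0 → w (Algebra.norm F y) = ∑ i ∈ s, u i y)
    {x : F₁ ⊗[F] K} (hx : IsUnit x) :
    w₁ (Algebra.norm F₁ x) = ∑ i ∈ s, val w₁ (u i) x := by
  classical
  obtain ⟨i₀, hi₀⟩ := hs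
  have hw := (h i₀ hi₀).dw₁
  obtain ⟨x', hx'⟩ := hx.exists_right_inv
  have h1 : ∀ i ∈ s, ∃ M : ℤ, ∀ y : K, App w₁ M x y → y ≠ 0 ∧ u i y = val w₁ (u i) x :=
    fun i hi => (h i hi).hasVal_val ((h i hi).unit_not_mem hx)
  choose! M hM using h1
  obtain ⟨c₁, hc₁⟩ := exists_mul_bound hw x'
  obtain ⟨c₂, hc₂⟩ := norm_near_one (F := F) (K := K) hw
  let N : ℤ := (∑ i ∈ s, |M i|) + |c₁| + |c₂| + 1
  have hMN : ∀ i ∈ s, M i ≤ N := by
    intro i hi
    have h2 : |M i| ≤ ∑ i ∈ s, |M i| :=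
      Finset.single_le_sum (f := fun i => |M i|) (fun i _ => abs_nonneg _) hi
    have := le_abs_self (M i)
    have := abs_nonneg c₁
    have := abs_nonneg c₂
    omega
  have hN0 : 0 ≤ ∑ i ∈ s, |M i| := Finset.sum_nonneg fun i _ => abs_nonneg _
  obtain ⟨y, hy⟩ := (h i₀ hi₀).exists_app x N
  have hy0 : y ≠ 0 := (hM i₀ hi₀ y (hy.mono (hMN i₀ hi₀))).1
  have e1 : inc F F₁ K y = x * (1 + x' * -(x - inc F F₁ K y)) := by
    linear_combination (inc F F₁ K y - x) * (-hx')
  have h3 : Lam w₁ (N - c₁) (x' * -(x - inc F F₁ K y)) := hc₁ N _ (LamB.neg hw hy)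
  have h4 : Ge w₁ (N - c₁ - c₂) (Algebra.norm F₁ (1 + x' * -(x - inc F F₁ K y)) - 1) := by
    refine hc₂ (N - c₁) ?_ _ h3
    have := le_abs_self c₁
    have := le_abs_self c₂
    omega
  obtain ⟨h5, h6⟩ := hw.eq_of_sub (x := 1) (n := N - c₁ - c₂) one_ne_zero (by
    rw [hw.one]
    have := le_abs_self c₁
    have := le_abs_self c₂
    omega) h4
  rw [hw.one] at h6
  have h7 : Algebra.norm F₁ x ≠ 0 := (hx.map (Algebra.norm F₁)).ne_zero
  have h8 : w₁ (Algebra.norm F₁ (inc F F₁ K y)) = w₁ (Algebra.norm F₁ x) := by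
    conv_lhs => rw [e1, map_mul]
    rw [hw.mul _ _ h7 h5, h6, add_zero]
  rw [← h8, norm_inc, (h i₀ hi₀).comp₁, hn y hy0]
  exact Finset.sum_congr rfl fun i hi => (hM i hi y (hy.mono (hMN i hi))).2

end P025H731
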