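import Vale.Agent.P025.R2.H731.Val3

/-! # Every point comes from a place; functoriality -/

open TensorProduct

namespace P025H731

section pts

variable {F F₁ K : Type*} [Field F] [Field F₁] [Field K] [Algebra F F₁] [Algebra F K]
  [FiniteDimensional F K] {w : F → ℤ} {w₁ : F₁ → ℤ} {u : K → ℤ} {e : ℤ}

/-- values of a polynomial at integral elements are bounded below -/
lemma exists_eval_bound (hw : DV w₁) (Q : Polynomial F₁) : ∃ c : ℤ, ∀ t : F₁, Ge w₁ 0 t →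
    Ge w₁ (-c) (Q.eval t) := by
  obtain ⟨c, hc0, hc⟩ := exists_bound fun i : Fin (Q.natDegree + 1) => w₁ (Q.coeff i)
  refine ⟨c, fun t ht => ?_⟩
  rw [Polynomial.eval_eq_sum_range]
  refine Ge.sum hw fun i hi => ?_
  have h1 : Ge w₁ 0 (t ^ i) := (valR hw).pow_mem ht i
  have h2 : Ge w₁ (-c) (Q.coeff i) := Or.inr (hc ⟨i, Finset.mem_range.1 hi⟩)
  have h3 := h2.mul hw h1
  rwa [add_zero] at h3

/-- `N(1 - g + t g)` is a polynomial in `t` without constant term, `g ≠ 0` idempotent -/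
lemma exists_norm_poly {g : F₁ ⊗[F] K} (hg : IsIdempotentElem g) (hg0 : g ≠ 0) :
    ∃ Q : Polynomial F₁, ∀ t : F₁,
      Algebra.norm F₁ (1 - g + t • g) = t * Q.eval t := by
  classical
  let b := bas₁ F F₁ K
  let A := Algebra.leftMulMatrix b (1 - g)
  let B := Algebra.leftMulMatrix b g
  let P : Polynomial F₁ := Matrix.det (A.map Polynomial.C + (Polynomial.X : Polynomial F₁) •
    B.map Polynomial.C)
  have hP : ∀ t : F₁, P.eval t = Algebra.norm F₁ (1 - g + t • g) := by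
    intro t
    rw [Algebra.norm_eq_matrix_det b, map_add, map_smul]
    have h1 := RingHom.map_det (Polynomial.evalRingHom t)
      (A.map Polynomial.C + (Polynomial.X : Polynomial F₁) • B.map Polynomial.C)
    rw [Polynomial.coe_evalRingHom] at h1
    rw [show P.eval t = _ from h1]
    congr 1
    ext i j
    simp only [A, B, RingHom.mapMatrix_apply, Matrix.map_apply, Matrix.add_apply,
      Matrix.smul_apply, smul_eq_mul, Polynomial.coe_evalRingHom, Polynomial.eval_add,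
      Polynomial.eval_mul, Polynomial.eval_X, Polynomial.eval_C]
  have h0 : P.eval 0 = 0 := by
    rw [hP 0, zero_smul, add_zero]
    by_contra hne
    have : Module.Finite F₁ (F₁ ⊗[F] K) := Module.Finite.of_basis b
    have : Module.Free F₁ (F₁ ⊗[F] K) := Module.Free.of_basis b
    have h1 : IsUnit (1 - g) := by
      have h3 : IsUnit (Algebra.lmul F₁ (F₁ ⊗[F] K) (1 - g)) := by
        rw [LinearMap.isUnit_iff_isUnit_det]
        exact IsUnit.mk0 _ hne
      obtain ⟨y, hy⟩ := ((Module.End.isUnit_iff _).1 h3).2 1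
      exact IsUnit.of_mul_eq_one y hy
    have h2 : (1 - g) * g = 0 := by
      rw [sub_mul, one_mul, hg.eq, sub_self]
    exact hg0 ((h1.mul_right_eq_zero).1 h2)
  have hX : Polynomial.X ∣ P := Polynomial.X_dvd_iff.2 (by
    rwa [Polynomial.coeff_zero_eq_eval_zero])
  obtain ⟨Q, hQ⟩ := hX
  refine ⟨Q, fun t => ?_⟩
  rw [← hP t, hQ, Polynomial.eval_mul, Polynomial.eval_X]

/-- every prime ideal of `F₁ ⊗[F] K` comes from a place -/
theorem exists_nul_eq {ι : Type*} {s : Finset ι} (hs : s.Nonempty) {u : ι → K → ℤ} {e : ι → ℤ}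
    (h : ∀ i ∈ s, Loc w w₁ (u i) (e i))
    (hn : ∀ y : K, y ≠ 0 → w (Algebra.norm F y) = ∑ i ∈ s, u i y) {π : F} (hπ : 0 < w π)
    (v : PrimeSpectrum (F₁ ⊗[F] K)) : ∃ i, ∃ hi : i ∈ s, nul (h i hi) = v.asIdeal := by
  classical
  by_contra hcon
  push Not at hcon
  obtain ⟨i₀, hi₀⟩ := id hs
  have hw := (h i₀ hi₀).dw₁
  have hart : IsArtinianRing (F₁ ⊗[F] K) := IsArtinianRing.of_finite F₁ _
  obtain ⟨g, hg, hgv⟩ := PrimeSpectrum.exists_idempotent_basicOpen_eq_of_isClopen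
    (isClopen_discrete ({v} : Set (PrimeSpectrum (F₁ ⊗[F] K))))
  have hgv' : g ∉ v.asIdeal := by
    have h1 : v ∈ (PrimeSpectrum.basicOpen g : Set _) := by rw [← hgv]; rfl
    exact h1
  have hg0 : g ≠ 0 := by
    rintro rfl
    exact hgv' (Ideal.zero_mem _)
  have hgi : ∀ i (hi : i ∈ s), g ∈ nul (h i hi) := by
    intro i hi
    by_contra hc
    have h1 : (⟨nul (h i hi), nul_prime _⟩ : PrimeSpectrum (F₁ ⊗[F] K)) ∈
      (PrimeSpectrum.basicOpen g : Set _) := hc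
    rw [← hgv] at h1
    exact hcon i hi (congrArg PrimeSpectrum.asIdeal h1)
  obtain ⟨Q, hQ⟩ := exists_norm_poly hg hg0
  obtain ⟨c, hc⟩ := exists_eval_bound hw Q
  have hπ0 : π ≠ 0 := by
    rintro rfl
    rw [(h i₀ hi₀).dw.zero] at hπ
    exact lt_irrefl _ hπ
  have hπ1 : algebraMap F F₁ π ≠ 0 := by rwa [Ne, map_eq_zero]
  let t : F₁ := (algebraMap F F₁ π) ^ (|c| + 1).toNat
  have ht0 : t ≠ 0 := pow_ne_zero _ hπ1
  have hwt : |c| + 1 ≤ w₁ t := by
    have h1 : w₁ t = ((|c| + 1).toNat : ℤ) * w₁ (algebraMap F F₁ π) := hw.pow _ _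
    rw [h1, (h i₀ hi₀).comp₁]
    have h2 : ((|c| + 1).toNat : ℤ) = |c| + 1 := Int.toNat_of_nonneg (by
      have := abs_nonneg c
      omega)
    rw [h2]
    have h3 : |c| + 1 = (|c| + 1) * 1 := (mul_one _).symm
    conv_lhs => rw [h3]
    refine mul_le_mul_of_nonneg_left (by omega) ?_
    have := abs_nonneg c
    omega
  have hunit : IsUnit (1 - g + t • g) := by
    refine IsUnit.of_mul_eq_one (1 - g + t⁻¹ • g) ?_
    have h2 : g * g = g := hg.eq
    have h3 : (t • g) * (t⁻¹ • g) = g := by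
      rw [smul_mul_smul_comm, mul_inv_cancel₀ ht0, h2, one_smul]
    have h4 : (1 - g) * (t⁻¹ • g) = 0 := by
      rw [mul_smul_comm, sub_mul, one_mul, h2, sub_self, smul_zero]
    have h5 : (t • g) * (1 - g) = 0 := by
      rw [smul_mul_assoc, mul_sub, mul_one, h2, sub_self, smul_zero]
    have h6 : (1 - g) * (1 - g) = 1 - g := by
      linear_combination h2
    calc (1 - g + t • g) * (1 - g + t⁻¹ • g) = (1 - g) * (1 - g) + (1 - g) * (t⁻¹ • g) +
        (t • g) * (1 - g) + (t • g) * (t⁻¹ • g) := by ring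
      _ = 1 := by rw [h3, h4, h5, h6]; ring
  have h1 := norm_formula hs h hn hunit
  have h2 : ∑ i ∈ s, val w₁ (u i) (1 - g + t • g) = 0 := by
    refine Finset.sum_eq_zero fun i hi => ?_
    rw [(h i hi).val_congr (x := 1) (y := 1 - g + t • g) ?_, (h i hi).val_one]
    have h3 : 1 - g + t • g - 1 = (algebraMap F₁ (F₁ ⊗[F] K) t - 1) * g := by
      rw [Algebra.smul_def]
      ring
    rw [h3]
    exact Ideal.mul_mem_left _ _ (hgi i hi)
  rw [h2, hQ] at h1
  have h4 : t * Q.eval t ≠ 0 := by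
    rw [← hQ]
    exact (hunit.map (Algebra.norm F₁)).ne_zero
  have h5 : Ge w₁ (-c) (Q.eval t) := hc t (Or.inr (by
    have := abs_nonneg c
    omega))
  rw [hw.mul _ _ ht0 (right_ne_zero_of_mul h4)] at h1
  have h6 := h5.resolve_left (right_ne_zero_of_mul h4)
  have := le_abs_self c
  omega

end pts

/-! ## Functoriality -/

section func

variable {F F₁ K : Type*} [Field F] [Field F₁] [Field K] [Algebra F F₁] [Algebra F K]
  [FiniteDimensional F K] {w : F → ℤ} {w₁ : F₁ → ℤ} {u : K → ℤ} {e : ℤ}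
  {F' F₁' K' : Type*} [Field F'] [Field F₁'] [Field K'] [Algebra F' F₁'] [Algebra F' K']
  [FiniteDimensional F' K'] {w' : F' → ℤ} {w₁' : F₁' → ℤ} {u' : K' → ℤ} {e' : ℤ}

/-- a ring homomorphism `F₁ ⊗[F] K → F₁' ⊗[F'] K'` compatible with the valuations -/
structure LocHom (w₁ : F₁ → ℤ) (u : K → ℤ) (w₁' : F₁' → ℤ) (u' : K' → ℤ)
    (Φ : F₁ ⊗[F] K →+* F₁' ⊗[F'] K') (φ : F₁ →+* F₁') (κ : K →+* K') (r s : ℤ) : Prop where
  left : ∀ α, Φ (algebraMap F₁ _ α) = algebraMap F₁' _ (φ α)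
  right : ∀ y, Φ (inc F F₁ K y) = inc F' F₁' K' (κ y)
  posr : 0 < r
  poss : 0 < s
  val₁ : ∀ α, w₁' (φ α) = r * w₁ α
  valK : ∀ y, u' (κ y) = s * u y

variable {Φ : F₁ ⊗[F] K →+* F₁' ⊗[F'] K'} {φ : F₁ →+* F₁'} {κ : K →+* K'} {r s : ℤ}

lemma LocHom.exists_app (H : LocHom w₁ u w₁' u' Φ φ κ r s) (hw' : DV w₁') :
    ∃ c : ℤ, ∀ (M : ℤ) (x : F₁ ⊗[F] K) (y : K), App w₁ M x y →
      App w₁' (r * M - c) (Φ x) (κ y) := by
  classical
  choose N hN using fun i => exists_lamB (B := bas₁ F' F₁' K') (w₁ := w₁') (Φ (bas₁ F F₁ K i))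
  obtain ⟨C, -, hC⟩ := exists_bound N
  refine ⟨C, fun M x y hy j => ?_⟩
  have h1 : Φ x - inc F' F₁' K' (κ y) = ∑ i, φ ((bas₁ F F₁ K).repr (x - inc F F₁ K y) i) •
      Φ (bas₁ F F₁ K i) := by
    rw [← H.right, ← map_sub]
    conv_lhs => rw [← (bas₁ F F₁ K).sum_repr (x - inc F F₁ K y), map_sum]
    refine Finset.sum_congr rfl fun i _ => ?_
    rw [Algebra.smul_def, map_mul, H.left, ← Algebra.smul_def]
  rw [h1, map_sum, Finsupp.finsetSum_apply]
  refine Ge.sum hw' fun i _ => ?_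
  rw [map_smul, Finsupp.smul_apply, smul_eq_mul]
  have h2 : Ge w₁' (r * M) (φ ((bas₁ F F₁ K).repr (x - inc F F₁ K y) i)) := by
    rcases hy i with h3 | h3
    · exact Or.inl (by rw [h3, map_zero])
    · exact Or.inr (by rw [H.val₁]; exact mul_le_mul_of_nonneg_left h3 H.posr.le)
  refine (h2.mul hw' (hN i j)).mono ?_
  have := hC i
  omega

theorem LocHom.hasVal (H : LocHom w₁ u w₁' u' Φ φ κ r s) (h : Loc w w₁ u e)
    (h' : Loc w' w₁' u' e') {x : F₁ ⊗[F] K} {n : ℤ} (hx : HasVal w₁ u x n) :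
    HasVal w₁' u' (Φ x) (s * n) := by
  obtain ⟨M₀, hM₀⟩ := hx
  obtain ⟨c, hc⟩ := H.exists_app h'.dw₁
  obtain ⟨d, hd⟩ := h'.val_of_app
  obtain ⟨M₁, hM₁⟩ := h'.exists_prec d (s * n + 1)
  obtain ⟨M₂, hM₂⟩ : ∃ M₂ : ℤ, M₁ ≤ r * M₂ - c := by
    refine ⟨|M₁ + c|, ?_⟩
    have h1 := le_abs_self (M₁ + c)
    have h2 : 1 * |M₁ + c| ≤ r * |M₁ + c| :=
      mul_le_mul_of_nonneg_right (by have := H.posr; omega) (abs_nonneg _)
    omega
  let M := max M₀ M₂
  obtain ⟨y, hy⟩ := h.exists_app x M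
  obtain ⟨hy0, hyn⟩ := hM₀ y (hy.mono (le_max_left _ _))
  have h1 := hc M x y hy
  have h2 : u' (κ y) = s * n := by rw [H.valK, hyn]
  rw [← h2]
  refine hd _ _ _ h1 (by rwa [Ne, map_eq_zero]) ?_
  rw [h2]
  have h3 : M₁ ≤ r * M - c := by
    have h4 : r * M₂ ≤ r * M := mul_le_mul_of_nonneg_left (le_max_right _ _) H.posr.le
    omega
  have h5 : e' * M₁ ≤ e' * (r * M - c) := mul_le_mul_of_nonneg_left h3 h'.pos.le
  omega

theorem LocHom.nul (H : LocHom w₁ u w₁' u' Φ φ κ r s) (h : Loc w w₁ u e)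
    (h' : Loc w' w₁' u' e') {x : F₁ ⊗[F] K} (hx : Nul w₁ u x) : Nul w₁' u' (Φ x) := by
  intro n
  obtain ⟨M₀, hM₀⟩ := hx |n|
  obtain ⟨c, hc⟩ := H.exists_app h'.dw₁
  obtain ⟨d, hd⟩ := h'.close
  obtain ⟨M₁, hM₁⟩ := h'.exists_prec d n
  obtain ⟨M₂, hM₂⟩ : ∃ M₂ : ℤ, M₁ ≤ r * M₂ - c := by
    refine ⟨|M₁ + c|, ?_⟩
    have h1 := le_abs_self (M₁ + c)
    have h2 : 1 * |M₁ + c| ≤ r * |M₁ + c| :=
      mul_le_mul_of_nonneg_right (by have := H.posr; omega) (abs_nonneg _)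
    omega
  let M := max M₀ M₂
  obtain ⟨y, hy⟩ := h.exists_app x M
  have hyn := hM₀ y (hy.mono (le_max_left _ _))
  have h1 := hc M x y hy
  refine ⟨r * M - c, fun y' hy' => ?_⟩
  have h3 : M₁ ≤ r * M - c := by
    have h4 : r * M₂ ≤ r * M := mul_le_mul_of_nonneg_left (le_max_right _ _) H.posr.le
    omega
  have h5 : e' * M₁ ≤ e' * (r * M - c) := mul_le_mul_of_nonneg_left h3 h'.pos.le
  have h6 : Ge u' n (y' - κ y) := (hd _ _ _ _ h1 hy').mono (by omega)
  have h7 : Ge u' n (κ y) := by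
    rcases hyn with h8 | h8
    · exact Or.inl (by rw [h8, map_zero])
    · refine Or.inr ?_
      rw [H.valK]
      have h9 : 1 * |n| ≤ s * u y := by
        refine (mul_le_mul_of_nonneg_left h8 zero_le_one).trans ?_
        exact mul_le_mul_of_nonneg_right (by have := H.poss; omega) ((abs_nonneg n).trans h8)
      have := le_abs_self n
      omega
  have h8 := h6.add h'.du h7
  rwa [sub_add_cancel] at h8

/-- functoriality of the point -/
theorem LocHom.comap_nul (H : LocHom w₁ u w₁' u' Φ φ κ r s) (h : Loc w w₁ u e)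
    (h' : Loc w' w₁' u' e') : (P025H731.nul h').comap Φ = P025H731.nul h := by
  ext x
  rw [Ideal.mem_comap]
  constructor
  · intro hx
    by_contra hc
    obtain ⟨n, hn⟩ := h.not_mem_nul.1 hc
    exact h'.not_nul (H.hasVal h h' hn) hx
  · intro hx
    exact H.nul h h' hx

/-- functoriality of the value -/
theorem LocHom.val_eq (H : LocHom w₁ u w₁' u' Φ φ κ r s) (h : Loc w w₁ u e)
    (h' : Loc w' w₁' u' e') (x : F₁ ⊗[F] K) : val w₁' u' (Φ x) = s * val w₁ u x := by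
  by_cases hx : x ∈ P025H731.nul h
  · have h1 : ¬ ∃ n, HasVal w₁ u x n := fun hc => h.not_mem_nul.2 hc hx
    have h2 : ¬ ∃ n, HasVal w₁' u' (Φ x) n :=
      fun hc => h'.not_mem_nul.2 hc (H.nul h h' hx)
    rw [val, val, dif_neg h1, dif_neg h2, mul_zero]
  · exact h'.val_eq (H.hasVal h h' (h.hasVal_val hx))

end func

end P025H731
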